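import Vale.Agent.Lib.P100.MP.Defs

/-!
# P100 moving planes: calculus, part A (second derivative test, minimum principle).
-/

open InnerProductSpace Laplacian

noncomputable section

namespace Vale.Agent.Lib.P100.MP

variable {n : ℕ}

/-- The one variable second derivative test: at a local minimum of a `C²` function of one real
variable (given through its derivative `g'` near `0`) the second derivative is nonnegative. -/
theorem second_deriv_nonneg {g g' : ℝ → ℝ} {g2 : ℝ} (hmin : IsLocalMin g 0)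
    (hg : ∀ᶠ t in nhds (0 : ℝ), HasDerivAt g (g' t) t) (hg' : HasDerivAt g' g2 0) : 0 ≤ g2 := by
  by_contra hneg
  push Not at hneg
  have hg0 : g' 0 = 0 := by
    have h0 : HasDerivAt g (g' 0) 0 := hg.self_of_nhds
    exact hmin.hasDerivAt_eq_zero h0
  -- `g'` is negative right of `0`, so `g` decreases strictly, against the local minimum.
  have hslope := hasDerivAt_iff_tendsto_slope.mp hg'
  have hev : ∀ᶠ t in nhdsWithin (0 : ℝ) {(0 : ℝ)}ᶜ, slope g' 0 t < 0 :=
    hslope.eventually (gt_mem_nhds hneg)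
  have hev2 : ∀ᶠ t in nhdsWithin (0 : ℝ) (Set.Ioi 0), g' t < 0 := by
    have h1 : nhdsWithin (0 : ℝ) (Set.Ioi 0) ≤ nhdsWithin (0 : ℝ) {(0 : ℝ)}ᶜ :=
      nhdsWithin_mono _ (fun t ht => ne_of_gt ht)
    filter_upwards [h1 hev, self_mem_nhdsWithin] with t ht htpos
    have htp : (0 : ℝ) < t := htpos
    rw [slope_def_field, hg0, sub_zero, sub_zero, div_lt_iff₀ htp, zero_mul] at ht
    exact ht
  rw [eventually_nhdsWithin_iff] at hev2
  have hall := (hg.and (hmin.and hev2))
  obtain ⟨ε, hε, hball⟩ := Metric.eventually_nhds_iff.mp hall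
  -- pick `t = ε/2`, mean value theorem on `[0, t]`
  have ht : (0 : ℝ) < ε / 2 := by positivity
  have hdist : ∀ s ∈ Set.Icc (0 : ℝ) (ε / 2), dist s 0 < ε := by
    intro s hs
    rw [Real.dist_eq, sub_zero, abs_of_nonneg hs.1]
    linarith [hs.2]
  have hcont : ContinuousOn g (Set.Icc 0 (ε / 2)) := fun s hs =>
    (hball (hdist s hs)).1.continuousAt.continuousWithinAt
  have hderiv : ∀ s ∈ Set.Ioo (0 : ℝ) (ε / 2), HasDerivAt g (g' s) s := fun s hs =>
    (hball (hdist s ⟨hs.1.le, hs.2.le⟩)).1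
  obtain ⟨s, hs, hs2⟩ := exists_hasDerivAt_eq_slope g g' ht hcont hderiv
  have hsneg : g' s < 0 := (hball (hdist s ⟨hs.1.le, hs.2.le⟩)).2.2 hs.1
  have hmin2 : g 0 ≤ g (ε / 2) := (hball (hdist (ε / 2) ⟨ht.le, le_rfl⟩)).2.1
  have h3 : (g (ε / 2) - g 0) / (ε / 2 - 0) < 0 := by rw [← hs2]; exact hsneg
  rw [div_lt_iff₀ (by linarith), zero_mul] at h3
  linarith

/-- Second derivative test. -/
theorem localMin_test {f : Eu n → ℝ} {x : Eu n} (hf : ContDiffAt ℝ 2 f x) (hx : IsLocalMin f x) :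
    fderiv ℝ f x = 0 ∧ 0 ≤ Δ f x := by
  have h1 : fderiv ℝ f x = 0 := hx.fderiv_eq_zero
  refine ⟨h1, ?_⟩
  rw [laplacian_eq_iteratedFDeriv_orthonormalBasis f (EuclideanSpace.basisFun (Fin n) ℝ)]
  refine Finset.sum_nonneg fun i _ => ?_
  rw [iteratedFDeriv_two_apply]
  simp only [Matrix.cons_val_zero, Matrix.cons_val_one, EuclideanSpace.basisFun_apply]
  set h : Eu n := ee i with hh
  have hC1 : ContDiffAt ℝ 1 (fderiv ℝ f) x := hf.fderiv_right (by norm_num)
  have hd2 : HasFDerivAt (fderiv ℝ f) (fderiv ℝ (fderiv ℝ f) x) x :=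
    (hC1.differentiableAt (by norm_num)).hasFDerivAt
  -- the line through `x`
  have hline : HasDerivAt (fun t : ℝ => x + t • h) h 0 := by
    simpa using ((hasDerivAt_id (0 : ℝ)).smul_const h).const_add x
  have hmin : IsLocalMin (fun t : ℝ => f (x + t • h)) 0 := by
    have hc : ContinuousAt (fun t : ℝ => x + t • h) 0 := hline.continuousAt
    have h0 : x + (0 : ℝ) • h = x := by simp
    have hx' : ∀ᶠ z in nhds (x + (0 : ℝ) • h), f x ≤ f z := by rw [h0]; exact hx
    have := hc.eventually hx'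
    filter_upwards [this] with t ht
    simpa using ht
  have hev : ∀ᶠ t in nhds (0 : ℝ), HasDerivAt (fun t : ℝ => f (x + t • h))
      (fderiv ℝ f (x + t • h) h) t := by
    have hdiff : ∀ᶠ z in nhds x, DifferentiableAt ℝ f z :=
      (hf.eventually (by simp)).mono fun z hz => hz.differentiableAt (by norm_num)
    have hc : ContinuousAt (fun t : ℝ => x + t • h) 0 := hline.continuousAt
    have h0 : x + (0 : ℝ) • h = x := by simp
    have hx' : ∀ᶠ z in nhds (x + (0 : ℝ) • h), DifferentiableAt ℝ f z := by rw [h0]; exact hdiff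
    have := hc.eventually hx'
    filter_upwards [this] with t ht
    have hl : HasDerivAt (fun s : ℝ => x + s • h) h t := by
      simpa using ((hasDerivAt_id t).smul_const h).const_add x
    exact ht.hasFDerivAt.comp_hasDerivAt t hl
  have hg' : HasDerivAt (fun t : ℝ => fderiv ℝ f (x + t • h) h)
      (fderiv ℝ (fderiv ℝ f) x h h) 0 := by
    have h0 : x + (0 : ℝ) • h = x := by simp
    have hd2' : HasFDerivAt (fderiv ℝ f) (fderiv ℝ (fderiv ℝ f) x) (x + (0 : ℝ) • h) := by
      rw [h0]; exact hd2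
    have h3 := hd2'.comp_hasDerivAt (0 : ℝ) hline
    have h4 := h3.clm_apply (hasDerivAt_const (0 : ℝ) h)
    simpa using h4
  exact second_deriv_nonneg hmin hev hg'

/-- Minimum principle: on a compact `K`, with open `U ⊆ K`, `f` continuous on `K`, nonnegative on
`K \ U`, `C²` on `U`, and with no negative local minimum in `U` in the sense that a point of `U`
with `f x < 0`, vanishing gradient and nonnegative Laplacian is impossible; then `f ≥ 0` on `K`. -/
theorem min_principle {K U : Set (Eu n)} {f : Eu n → ℝ} (hK : IsCompact K) (hU : IsOpen U)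
    (hUK : U ⊆ K) (hfc : ContinuousOn f K) (hfU : ContDiffOn ℝ 2 f U)
    (hbd : ∀ x ∈ K, x ∉ U → 0 ≤ f x)
    (hno : ∀ x ∈ U, f x < 0 → fderiv ℝ f x = 0 → 0 ≤ Δ f x → False) :
    ∀ x ∈ K, 0 ≤ f x := by
  intro x hx
  by_contra hneg
  push Not at hneg
  obtain ⟨x0, hx0, hmin⟩ := hK.exists_isMinOn ⟨x, hx⟩ hfc
  have hx0neg : f x0 < 0 := lt_of_le_of_lt (hmin hx) hneg
  have hx0U : x0 ∈ U := by
    by_contra hn
    exact absurd (hbd x0 hx0 hn) (not_le.mpr hx0neg)
  have hloc : IsLocalMin f x0 := by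
    filter_upwards [hU.mem_nhds hx0U] with z hz
    exact hmin (hUK hz)
  have hC : ContDiffAt ℝ 2 f x0 := hfU.contDiffAt (hU.mem_nhds hx0U)
  obtain ⟨h1, h2⟩ := localMin_test hC hloc
  exact hno x0 hx0U hx0neg h1 h2

end Vale.Agent.Lib.P100.MP
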