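import Vale.Agent.Lib.P100.MP.Defs

/-!
# P100 moving planes: calculus, part B (powers of the norm).
-/

open InnerProductSpace Laplacian Filter Topology

noncomputable section

namespace Vale.Agent.Lib.P100.MP

variable {n : ℕ}

private lemma contDiffAt_norm_rpow (e : ℝ) {x : Eu n} (hx : x ≠ 0) :
    ContDiffAt ℝ 2 (fun z : Eu n => ‖z‖ ^ e) x :=
  (contDiffAt_norm ℝ hx).rpow_const_of_ne (norm_ne_zero_iff.mpr hx)

/-- `pw a u` is `C²` off the origin. -/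
theorem contDiffOn_pw {u : Eu n → ℝ} (a : ℝ) (hu : ContDiffOn ℝ 2 u {0}ᶜ) :
    ContDiffOn ℝ 2 (pw a u) {0}ᶜ := by
  intro x hx
  have hx0 : x ≠ 0 := by simpa using hx
  have h1 := contDiffAt_norm_rpow a hx0
  have h2 : ContDiffAt ℝ 2 u x := hu.contDiffAt (isOpen_compl_singleton.mem_nhds hx)
  exact (h1.mul h2).contDiffWithinAt

private lemma hasFDerivAt_norm_rpow (e : ℝ) {x : Eu n} (hx : x ≠ 0) :
    HasFDerivAt (fun z : Eu n => ‖z‖ ^ e) ((e * ‖x‖ ^ (e - 2)) • innerSL ℝ x) x := by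
  have hpos : 0 < ‖x‖ := norm_pos_iff.mpr hx
  have h1 : HasFDerivAt (fun z : Eu n => ‖z‖ ^ 2) (2 • innerSL ℝ x) x :=
    (hasStrictFDerivAt_norm_sq x).hasFDerivAt
  have h2 := h1.rpow_const (p := e / 2) (Or.inl (by positivity))
  have h3 : (fun z : Eu n => (‖z‖ ^ 2) ^ (e / 2)) = fun z => ‖z‖ ^ e := by
    funext z
    rw [← Real.rpow_natCast, ← Real.rpow_mul (norm_nonneg z)]
    congr 1
    push_cast
    ring
  rw [h3] at h2
  have h4 : (e / 2 * (‖x‖ ^ 2) ^ (e / 2 - 1)) • (2 • innerSL ℝ x)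
      = (e * ‖x‖ ^ (e - 2)) • innerSL ℝ x := by
    have h5 : (‖x‖ ^ 2) ^ (e / 2 - 1) = ‖x‖ ^ (e - 2) := by
      rw [← Real.rpow_natCast, ← Real.rpow_mul (norm_nonneg x)]
      congr 1
      push_cast
      ring
    rw [h5, ← Nat.cast_smul_eq_nsmul ℝ 2, smul_smul]
    congr 1
    push_cast
    ring
  rw [h4] at h2
  exact h2

private lemma fderiv_norm_rpow_apply (e : ℝ) {x : Eu n} (hx : x ≠ 0) (v : Eu n) :
    fderiv ℝ (fun z : Eu n => ‖z‖ ^ e) x v = e * ‖x‖ ^ (e - 2) * inner ℝ x v := by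
  rw [(hasFDerivAt_norm_rpow e hx).fderiv]
  simp

private lemma second_norm_rpow (e : ℝ) {x : Eu n} (hx : x ≠ 0) (v : Eu n) :
    fderiv ℝ (fderiv ℝ (fun z : Eu n => ‖z‖ ^ e)) x v v
      = e * (e - 2) * ‖x‖ ^ (e - 4) * (inner ℝ x v) ^ 2 + e * ‖x‖ ^ (e - 2) * ‖v‖ ^ 2 := by
  have hE : fderiv ℝ (fun z : Eu n => ‖z‖ ^ e)
      =ᶠ[𝓝 x] fun y => (e * ‖y‖ ^ (e - 2)) • innerSL ℝ y := by
    filter_upwards [isOpen_ne.mem_nhds hx] with y hy
    exact (hasFDerivAt_norm_rpow e hy).fderiv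
  rw [hE.fderiv_eq]
  have h1 : HasFDerivAt (fun y : Eu n => e * ‖y‖ ^ (e - 2))
      (e • (((e - 2) * ‖x‖ ^ (e - 2 - 2)) • innerSL ℝ x)) x :=
    (hasFDerivAt_norm_rpow (e - 2) hx).const_smul e
  have h2 : HasFDerivAt (fun y : Eu n => innerSL ℝ y) (innerSL ℝ : Eu n →L[ℝ] Eu n →L[ℝ] ℝ) x :=
    (innerSL ℝ : Eu n →L[ℝ] Eu n →L[ℝ] ℝ).hasFDerivAt
  have h3 := h1.fun_smul h2
  rw [h3.fderiv]
  have h4 : e - 2 - 2 = e - 4 := by ring
  simp only [add_apply, smul_apply, ContinuousLinearMap.smulRight_apply, innerSL_apply_apply,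
    smul_eq_mul, h4]
  have h5 : (innerSL ℝ v) v = ‖v‖ ^ 2 := by
    rw [innerSL_apply_apply, real_inner_self_eq_norm_sq]
  rw [h5]
  ring

private lemma second_mul {f g : Eu n → ℝ} {x : Eu n} (hf : ContDiffAt ℝ 2 f x)
    (hg : ContDiffAt ℝ 2 g x) (v : Eu n) :
    fderiv ℝ (fderiv ℝ (fun z => f z * g z)) x v v
      = f x * fderiv ℝ (fderiv ℝ g) x v v + 2 * (fderiv ℝ f x v * fderiv ℝ g x v)
        + g x * fderiv ℝ (fderiv ℝ f) x v v := by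
  have hf1 : ∀ᶠ y in 𝓝 x, DifferentiableAt ℝ f y :=
    (hf.eventually (by simp)).mono fun y hy => hy.differentiableAt (by norm_num)
  have hg1 : ∀ᶠ y in 𝓝 x, DifferentiableAt ℝ g y :=
    (hg.eventually (by simp)).mono fun y hy => hy.differentiableAt (by norm_num)
  have hE : fderiv ℝ (fun z => f z * g z)
      =ᶠ[𝓝 x] fun y => f y • fderiv ℝ g y + g y • fderiv ℝ f y := by
    filter_upwards [hf1, hg1] with y h1 h2
    exact fderiv_fun_mul h1 h2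
  rw [hE.fderiv_eq]
  have hDf : HasFDerivAt f (fderiv ℝ f x) x := (hf.differentiableAt (by norm_num)).hasFDerivAt
  have hDg : HasFDerivAt g (fderiv ℝ g x) x := (hg.differentiableAt (by norm_num)).hasFDerivAt
  have hD2f : HasFDerivAt (fderiv ℝ f) (fderiv ℝ (fderiv ℝ f) x) x :=
    ((hf.fderiv_right (m := 1) (by norm_num)).differentiableAt (by norm_num)).hasFDerivAt
  have hD2g : HasFDerivAt (fderiv ℝ g) (fderiv ℝ (fderiv ℝ g) x) x :=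
    ((hg.fderiv_right (m := 1) (by norm_num)).differentiableAt (by norm_num)).hasFDerivAt
  have h3 := (hDf.fun_smul hD2g).fun_add (hDg.fun_smul hD2f)
  rw [h3.fderiv]
  simp only [add_apply, smul_apply, ContinuousLinearMap.smulRight_apply, smul_eq_mul]
  ring

private lemma lap_eq_sum (f : Eu n → ℝ) (x : Eu n) :
    Δ f x = ∑ i, fderiv ℝ (fderiv ℝ f) x (EuclideanSpace.basisFun (Fin n) ℝ i)
      (EuclideanSpace.basisFun (Fin n) ℝ i) := by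
  rw [laplacian_eq_iteratedFDeriv_orthonormalBasis f (EuclideanSpace.basisFun (Fin n) ℝ)]
  refine Finset.sum_congr rfl fun i _ => ?_
  rw [iteratedFDeriv_two_apply]
  simp only [Matrix.cons_val_zero, Matrix.cons_val_one]

private lemma sum_inner_sq (x : Eu n) :
    ∑ i, (inner ℝ x (EuclideanSpace.basisFun (Fin n) ℝ i)) ^ 2 = ‖x‖ ^ 2 := by
  have h := (EuclideanSpace.basisFun (Fin n) ℝ).sum_sq_norm_inner_right x
  rw [← h]
  refine Finset.sum_congr rfl fun i _ => ?_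
  rw [Real.norm_eq_abs, sq_abs, real_inner_comm]

private lemma sum_inner_apply (x : Eu n) (l : Eu n →L[ℝ] ℝ) :
    ∑ i, inner ℝ x (EuclideanSpace.basisFun (Fin n) ℝ i)
      * l (EuclideanSpace.basisFun (Fin n) ℝ i) = l x := by
  conv_rhs => rw [← (EuclideanSpace.basisFun (Fin n) ℝ).sum_repr' x]
  rw [map_sum]
  refine Finset.sum_congr rfl fun i _ => ?_
  rw [map_smul, smul_eq_mul, real_inner_comm]

private lemma norm_basis (i : Fin n) : ‖EuclideanSpace.basisFun (Fin n) ℝ i‖ = 1 :=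
  (EuclideanSpace.basisFun (Fin n) ℝ).orthonormal.1 i

/-- The radial derivative of a power of the norm. -/
theorem Dr_norm_rpow (e : ℝ) {x : Eu n} (hx : x ≠ 0) :
    Dr (fun z : Eu n => ‖z‖ ^ e) x = e * ‖x‖ ^ e := by
  have hpos : 0 < ‖x‖ := norm_pos_iff.mpr hx
  unfold Dr
  rw [fderiv_norm_rpow_apply e hx, real_inner_self_eq_norm_sq]
  have h : ‖x‖ ^ (e - 2) * ‖x‖ ^ 2 = ‖x‖ ^ e := by
    rw [← Real.rpow_natCast, ← Real.rpow_add hpos]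
    congr 1
    push_cast
    ring
  rw [mul_assoc, h]

/-- The radial derivative of `pw a u`. -/
theorem Dr_pw {u : Eu n → ℝ} (a : ℝ) {x : Eu n} (hx : x ≠ 0) (hu : ContDiffAt ℝ 2 u x) :
    Dr (pw a u) x = ‖x‖ ^ a * (Dr u x + a * u x) := by
  have h1 : DifferentiableAt ℝ (fun z : Eu n => ‖z‖ ^ a) x :=
    (hasFDerivAt_norm_rpow a hx).differentiableAt
  have h2 : DifferentiableAt ℝ u x := hu.differentiableAt (by norm_num)
  have hpw : pw a u = fun z => ‖z‖ ^ a * u z := rfl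
  have h3 : Dr (fun z : Eu n => ‖z‖ ^ a) x = a * ‖x‖ ^ a := Dr_norm_rpow a hx
  unfold Dr at h3 ⊢
  rw [hpw, fderiv_fun_mul h1 h2]
  simp only [add_apply, smul_apply, smul_eq_mul]
  rw [h3]
  ring

/-- The Laplacian of a power of the norm. -/
theorem lap_norm_rpow (e : ℝ) {x : Eu n} (hx : x ≠ 0) :
    ‖x‖ ^ 2 * Δ (fun z : Eu n => ‖z‖ ^ e) x = e * (e + (n : ℝ) - 2) * ‖x‖ ^ e := by
  have hpos : 0 < ‖x‖ := norm_pos_iff.mpr hx
  rw [lap_eq_sum]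
  simp only [second_norm_rpow e hx, norm_basis, one_pow, mul_one]
  rw [Finset.sum_add_distrib, ← Finset.mul_sum, sum_inner_sq, Finset.sum_const, Finset.card_univ,
    Fintype.card_fin, nsmul_eq_mul]
  have h1 : ‖x‖ ^ (e - 4) * ‖x‖ ^ 2 = ‖x‖ ^ (e - 2) := by
    rw [← Real.rpow_natCast, ← Real.rpow_add hpos]
    congr 1
    push_cast
    ring
  have h2 : ‖x‖ ^ (e - 2) * ‖x‖ ^ 2 = ‖x‖ ^ e := by
    rw [← Real.rpow_natCast, ← Real.rpow_add hpos]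
    congr 1
    push_cast
    ring
  calc ‖x‖ ^ 2 * (e * (e - 2) * ‖x‖ ^ (e - 4) * ‖x‖ ^ 2 + n * (e * ‖x‖ ^ (e - 2)))
      = ‖x‖ ^ 2 * (e * (e - 2) * (‖x‖ ^ (e - 4) * ‖x‖ ^ 2) + n * (e * ‖x‖ ^ (e - 2))) := by ring
    _ = e * (e + (n : ℝ) - 2) * (‖x‖ ^ (e - 2) * ‖x‖ ^ 2) := by rw [h1]; ring
    _ = e * (e + (n : ℝ) - 2) * ‖x‖ ^ e := by rw [h2]

/-- The Laplacian of `pw a u`. -/
theorem lap_pw {u : Eu n → ℝ} (a : ℝ) {x : Eu n} (hx : x ≠ 0) (hu : ContDiffAt ℝ 2 u x) :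
    ‖x‖ ^ 2 * Δ (pw a u) x = ‖x‖ ^ (a + 2) * Δ u x + 2 * a * ‖x‖ ^ a * Dr u x
      + a * (a + (n : ℝ) - 2) * ‖x‖ ^ a * u x := by
  have hpos : 0 < ‖x‖ := norm_pos_iff.mpr hx
  have hN := contDiffAt_norm_rpow a hx
  have hpw : pw a u = fun z => ‖z‖ ^ a * u z := rfl
  have hN2 := lap_norm_rpow (n := n) a hx
  rw [lap_eq_sum (fun z : Eu n => ‖z‖ ^ a) x] at hN2
  have h3 : ∑ i, 2 * (a * ‖x‖ ^ (a - 2) * inner ℝ x (EuclideanSpace.basisFun (Fin n) ℝ i)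
        * fderiv ℝ u x (EuclideanSpace.basisFun (Fin n) ℝ i))
      = 2 * (a * ‖x‖ ^ (a - 2)) * Dr u x := by
    unfold Dr
    rw [← sum_inner_apply x (fderiv ℝ u x), Finset.mul_sum]
    refine Finset.sum_congr rfl fun i _ => ?_
    ring
  rw [hpw, lap_eq_sum]
  simp only [second_mul hN hu, fderiv_norm_rpow_apply a hx]
  rw [Finset.sum_add_distrib, Finset.sum_add_distrib, h3, ← Finset.mul_sum, ← Finset.mul_sum,
    ← lap_eq_sum]
  have h2 : ‖x‖ ^ (a - 2) * ‖x‖ ^ 2 = ‖x‖ ^ a := by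
    rw [← Real.rpow_natCast, ← Real.rpow_add hpos]
    congr 1
    push_cast
    ring
  have h4 : ‖x‖ ^ a * ‖x‖ ^ 2 = ‖x‖ ^ (a + 2) := by
    rw [← Real.rpow_natCast, ← Real.rpow_add hpos]
    congr 1
  calc ‖x‖ ^ 2 * (‖x‖ ^ a * Δ u x + 2 * (a * ‖x‖ ^ (a - 2)) * Dr u x + u x *
        ∑ i, fderiv ℝ (fderiv ℝ fun z : Eu n => ‖z‖ ^ a) x (EuclideanSpace.basisFun (Fin n) ℝ i)
          (EuclideanSpace.basisFun (Fin n) ℝ i))
      = (‖x‖ ^ a * ‖x‖ ^ 2) * Δ u x + 2 * a * (‖x‖ ^ (a - 2) * ‖x‖ ^ 2) * Dr u x + u x *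
        (‖x‖ ^ 2 * ∑ i, fderiv ℝ (fderiv ℝ fun z : Eu n => ‖z‖ ^ a) x
          (EuclideanSpace.basisFun (Fin n) ℝ i) (EuclideanSpace.basisFun (Fin n) ℝ i)) := by ring
    _ = ‖x‖ ^ (a + 2) * Δ u x + 2 * a * ‖x‖ ^ a * Dr u x
        + a * (a + (n : ℝ) - 2) * ‖x‖ ^ a * u x := by
        rw [hN2, h2, h4]
        ring

/-- The normalised operator on `pw a u`. -/
theorem op_pw {u : Eu n → ℝ} (a : ℝ) {x : Eu n} (hx : x ≠ 0) (hu : ContDiffAt ℝ 2 u x) :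
    ‖x‖ ^ 2 * Δ (pw a u) x - 2 * a * Dr (pw a u) x - a * ((n : ℝ) - 2 - a) * pw a u x
      = ‖x‖ ^ (a + 2) * Δ u x := by
  rw [lap_pw a hx hu, Dr_pw a hx hu]
  simp only [pw]
  ring

end Vale.Agent.Lib.P100.MP
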