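import Vale.Agent.Lib.P100.MP.Defs

/-!
# P100 moving planes: calculus, part C (inversion): the Kelvin formula.
-/

open InnerProductSpace Laplacian
open scoped RealInnerProductSpace

noncomputable section

namespace Vale.Agent.Lib.P100.MP

variable {n : ℕ}

/-- The Laplacian as a sum of second directional derivatives. -/
theorem lap_eq_sum {f : Eu n → ℝ} (x : Eu n) :
    Δ f x = ∑ i, fderiv ℝ (fderiv ℝ f) x (ee i) (ee i) := by
  rw [laplacian_eq_iteratedFDeriv_orthonormalBasis f (EuclideanSpace.basisFun (Fin n) ℝ)]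
  refine Finset.sum_congr rfl fun i _ => ?_
  rw [iteratedFDeriv_two_apply]
  simp only [Matrix.cons_val_zero, Matrix.cons_val_one, EuclideanSpace.basisFun_apply]

/-- Second order chain rule. -/
theorem Q_comp {F : Eu n → ℝ} {P : Eu n → Eu n} {x : Eu n} (hP : ContDiffAt ℝ 2 P x)
    (hF : ContDiffAt ℝ 2 F (P x)) (h : Eu n) :
    fderiv ℝ (fderiv ℝ (fun z => F (P z))) x h h
      = fderiv ℝ (fderiv ℝ F) (P x) (fderiv ℝ P x h) (fderiv ℝ P x h)
        + fderiv ℝ F (P x) (fderiv ℝ (fderiv ℝ P) x h h) := by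
  have h1F : ContDiffAt ℝ 1 (fderiv ℝ F) (P x) := hF.fderiv_right (by norm_num)
  have h1P : ContDiffAt ℝ 1 (fderiv ℝ P) x := hP.fderiv_right (by norm_num)
  have hdF : DifferentiableAt ℝ (fderiv ℝ F) (P x) := h1F.differentiableAt (by norm_num)
  have hdP : DifferentiableAt ℝ (fderiv ℝ P) x := h1P.differentiableAt (by norm_num)
  have hPd : DifferentiableAt ℝ P x := hP.differentiableAt (by norm_num)
  have hev : (fderiv ℝ (fun z => F (P z))) =ᶠ[nhds x]
      fun z => (fderiv ℝ F (P z)).comp (fderiv ℝ P z) := by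
    have h2 : ∀ᶠ z in nhds x, DifferentiableAt ℝ P z :=
      (hP.eventually (by simp)).mono fun z hz => hz.differentiableAt (by norm_num)
    have h3 : ∀ᶠ z in nhds x, DifferentiableAt ℝ F (P z) := by
      have := hP.continuousAt.eventually (hF.eventually (by simp))
      exact this.mono fun z hz => hz.differentiableAt (by norm_num)
    filter_upwards [h2, h3] with z hz1 hz2
    exact fderiv_comp z hz2 hz1
  have hc : HasFDerivAt (fun z => fderiv ℝ F (P z))
      ((fderiv ℝ (fderiv ℝ F) (P x)).comp (fderiv ℝ P x)) x :=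
    hdF.hasFDerivAt.comp x hPd.hasFDerivAt
  have hd : HasFDerivAt (fderiv ℝ P) (fderiv ℝ (fderiv ℝ P) x) x := hdP.hasFDerivAt
  have hcomp := hc.clm_comp hd
  rw [hev.fderiv_eq, hcomp.fderiv]
  simp only [_root_.add_apply, ContinuousLinearMap.comp_apply,
    ContinuousLinearMap.compL_apply, ContinuousLinearMap.flip_apply]
  rw [add_comm]

theorem norm_invc {c : ℝ} (hc : 0 < c) {x : Eu n} (hx : x ≠ 0) : ‖inv c x‖ = c / ‖x‖ := by
  have hxpos : 0 < ‖x‖ := norm_pos_iff.mpr hx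
  rw [inv, norm_smul, Real.norm_of_nonneg (by positivity)]
  field_simp

theorem inv_ne_zero {c : ℝ} (hc : 0 < c) {x : Eu n} (hx : x ≠ 0) : inv c x ≠ 0 := by
  have hxpos : 0 < ‖x‖ := norm_pos_iff.mpr hx
  rw [← norm_pos_iff, norm_invc hc hx]
  positivity

theorem contDiffAt_inv {c : ℝ} {x : Eu n} (hx : x ≠ 0) : ContDiffAt ℝ 2 (inv c : Eu n → Eu n) x := by
  have hxpos : 0 < ‖x‖ := norm_pos_iff.mpr hx
  have h1 : ContDiffAt ℝ 2 (fun z : Eu n => ‖z‖ ^ 2) x := (contDiff_norm_sq ℝ).contDiffAt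
  have h2 : ContDiffAt ℝ 2 (fun z : Eu n => c / ‖z‖ ^ 2) x :=
    contDiffAt_const.div h1 (by positivity)
  exact h2.smul contDiffAt_id

/-- `F ∘ inv c` is `C²` off the origin. -/
theorem contDiffOn_comp_inv {F : Eu n → ℝ} {c : ℝ} (hc : 0 < c) (hF : ContDiffOn ℝ 2 F {0}ᶜ) :
    ContDiffOn ℝ 2 (fun z => F (inv c z)) {0}ᶜ := by
  intro x hx
  have hx0 : x ≠ 0 := hx
  have h1 : ContDiffAt ℝ 2 F (inv c x) :=
    hF.contDiffAt (isOpen_compl_singleton.mem_nhds (inv_ne_zero hc hx0))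
  exact (h1.comp x (contDiffAt_inv hx0)).contDiffWithinAt

/-- The derivative of `c/‖z‖²`. -/
theorem hasFDerivAt_g {c : ℝ} {x : Eu n} (hx : x ≠ 0) :
    HasFDerivAt (fun z : Eu n => c / ‖z‖ ^ 2)
      ((-(2 * c) / (‖x‖ ^ 2) ^ 2) • innerSL ℝ x) x := by
  have hxpos : 0 < ‖x‖ := norm_pos_iff.mpr hx
  have h1 : HasFDerivAt (fun z : Eu n => ‖z‖ ^ 2) (2 • innerSL ℝ x) x :=
    (hasStrictFDerivAt_norm_sq x).hasFDerivAt
  have hne : ‖x‖ ^ 2 ≠ 0 := by positivity
  have h3 : HasDerivAt (fun r : ℝ => c / r) (-c / (‖x‖ ^ 2) ^ 2) (‖x‖ ^ 2) := by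
    have := (hasDerivAt_inv hne).const_mul c
    simpa [div_eq_mul_inv, mul_comm, mul_assoc, mul_left_comm] using this
  have h2 := h3.comp_hasFDerivAt x h1
  refine h2.congr_fderiv ?_
  ext v
  simp only [smul_apply]
  simp
  field_simp

/-- The first derivative of the inversion (at any point off the origin). -/
theorem fderiv_inv {c : ℝ} {x : Eu n} (hx : x ≠ 0) (h : Eu n) :
    fderiv ℝ (inv c) x h = (c / ‖x‖ ^ 2) • h + (-(2 * c) * ⟪x, h⟫ / (‖x‖ ^ 2) ^ 2) • x := by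
  have h1 := hasFDerivAt_g (c := c) hx
  have h2 : HasFDerivAt (inv c : Eu n → Eu n) _ x := h1.smul (hasFDerivAt_id x)
  rw [h2.fderiv]
  simp
  ring_nf

/-- The second derivative of the inversion. -/
theorem second_inv {c : ℝ} {x : Eu n} (hx : x ≠ 0) (h : Eu n) :
    fderiv ℝ (fderiv ℝ (inv c)) x h h
      = (-(4 * c) * ⟪x, h⟫ / (‖x‖ ^ 2) ^ 2) • h
        + (-(2 * c) * ‖h‖ ^ 2 / (‖x‖ ^ 2) ^ 2 + 8 * c * ⟪x, h⟫ ^ 2 / (‖x‖ ^ 2) ^ 3) • x := by
  have hxpos : 0 < ‖x‖ := norm_pos_iff.mpr hx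
  have hr : 0 < ‖x‖ ^ 2 := by positivity
  -- reduce to the derivative of the closed form
  have hCT : ContDiffAt ℝ 1 (fderiv ℝ (inv c : Eu n → Eu n)) x :=
    (contDiffAt_inv hx).fderiv_right (by norm_num)
  have hT : HasFDerivAt (fderiv ℝ (inv c : Eu n → Eu n)) (fderiv ℝ (fderiv ℝ (inv c)) x) x :=
    (hCT.differentiableAt (by norm_num)).hasFDerivAt
  have hTh : HasFDerivAt (fun z => fderiv ℝ (inv c : Eu n → Eu n) z h)
      ((fderiv ℝ (fderiv ℝ (inv c)) x).flip h) x := by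
    have := hT.clm_apply (hasFDerivAt_const h x)
    simpa using this
  -- the closed form
  let m : Eu n → ℝ := fun z => -(2 * c) / (‖z‖ ^ 2) ^ 2
  have hm : HasFDerivAt m ((8 * c / (‖x‖ ^ 2) ^ 3) • innerSL ℝ x) x := by
    have h1 : HasFDerivAt (fun z : Eu n => ‖z‖ ^ 2) (2 • innerSL ℝ x) x :=
      (hasStrictFDerivAt_norm_sq x).hasFDerivAt
    have h3 : HasDerivAt (fun r : ℝ => -(2 * c) / r ^ 2) (4 * c / (‖x‖ ^ 2) ^ 3) (‖x‖ ^ 2) := by
      have h4 : HasDerivAt (fun r : ℝ => r ^ 2) (2 * ‖x‖ ^ 2) (‖x‖ ^ 2) := by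
        simpa using hasDerivAt_pow 2 (‖x‖ ^ 2)
      have h5 := (hasDerivAt_const (‖x‖ ^ 2) (-(2 * c))).div h4 (by positivity)
      refine h5.congr_deriv ?_
      field_simp
      ring
    have h2 := h3.comp_hasFDerivAt x h1
    refine h2.congr_fderiv ?_
    ext v
    simp only [smul_apply]
    simp
    field_simp
    ring
  have hin : HasFDerivAt (fun z : Eu n => ⟪z, h⟫) (innerSL ℝ h) x := by
    have : (fun z : Eu n => ⟪z, h⟫) = fun z => innerSL ℝ h z := by
      ext z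
      simp [real_inner_comm]
    rw [this]
    exact (innerSL ℝ h).hasFDerivAt
  have hk : HasFDerivAt (fun z : Eu n => m z * ⟪z, h⟫)
      (m x • innerSL ℝ h + ⟪x, h⟫ • ((8 * c / (‖x‖ ^ 2) ^ 3) • innerSL ℝ x)) x := hm.mul hin
  have hE1 : HasFDerivAt (fun z : Eu n => (c / ‖z‖ ^ 2) • h)
      (((-(2 * c) / (‖x‖ ^ 2) ^ 2) • innerSL ℝ x).smulRight h) x :=
    (hasFDerivAt_g (c := c) hx).smul_const h
  have hE2 := hk.smul (hasFDerivAt_id x)
  have hE := hE1.add hE2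
  have hev : (fun z => fderiv ℝ (inv c : Eu n → Eu n) z h) =ᶠ[nhds x]
      (fun z : Eu n => (c / ‖z‖ ^ 2) • h) + (fun z : Eu n => (m z * ⟪z, h⟫) • id z) := by
    filter_upwards [isOpen_compl_singleton.mem_nhds hx] with z hz
    have hz0 : z ≠ 0 := hz
    simp only [Pi.add_apply, id, m]
    rw [fderiv_inv hz0]
    congr 2
    ring
  have hfin := (hE.congr_of_eventuallyEq hev).unique hTh
  have h6 := congrArg (fun L => L h) hfin
  simp only [ContinuousLinearMap.flip_apply] at h6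
  rw [← h6]
  simp only [m, _root_.add_apply, smul_apply, ContinuousLinearMap.smulRight_apply, id]
  simp
  rw [← add_assoc, ← add_smul]
  congr 2
  · ring
  · ring

theorem sum_coord_smul (x : Eu n) : ∑ i, x i • (ee i : Eu n) = x := by
  have h := (EuclideanSpace.basisFun (Fin n) ℝ).sum_repr x
  simpa using h

theorem sum_coord_sq (x : Eu n) : ∑ i, x i ^ 2 = ‖x‖ ^ 2 := by
  rw [EuclideanSpace.real_norm_sq_eq]

theorem inner_ee (x : Eu n) (i : Fin n) : ⟪x, (ee i : Eu n)⟫ = x i := by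
  simp [EuclideanSpace.inner_single_right]

theorem norm_ee (i : Fin n) : ‖(ee i : Eu n)‖ = 1 := by
  simp

/-- The radial derivative under inversion. -/
theorem kelvin_Dr {F : Eu n → ℝ} {c : ℝ} (hc : 0 < c) {x : Eu n} (hx : x ≠ 0)
    (hF : ContDiffAt ℝ 2 F (inv c x)) :
    Dr (fun z => F (inv c z)) x = - Dr F (inv c x) := by
  have hxpos : 0 < ‖x‖ := norm_pos_iff.mpr hx
  have hd : HasFDerivAt (fun z => F (inv c z)) ((fderiv ℝ F (inv c x)).comp (fderiv ℝ (inv c) x)) x :=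
    ((hF.differentiableAt (by norm_num)).hasFDerivAt).comp x
      (((contDiffAt_inv hx).differentiableAt (by norm_num)).hasFDerivAt)
  simp only [Dr]
  rw [hd.fderiv, ContinuousLinearMap.comp_apply, fderiv_inv hx]
  have h1 : (c / ‖x‖ ^ 2) • x + (-(2 * c) * ⟪x, x⟫ / (‖x‖ ^ 2) ^ 2) • x = - inv c x := by
    rw [real_inner_self_eq_norm_sq, inv, ← add_smul, ← neg_smul]
    congr 1
    field_simp
    ring
  rw [h1, map_neg]

/-- The Laplacian under inversion: `‖x‖² Δ(F∘I)(x) = ‖y‖² ΔF(y) − 2(n−2) DF(y)`, `y = I x`. -/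
theorem kelvin_lap {F : Eu n → ℝ} {c : ℝ} (hc : 0 < c) {x : Eu n} (hx : x ≠ 0)
    (hF : ContDiffAt ℝ 2 F (inv c x)) :
    ‖x‖ ^ 2 * Δ (fun z => F (inv c z)) x
      = ‖inv c x‖ ^ 2 * Δ F (inv c x) - 2 * ((n : ℝ) - 2) * Dr F (inv c x) := by
  have hxpos : 0 < ‖x‖ := norm_pos_iff.mpr hx
  set r : ℝ := ‖x‖ ^ 2 with hr
  have hrpos : 0 < r := by positivity
  set y : Eu n := inv c x with hy
  set B := fderiv ℝ (fderiv ℝ F) y with hB
  set L := fderiv ℝ F y with hL
  have hterm : ∀ i : Fin n, fderiv ℝ (fderiv ℝ (fun z => F (inv c z))) x (ee i) (ee i)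
      = (c / r) ^ 2 * B (ee i) (ee i)
        + (c / r) * (-(2 * c) / r ^ 2) * (x i * B (ee i) x + x i * B x (ee i))
        + (-(2 * c) / r ^ 2) ^ 2 * (x i ^ 2 * B x x)
        + (-(4 * c) / r ^ 2) * (x i * L (ee i))
        + (-(2 * c) / r ^ 2 * L x)
        + (8 * c / r ^ 3) * (x i ^ 2 * L x) := by
    intro i
    rw [Q_comp (contDiffAt_inv hx) hF, second_inv hx, fderiv_inv hx, inner_ee, norm_ee]
    simp only [map_add, map_smul, _root_.add_apply, smul_apply, smul_eq_mul]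
    ring
  rw [lap_eq_sum x, Finset.sum_congr rfl (fun i _ => hterm i), lap_eq_sum y]
  have h1 : ∑ i, x i * B (ee i) x = B x x := by
    have : B (∑ i, x i • (ee i : Eu n)) x = ∑ i, x i * B (ee i) x := by
      simp [map_sum, _root_.sum_apply]
    rw [← this, sum_coord_smul]
  have h2 : ∑ i, x i * B x (ee i) = B x x := by
    have : B x (∑ i, x i • (ee i : Eu n)) = ∑ i, x i * B x (ee i) := by
      simp [map_sum]
    rw [← this, sum_coord_smul]
  have h3 : ∑ i, x i * L (ee i) = L x := by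
    have : L (∑ i, x i • (ee i : Eu n)) = ∑ i, x i * L (ee i) := by
      simp [map_sum]
    rw [← this, sum_coord_smul]
  have h4 : ∑ i, x i ^ 2 = r := sum_coord_sq x
  have hyn : ‖y‖ ^ 2 = c ^ 2 / r := by
    rw [hy, norm_invc hc hx, div_pow]
  have hDr : Dr F y = (c / r) * L x := by
    simp only [Dr]
    rw [← hL, hy, inv, map_smul, smul_eq_mul]
  simp only [Finset.sum_add_distrib, ← Finset.mul_sum, ← Finset.sum_mul, Finset.sum_const,
    Finset.card_univ, Fintype.card_fin, nsmul_eq_mul, h1, h2, h3, h4]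
  rw [hyn, hDr]
  field_simp
  ring

end Vale.Agent.Lib.P100.MP
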