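import Vale.Agent.Lib.P100.Defs

/-!
# P100: moving planes for the Hénon-Lane-Emden system, definitions.

`pw a u x = ‖x‖^a u x` is the scale normalisation `ũ = e^{a t} u(e^t θ)`; `inv c x = (c/‖x‖²) x` is
the inversion (reflection `t ↦ log c - t` of the cylinder); `Mono F l` is monotonicity along rays up
to level `l`. Paper proof: findings P100, kind=plan, helper42.
-/

open InnerProductSpace Laplacian

noncomputable section

namespace Vale.Agent.Lib.P100.MP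

variable {n : ℕ}

/-- The inversion `x ↦ (c/‖x‖²) x`. -/
def inv (c : ℝ) (x : Eu n) : Eu n := (c / ‖x‖ ^ 2) • x

/-- The radial derivative `x · ∇f`. -/
def Dr (f : Eu n → ℝ) (x : Eu n) : ℝ := fderiv ℝ f x x

/-- The normalisation `‖x‖^a u x`. -/
def pw (a : ℝ) (u : Eu n → ℝ) (x : Eu n) : ℝ := ‖x‖ ^ a * u x

/-- `F` is nondecreasing along rays: `F x ≤ F (s x)` for `s ≥ 1`, as long as `s ‖x‖² ≤ l²`
(the midpoint in the logarithmic scale is at radius at most `l`). -/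
def Mono (F : Eu n → ℝ) (l : ℝ) : Prop :=
  ∀ x : Eu n, x ≠ 0 → ∀ s : ℝ, 1 ≤ s → s * ‖x‖ ^ 2 ≤ l ^ 2 → F x ≤ F (s • x)

/-- The normalised equation `‖x‖²ΔF − 2a DF − a(n−2−a) F = −‖x‖^τ G^p` off the origin. -/
def Eqn (n : ℕ) (a τ p : ℝ) (F G : Eu n → ℝ) : Prop :=
  ∀ x : Eu n, x ≠ 0 →
    ‖x‖ ^ 2 * Δ F x - 2 * a * Dr F x - a * ((n : ℝ) - 2 - a) * F x = - (‖x‖ ^ τ * G x ^ p)

/-- The lower bound `f x ≥ c ‖x‖^(-e)` on `‖x‖ ≥ 1`. -/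
def LB (f : Eu n → ℝ) (e : ℝ) : Prop :=
  ∃ c : ℝ, 0 < c ∧ ∀ x : Eu n, 1 ≤ ‖x‖ → c * ‖x‖ ^ (-e) ≤ f x

/-- A positive entire solution, exactly as in the problem file. -/
structure Sol (n : ℕ) (A B p q : ℝ) (u v : Eu n → ℝ) : Prop where
  ucont : Continuous u
  vcont : Continuous v
  upos : ∀ x, 0 < u x
  vpos : ∀ x, 0 < v x
  uC2 : ContDiffOn ℝ 2 u {0}ᶜ
  vC2 : ContDiffOn ℝ 2 v {0}ᶜ
  ueq : ∀ x, x ≠ 0 → - Δ u x = ‖x‖ ^ A * v x ^ p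
  veq : ∀ x, x ≠ 0 → - Δ v x = ‖x‖ ^ B * u x ^ q

end Vale.Agent.Lib.P100.MP
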