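import Vale.Agent.Lib.P100.MP.Final

/-!
# P100 moving planes: the remaining easy zones. `n = 2`, `A ≤ -2` or `B ≤ -2`, `p q ≤ 1`.

So a positive entire solution forces `n ≥ 3`, `A, B > -2`, `p q > 1` and `min(α, β) ≤ (n-2)/2`.
-/

open InnerProductSpace Laplacian Filter Topology

noncomputable section

namespace Vale.Agent.Lib.P100.MP

variable {n : ℕ}

theorem ex_contDiffAt_norm_rpow (e : ℝ) {x : Eu n} (hx : x ≠ 0) :
    ContDiffAt ℝ 2 (fun z : Eu n => ‖z‖ ^ e) x := by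
  have hxpos : 0 < ‖x‖ := norm_pos_iff.mpr hx
  have h1 : ContDiffAt ℝ 2 (fun z : Eu n => ‖z‖) x := contDiffAt_norm ℝ hx
  exact h1.rpow_const_of_ne hxpos.ne'

/-- The Laplacian of a power, in divided form. -/
theorem ex_lap_norm_rpow (e : ℝ) {x : Eu n} (hx : x ≠ 0) :
    Δ (fun z : Eu n => ‖z‖ ^ e) x = e * (e + (n : ℝ) - 2) * ‖x‖ ^ (e - 2) := by
  have hxpos : 0 < ‖x‖ := norm_pos_iff.mpr hx
  have h := lap_norm_rpow (n := n) e hx
  have h2 : ‖x‖ ^ e = ‖x‖ ^ 2 * ‖x‖ ^ (e - 2) := by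
    rw [← Real.rpow_natCast, ← Real.rpow_add hxpos]
    congr 1
    push_cast
    ring
  rw [h2] at h
  have h3 : 0 < ‖x‖ ^ 2 := by positivity
  apply mul_left_cancel₀ h3.ne'
  rw [h]
  ring

/-- The comparison on an annulus. -/
theorem ex_annulus_cmp {u h : Eu n → ℝ} {ρ₁ ρ₂ : ℝ} (hn : 1 ≤ n) (hρ : 0 < ρ₁)
    (hu : ContDiffOn ℝ 2 u {0}ᶜ) (hh : ContDiffOn ℝ 2 h {0}ᶜ)
    (hL : ∀ x : Eu n, ρ₁ < ‖x‖ → ‖x‖ < ρ₂ → Δ u x ≤ Δ h x)
    (hb1 : ∀ x : Eu n, ‖x‖ = ρ₁ → h x ≤ u x) (hb2 : ∀ x : Eu n, ‖x‖ = ρ₂ → h x ≤ u x) :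
    ∀ x : Eu n, ρ₁ ≤ ‖x‖ → ‖x‖ ≤ ρ₂ → h x ≤ u x := by
  intro x hx1 hx2
  have hnR : (1 : ℝ) ≤ n := by exact_mod_cast hn
  refine le_of_forall_pos_le_add fun ε hε => ?_
  have hρ2 : 0 < ρ₂ := by linarith
  -- perturbation
  set η : ℝ := ε / (ρ₂ ^ 2 + 1) with hη
  have hηpos : 0 < η := by positivity
  let f : Eu n → ℝ := fun z => u z - h z + η * (ρ₂ ^ 2 - ‖z‖ ^ 2)
  have hK : IsCompact {z : Eu n | ρ₁ ≤ ‖z‖ ∧ ‖z‖ ≤ ρ₂} := by
    have h1 : {z : Eu n | ρ₁ ≤ ‖z‖ ∧ ‖z‖ ≤ ρ₂} = Metric.closedBall 0 ρ₂ ∩ {z | ρ₁ ≤ ‖z‖} := by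
      ext z
      simp [and_comm]
    rw [h1]
    exact (isCompact_closedBall _ _).inter_right (isClosed_le continuous_const continuous_norm)
  have hU : IsOpen {z : Eu n | ρ₁ < ‖z‖ ∧ ‖z‖ < ρ₂} :=
    (isOpen_lt continuous_const continuous_norm).inter (isOpen_lt continuous_norm continuous_const)
  have hne : ∀ z : Eu n, ρ₁ ≤ ‖z‖ → z ≠ 0 := fun z hz => by
    rw [← norm_pos_iff]
    linarith
  have hnsq : ContDiff ℝ 2 (fun z : Eu n => η * (ρ₂ ^ 2 - ‖z‖ ^ 2)) :=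
    contDiff_const.mul (contDiff_const.sub (contDiff_norm_sq ℝ))
  have hf1 : ContDiffOn ℝ 2 f {0}ᶜ := (hu.sub hh).add hnsq.contDiffOn
  have hsub : ∀ z : Eu n, ρ₁ ≤ ‖z‖ → z ∈ ({0}ᶜ : Set (Eu n)) := fun z hz => hne z hz
  have hmin := min_principle (f := f) hK hU (fun z hz => ⟨hz.1.le, hz.2.le⟩)
    (hf1.continuousOn.mono fun z hz => hsub z hz.1)
    (hf1.mono fun z hz => hsub z hz.1.le)
    (fun z hz hzU => by
      have hzb : ‖z‖ = ρ₁ ∨ ‖z‖ = ρ₂ := by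
        by_contra hcon
        push Not at hcon
        exact hzU ⟨lt_of_le_of_ne hz.1 (Ne.symm hcon.1), lt_of_le_of_ne hz.2 hcon.2⟩
      have h3 : h z ≤ u z := hzb.elim (hb1 z) (hb2 z)
      have h4 : 0 ≤ η * (ρ₂ ^ 2 - ‖z‖ ^ 2) := by
        refine mul_nonneg hηpos.le ?_
        have := hz.2
        have h0 := norm_nonneg z
        nlinarith
      simp only [f]
      linarith)
    (fun z hz _ _ hlap => by
      have hz0 : z ≠ 0 := hne z hz.1.le
      have hCu : ContDiffAt ℝ 2 u z := hu.contDiffAt (isOpen_compl_singleton.mem_nhds hz0)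
      have hCh : ContDiffAt ℝ 2 h z := hh.contDiffAt (isOpen_compl_singleton.mem_nhds hz0)
      have hCn : ContDiffAt ℝ 2 (fun z : Eu n => η * (ρ₂ ^ 2 - ‖z‖ ^ 2)) z := hnsq.contDiffAt
      have hlap2 : Δ f z = Δ u z - Δ h z + Δ (fun z : Eu n => η * (ρ₂ ^ 2 - ‖z‖ ^ 2)) z := by
        have h5 : f = (u - h) + (fun z : Eu n => η * (ρ₂ ^ 2 - ‖z‖ ^ 2)) := rfl
        have hCs : ContDiffAt ℝ 2 (u - h) z := hCu.sub hCh
        rw [h5, hCs.laplacian_add hCn, hCu.laplacian_sub hCh]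
      have hlap3 : Δ (fun z : Eu n => η * (ρ₂ ^ 2 - ‖z‖ ^ 2)) z = - (2 * (n : ℝ) * η) := by
        have h6 : (fun z : Eu n => η * (ρ₂ ^ 2 - ‖z‖ ^ 2))
            = (fun _ : Eu n => η * ρ₂ ^ 2) - (η • fun z : Eu n => ‖z‖ ^ (2 : ℝ)) := by
          ext w
          simp only [Pi.sub_apply, Pi.smul_apply, smul_eq_mul, Real.rpow_two]
          ring
        have hC2n : ContDiffAt ℝ 2 (fun z : Eu n => ‖z‖ ^ (2 : ℝ)) z := ex_contDiffAt_norm_rpow 2 hz0
        have hC3 : ContDiffAt ℝ 2 (η • fun z : Eu n => ‖z‖ ^ (2 : ℝ)) z := hC2n.const_smul η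
        have hC4 : ContDiffAt ℝ 2 (fun _ : Eu n => η * ρ₂ ^ 2) z := contDiffAt_const
        rw [h6, hC4.laplacian_sub hC3, laplacian_smul _ hC2n]
        have h7 := ex_lap_norm_rpow (n := n) 2 hz0
        have hconst : Δ (fun _ : Eu n => η * ρ₂ ^ 2) z = 0 := by
          have := laplacian_const (E := Eu n) (F := ℝ) (c := η * ρ₂ ^ 2)
          exact congrFun this z
        simp only [smul_eq_mul]
        rw [hconst, h7]
        norm_num
        ring
      have h8 := hL z hz.1 hz.2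
      have h9 : 0 < 2 * (n : ℝ) * η := by positivity
      rw [hlap2, hlap3] at hlap
      linarith)
    x ⟨hx1, hx2⟩
  simp only [f] at hmin
  have h10 : η * (ρ₂ ^ 2 - ‖x‖ ^ 2) ≤ ε := by
    have h11 : ρ₂ ^ 2 - ‖x‖ ^ 2 ≤ ρ₂ ^ 2 + 1 := by nlinarith [sq_nonneg ‖x‖]
    calc η * (ρ₂ ^ 2 - ‖x‖ ^ 2) ≤ η * (ρ₂ ^ 2 + 1) := mul_le_mul_of_nonneg_left h11 hηpos.le
      _ = ε := by rw [hη]; field_simp
  linarith

/-- Dimension two: the power barrier. -/
theorem dim2_bound {u : Eu 2 → ℝ} {m e b : ℝ} (hu : ContDiffOn ℝ 2 u {0}ᶜ)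
    (hpos : ∀ x, 0 < u x) (hsup : ∀ x : Eu 2, x ≠ 0 → Δ u x ≤ 0) (hm : 0 ≤ m)
    (hm1 : ∀ x : Eu 2, ‖x‖ = 1 → m ≤ u x) (hb : 0 < b) (x : Eu 2)
    (hx : (1 ≤ ‖x‖ ∧ ‖x‖ ≤ b) ∨ (b ≤ ‖x‖ ∧ ‖x‖ ≤ 1)) :
    m * (‖x‖ ^ e - b ^ e) ≤ u x := by
  have hbe : 0 < b ^ e := Real.rpow_pos_of_pos hb _
  have hC : ContDiffOn ℝ 2 (fun z : Eu 2 => m * (‖z‖ ^ e - b ^ e)) {0}ᶜ := by
    intro z hz
    have hz0 : z ≠ 0 := hz
    exact ((contDiffAt_const.mul ((ex_contDiffAt_norm_rpow e hz0).sub contDiffAt_const))).contDiffWithinAt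
  have hL : ∀ z : Eu 2, z ≠ 0 → Δ u z ≤ Δ (fun z : Eu 2 => m * (‖z‖ ^ e - b ^ e)) z := by
    intro z hz0
    have hzpos : 0 < ‖z‖ := norm_pos_iff.mpr hz0
    have h1 : (fun z : Eu 2 => m * (‖z‖ ^ e - b ^ e))
        = (m • fun z : Eu 2 => ‖z‖ ^ e) - (fun _ : Eu 2 => m * b ^ e) := by
      ext w
      simp only [Pi.sub_apply, Pi.smul_apply, smul_eq_mul]
      ring
    have hC2 : ContDiffAt ℝ 2 (fun z : Eu 2 => ‖z‖ ^ e) z := ex_contDiffAt_norm_rpow e hz0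
    have hC3 : ContDiffAt ℝ 2 (m • fun z : Eu 2 => ‖z‖ ^ e) z := hC2.const_smul m
    have hC4 : ContDiffAt ℝ 2 (fun _ : Eu 2 => m * b ^ e) z := contDiffAt_const
    have hconst : Δ (fun _ : Eu 2 => m * b ^ e) z = 0 := by
      have := laplacian_const (E := Eu 2) (F := ℝ) (c := m * b ^ e)
      exact congrFun this z
    rw [h1, hC3.laplacian_sub hC4, laplacian_smul _ hC2, hconst, ex_lap_norm_rpow e hz0]
    have h2 : 0 ≤ m * (e * (e + ((2 : ℕ) : ℝ) - 2) * ‖z‖ ^ (e - 2)) := by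
      refine mul_nonneg hm ?_
      have h3 : e * (e + ((2 : ℕ) : ℝ) - 2) = e ^ 2 := by
        push_cast
        ring
      rw [h3]
      exact mul_nonneg (sq_nonneg _) (Real.rpow_nonneg hzpos.le _)
    simp only [smul_eq_mul, sub_zero]
    exact (hsup z hz0).trans h2
  have h1b : ∀ z : Eu 2, ‖z‖ = 1 → m * (‖z‖ ^ e - b ^ e) ≤ u z := by
    intro z hz
    rw [hz, Real.one_rpow]
    have : m * (1 - b ^ e) ≤ m := by nlinarith
    exact this.trans (hm1 z hz)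
  have h2b : ∀ z : Eu 2, ‖z‖ = b → m * (‖z‖ ^ e - b ^ e) ≤ u z := by
    intro z hz
    rw [hz, sub_self, mul_zero]
    exact (hpos z).le
  rcases hx with ⟨h1, h2⟩ | ⟨h1, h2⟩
  · exact ex_annulus_cmp (by norm_num) one_pos hu hC
      (fun z hz1 _ => hL z (by rw [← norm_pos_iff]; linarith)) h1b h2b x h1 h2
  · exact ex_annulus_cmp (by norm_num) hb hu hC
      (fun z hz1 _ => hL z (by rw [← norm_pos_iff]; linarith)) h2b h1b x h1 h2

/-- **Dimension two.** No positive entire solution at all. -/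
theorem no_sol_n2 {A B p q : ℝ} {u v : Eu 2 → ℝ} (h : Sol 2 A B p q u v) : False := by
  have hS : IsCompact (Metric.sphere (0 : Eu 2) 1) := isCompact_sphere _ _
  have : Nontrivial (Eu 2) := by
    have : Nonempty (Fin 2) := ⟨0⟩
    infer_instance
  have hne : (Metric.sphere (0 : Eu 2) 1).Nonempty := NormedSpace.sphere_nonempty.mpr (by norm_num)
  obtain ⟨x0, hx0, hmin⟩ := hS.exists_isMinOn hne h.ucont.continuousOn
  have hx0n : ‖x0‖ = 1 := by simpa using hx0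
  have hx00 : x0 ≠ 0 := by
    rw [← norm_pos_iff, hx0n]
    norm_num
  set m := u x0 with hm
  have hmpos : 0 < m := h.upos x0
  have hm1 : ∀ x : Eu 2, ‖x‖ = 1 → m ≤ u x := fun x hx => hmin (by simpa using hx)
  have hsup := h.lap_neg
  -- the global lower bound off the origin
  have hlow : ∀ x : Eu 2, x ≠ 0 → m ≤ u x := by
    intro x hx
    have hxpos : 0 < ‖x‖ := norm_pos_iff.mpr hx
    rcases lt_trichotomy ‖x‖ 1 with hlt | heq | hgt
    · -- inside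
      have hstep : ∀ e : ℝ, 0 < e → m * ‖x‖ ^ e ≤ u x := by
        intro e he
        have ht : Tendsto (fun b : ℝ => m * (‖x‖ ^ e - b ^ e)) (𝓝[>] 0) (𝓝 (m * (‖x‖ ^ e - 0))) := by
          have h0 : Tendsto (fun b : ℝ => b ^ e) (𝓝[>] 0) (𝓝 0) := by
            have h1 : ContinuousAt (fun b : ℝ => b ^ e) 0 :=
              Real.continuousAt_rpow_const 0 e (Or.inr he.le)
            have h2 : Tendsto (fun b : ℝ => b ^ e) (𝓝 0) (𝓝 ((0 : ℝ) ^ e)) := h1
            rw [Real.zero_rpow he.ne'] at h2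
            exact h2.mono_left nhdsWithin_le_nhds
          exact (tendsto_const_nhds.sub h0).const_mul m
        rw [sub_zero] at ht
        refine le_of_tendsto ht ?_
        filter_upwards [Ioo_mem_nhdsGT hxpos] with b hb
        exact dim2_bound h.uC2 h.upos hsup hmpos.le hm1 hb.1 x (Or.inr ⟨hb.2.le, hlt.le⟩)
      have ht : Tendsto (fun e : ℝ => m * ‖x‖ ^ e) (𝓝[>] 0) (𝓝 (m * ‖x‖ ^ (0 : ℝ))) := by
        have h1 : ContinuousAt (fun e : ℝ => ‖x‖ ^ e) 0 :=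
          Real.continuousAt_const_rpow hxpos.ne'
        exact (Tendsto.const_mul m (h1.tendsto)).mono_left nhdsWithin_le_nhds
      rw [Real.rpow_zero, mul_one] at ht
      refine le_of_tendsto ht ?_
      filter_upwards [self_mem_nhdsWithin] with e he
      exact hstep e he
    · exact hm1 x heq
    · -- outside
      have hstep : ∀ e : ℝ, 0 < e → m * ‖x‖ ^ (-e) ≤ u x := by
        intro e he
        have ht : Tendsto (fun b : ℝ => m * (‖x‖ ^ (-e) - b ^ (-e))) atTop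
            (𝓝 (m * (‖x‖ ^ (-e) - 0))) :=
          (tendsto_const_nhds.sub (tendsto_rpow_neg_atTop he)).const_mul m
        rw [sub_zero] at ht
        refine le_of_tendsto ht ?_
        filter_upwards [eventually_ge_atTop ‖x‖] with b hb
        exact dim2_bound h.uC2 h.upos hsup hmpos.le hm1 (by linarith) x (Or.inl ⟨hgt.le, hb⟩)
      have ht : Tendsto (fun e : ℝ => m * ‖x‖ ^ (-e)) (𝓝[>] 0) (𝓝 (m * ‖x‖ ^ (-(0 : ℝ)))) := by
        have h1 : ContinuousAt (fun e : ℝ => ‖x‖ ^ (-e)) 0 :=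
          (Real.continuousAt_const_rpow hxpos.ne').comp continuousAt_neg
        exact (Tendsto.const_mul m (h1.tendsto)).mono_left nhdsWithin_le_nhds
      rw [neg_zero, Real.rpow_zero, mul_one] at ht
      refine le_of_tendsto ht ?_
      filter_upwards [self_mem_nhdsWithin] with e he
      exact hstep e he
  -- `x0` is a local minimum
  have hloc : IsLocalMin u x0 := by
    filter_upwards [isOpen_compl_singleton.mem_nhds hx00] with z hz
    exact hlow z hz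
  have hC : ContDiffAt ℝ 2 u x0 := h.uC2.contDiffAt (isOpen_compl_singleton.mem_nhds hx00)
  obtain ⟨_, h2⟩ := localMin_test hC hloc
  have h3 := h.ueq x0 hx00
  have h4 : 0 < ‖x0‖ ^ A * v x0 ^ p :=
    mul_pos (Real.rpow_pos_of_pos (norm_pos_iff.mpr hx00) _)
      (Real.rpow_pos_of_pos (h.vpos x0) _)
  linarith

/-- `LB` is monotone in the exponent. -/
theorem LB.mono_exp {f : Eu n → ℝ} {a a' : ℝ} (h : LB f a) (ha : a ≤ a') : LB f a' := by
  obtain ⟨c, hc, hf⟩ := h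
  refine ⟨c, hc, fun x hx => (mul_le_mul_of_nonneg_left ?_ hc.le).trans (hf x hx)⟩
  exact Real.rpow_le_rpow_of_exponent_le hx (by linarith)

/-- One step of the iteration. -/
theorem ex_step {A B p q b : ℝ} {u v : Eu n → ℝ} (hn : 3 ≤ n) (h : Sol n A B p q u v) (hp : 0 < p)
    (hb : LB v b) :
    (p * b - 2 - A ≤ 0 → False) ∧
      (0 < p * b - 2 - A → p * b - 2 - A < (n : ℝ) - 2 → LB u (p * b - 2 - A)) := by
  obtain ⟨c, hc, hf⟩ := hb
  refine lb_of_source (c := c ^ p) hn h.ucont h.upos h.uC2 (Real.rpow_pos_of_pos hc _) h.lap_neg ?_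
  intro x hx
  have hxpos : 0 < ‖x‖ := by linarith
  have hx0 : x ≠ 0 := norm_pos_iff.mp hxpos
  rw [h.ueq x hx0]
  have h1 : (c * ‖x‖ ^ (-b)) ^ p ≤ v x ^ p :=
    Real.rpow_le_rpow (mul_nonneg hc.le (Real.rpow_nonneg hxpos.le _)) (hf x hx) hp.le
  rw [Real.mul_rpow hc.le (Real.rpow_nonneg hxpos.le _), ← Real.rpow_mul hxpos.le] at h1
  have h2 : ‖x‖ ^ (-(p * b - 2 - A) - 2) = ‖x‖ ^ A * ‖x‖ ^ (-b * p) := by
    rw [← Real.rpow_add hxpos]
    congr 1
    ring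
  rw [h2]
  have h3 : 0 ≤ ‖x‖ ^ A := Real.rpow_nonneg hxpos.le _
  calc c ^ p * (‖x‖ ^ A * ‖x‖ ^ (-b * p)) = ‖x‖ ^ A * (c ^ p * ‖x‖ ^ (-b * p)) := by ring
    _ ≤ ‖x‖ ^ A * v x ^ p := mul_le_mul_of_nonneg_left h1 h3

/-- The sublinear case `p q ≤ 1`. -/
theorem no_sol_sublinear {A B p q : ℝ} {u v : Eu n → ℝ} (hn : 3 ≤ n) (hA : -2 < A) (hB : -2 < B)
    (hp : 0 < p) (hq : 0 < q) (hpq : p * q ≤ 1) (h : Sol n A B p q u v) : False := by
  have hnR : (3 : ℝ) ≤ n := by exact_mod_cast hn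
  set N : ℝ := (n : ℝ) - 2 with hN
  have hN1 : 1 ≤ N := by rw [hN]; linarith
  -- one pair step
  have hpair : ∀ a b : ℝ, 0 < a → a ≤ N → 0 < b → b ≤ N → LB u a → LB v b →
      ∃ a₁ b₁ : ℝ, 0 < a₁ ∧ a₁ ≤ N ∧ 0 < b₁ ∧ b₁ ≤ N ∧ LB u a₁ ∧ LB v b₁ ∧
        a₁ ≤ a ∧ b₁ ≤ b ∧ a₁ ≤ p * b - 2 - A ∧ b₁ ≤ q * a - 2 - B := by
    intro a b ha0 haN hb0 hbN hua hvb
    obtain ⟨hf1, hl1⟩ := ex_step hn h hp hvb
    obtain ⟨hf2, hl2⟩ := ex_step hn h.swap hq hua
    have he1 : 0 < p * b - 2 - A := by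
      by_contra hcon
      exact hf1 (not_lt.mp hcon)
    have he2 : 0 < q * a - 2 - B := by
      by_contra hcon
      exact hf2 (not_lt.mp hcon)
    refine ⟨min a (p * b - 2 - A), min b (q * a - 2 - B), lt_min ha0 he1,
      (min_le_left _ _).trans haN, lt_min hb0 he2, (min_le_left _ _).trans hbN, ?_, ?_,
      min_le_left _ _, min_le_left _ _, min_le_right _ _, min_le_right _ _⟩
    · by_cases hc : a ≤ p * b - 2 - A
      · rwa [min_eq_left hc]
      · push Not at hc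
        rw [min_eq_right hc.le]
        exact hl1 he1 (by linarith)
    · by_cases hc : b ≤ q * a - 2 - B
      · rwa [min_eq_left hc]
      · push Not at hc
        rw [min_eq_right hc.le]
        exact hl2 he2 (by linarith)
  have hδ : 0 < 2 + A := by linarith
  have hind : ∀ k : ℕ, ∃ a b : ℝ, 0 < a ∧ a ≤ N ∧ a ≤ N - k * (2 + A) ∧ 0 < b ∧ b ≤ N ∧
      LB u a ∧ LB v b := by
    intro k
    induction k with
    | zero =>
      refine ⟨N, N, by linarith, le_rfl, by simp, by linarith, le_rfl, ?_, ?_⟩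
      · exact base_lb hn h.ucont h.upos h.uC2 h.lap_neg
      · exact base_lb hn h.vcont h.vpos h.vC2 h.swap.lap_neg
    | succ k ih =>
      obtain ⟨a, b, ha0, haN, hak, hb0, hbN, hua, hvb⟩ := ih
      obtain ⟨a₁, b₁, ha10, ha1N, hb10, hb1N, hua1, hvb1, ha1a, hb1b, ha1e, hb1e⟩ :=
        hpair a b ha0 haN hb0 hbN hua hvb
      obtain ⟨a₂, b₂, ha20, ha2N, hb20, hb2N, hua2, hvb2, ha2a, hb2b, ha2e, hb2e⟩ :=
        hpair a₁ b₁ ha10 ha1N hb10 hb1N hua1 hvb1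
      refine ⟨a₂, b₂, ha20, ha2N, ?_, hb20, hb2N, hua2, hvb2⟩
      have h1 : a₂ ≤ p * (q * a - 2 - B) - 2 - A := by
        have := mul_le_mul_of_nonneg_left hb1e hp.le
        linarith
      have h2 : p * q * a ≤ a := by nlinarith
      have h3 : 0 < p * (2 + B) := mul_pos hp (by linarith)
      push_cast
      nlinarith
  obtain ⟨k, hk⟩ := exists_nat_gt (N / (2 + A))
  obtain ⟨a, b, ha0, _, hak, _⟩ := hind k
  have : N < k * (2 + A) := by
    rwa [div_lt_iff₀ hδ] at hk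
  linarith

/-- A weight at most `-2` is impossible. -/
theorem no_sol_A_le {A B p q : ℝ} {u v : Eu n → ℝ} (hn : 3 ≤ n) (hA : A ≤ -2) (hp : 0 < p)
    (h : Sol n A B p q u v) : False := by
  have hnR : (3 : ℝ) ≤ n := by exact_mod_cast hn
  set N : ℝ := (n : ℝ) - 2 with hN
  have hN1 : 1 ≤ N := by rw [hN]; linarith
  have hBc : IsCompact (Metric.closedBall (0 : Eu n) 1) := isCompact_closedBall _ _
  have hBne : (Metric.closedBall (0 : Eu n) 1).Nonempty := ⟨0, by simp⟩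
  obtain ⟨x1, _, hx1⟩ := hBc.exists_isMinOn hBne h.vcont.continuousOn
  obtain ⟨x2, _, hx2⟩ := hBc.exists_isMaxOn hBne h.ucont.continuousOn
  set m : ℝ := v x1 with hm
  have hmpos : 0 < m := h.vpos x1
  set M : ℝ := u x2 with hM
  have hMpos : 0 < M := h.upos x2
  set c : ℝ := m ^ p with hc
  have hcpos : 0 < c := Real.rpow_pos_of_pos hmpos _
  -- the differential inequality
  have hlap : ∀ z : Eu n, z ≠ 0 → ‖z‖ ≤ 1 → Δ u z ≤ - (c * ‖z‖ ^ (-2 : ℝ)) := by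
    intro z hz0 hz1
    have hzpos : 0 < ‖z‖ := norm_pos_iff.mpr hz0
    have h1 := h.ueq z hz0
    have h2 : c ≤ v z ^ p :=
      Real.rpow_le_rpow hmpos.le (hx1 (by simpa using hz1)) hp.le
    have h3 : ‖z‖ ^ (-2 : ℝ) ≤ ‖z‖ ^ A :=
      Real.rpow_le_rpow_of_exponent_ge hzpos hz1 hA
    have h4 : 0 ≤ ‖z‖ ^ (-2 : ℝ) := Real.rpow_nonneg hzpos.le _
    have h5 : c * ‖z‖ ^ (-2 : ℝ) ≤ ‖z‖ ^ A * v z ^ p := by
      calc c * ‖z‖ ^ (-2 : ℝ) ≤ v z ^ p * ‖z‖ ^ (-2 : ℝ) := mul_le_mul_of_nonneg_right h2 h4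
        _ ≤ v z ^ p * ‖z‖ ^ A := mul_le_mul_of_nonneg_left h3 (Real.rpow_nonneg (h.vpos z).le _)
        _ = ‖z‖ ^ A * v z ^ p := mul_comm _ _
    linarith
  -- the barrier
  have hbar : ∀ δ : ℝ, 0 < δ → δ ≤ 1 → ∀ x : Eu n, x ≠ 0 → ‖x‖ < 1 →
      c / (δ * (δ + N)) * (1 - ‖x‖ ^ δ) ≤ u x := by
    intro δ hδ hδ1 x hx0 hx1'
    have hxpos : 0 < ‖x‖ := norm_pos_iff.mpr hx0
    set K : ℝ := c / (δ * (δ + N)) with hK
    have hKpos : 0 < K := by positivity
    have hKeq : K * (δ * (δ + N)) = c := by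
      rw [hK]
      field_simp
    refine le_of_forall_pos_le_add fun ε hε => ?_
    -- the perturbation coefficient
    set η : ℝ := ε / ‖x‖ ^ (-N) with hη
    have hxN : 0 < ‖x‖ ^ (-N) := Real.rpow_pos_of_pos hxpos _
    have hηpos : 0 < η := by positivity
    have hηx : η * ‖x‖ ^ (-N) = ε := by
      rw [hη]
      field_simp
    let g : Eu n → ℝ := fun z => K * (1 - ‖z‖ ^ δ) - η * ‖z‖ ^ (-N)
    have hgC : ContDiffOn ℝ 2 g {0}ᶜ := by
      intro z hz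
      have hz0 : z ≠ 0 := hz
      exact ((contDiffAt_const.mul (contDiffAt_const.sub (ex_contDiffAt_norm_rpow δ hz0))).sub
        (contDiffAt_const.mul (ex_contDiffAt_norm_rpow (-N) hz0))).contDiffWithinAt
    have hgL : ∀ z : Eu n, z ≠ 0 → Δ g z = - (c * ‖z‖ ^ (δ - 2)) := by
      intro z hz0
      have hzpos : 0 < ‖z‖ := norm_pos_iff.mpr hz0
      have h1 : g = (fun _ : Eu n => K) - (K • fun z : Eu n => ‖z‖ ^ δ)
          - (η • fun z : Eu n => ‖z‖ ^ (-N)) := by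
        ext w
        simp only [g, Pi.sub_apply, Pi.smul_apply, smul_eq_mul]
        ring
      have hC1 : ContDiffAt ℝ 2 (fun z : Eu n => ‖z‖ ^ δ) z := ex_contDiffAt_norm_rpow δ hz0
      have hC2 : ContDiffAt ℝ 2 (fun z : Eu n => ‖z‖ ^ (-N)) z := ex_contDiffAt_norm_rpow (-N) hz0
      have hC3 : ContDiffAt ℝ 2 (fun _ : Eu n => K) z := contDiffAt_const
      have hC4 : ContDiffAt ℝ 2 (K • fun z : Eu n => ‖z‖ ^ δ) z := hC1.const_smul K
      have hC5 : ContDiffAt ℝ 2 (η • fun z : Eu n => ‖z‖ ^ (-N)) z := hC2.const_smul η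
      have hC6 : ContDiffAt ℝ 2 ((fun _ : Eu n => K) - (K • fun z : Eu n => ‖z‖ ^ δ)) z :=
        hC3.sub hC4
      have hconst : Δ (fun _ : Eu n => K) z = 0 := by
        have := laplacian_const (E := Eu n) (F := ℝ) (c := K)
        exact congrFun this z
      rw [h1, hC6.laplacian_sub hC5, hC3.laplacian_sub hC4, laplacian_smul _ hC1,
        laplacian_smul _ hC2, hconst, ex_lap_norm_rpow δ hz0, ex_lap_norm_rpow (-N) hz0]
      simp only [smul_eq_mul]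
      have h2 : δ + (n : ℝ) - 2 = δ + N := by rw [hN]; ring
      have h3 : -N + (n : ℝ) - 2 = 0 := by rw [hN]; ring
      rw [h2, h3, ← hKeq]
      ring
    -- the inner radius
    have htend : Tendsto (fun r : ℝ => η * r ^ (-N)) (𝓝[>] 0) atTop := by
      have h1 : Tendsto (fun r : ℝ => r ^ (-N)) (𝓝[>] 0) atTop := by
        have h2 : Tendsto (fun r : ℝ => r⁻¹) (𝓝[>] 0) atTop := tendsto_inv_nhdsGT_zero
        have h3 := (tendsto_rpow_atTop (y := N) (by linarith)).comp h2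
        refine h3.congr' ?_
        filter_upwards [self_mem_nhdsWithin] with r hr
        have hr' : (0 : ℝ) < r := hr
        simp only [Function.comp]
        rw [Real.inv_rpow hr'.le, Real.rpow_neg hr'.le]
      exact h1.const_mul_atTop hηpos
    obtain ⟨r, hr1, hr2⟩ := ((htend.eventually_ge_atTop K).and
      (Ioo_mem_nhdsGT (lt_min hxpos one_pos))).exists
    have hrpos : 0 < r := hr2.1
    have hrx : r < ‖x‖ := lt_of_lt_of_le hr2.2 (min_le_left _ _)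
    have hcmp := ex_annulus_cmp (u := u) (h := g) (by omega) hrpos h.uC2 hgC
      (fun z hz1 hz2 => by
        have hzpos : 0 < ‖z‖ := by linarith
        have hz0 : z ≠ 0 := norm_pos_iff.mp hzpos
        have hz1' : ‖z‖ ≤ 1 := hz2.le
        rw [hgL z hz0]
        have h1 := hlap z hz0 hz1'
        have h2 : ‖z‖ ^ (δ - 2) ≤ ‖z‖ ^ (-2 : ℝ) :=
          Real.rpow_le_rpow_of_exponent_ge hzpos hz1' (by linarith)
        have h3 := mul_le_mul_of_nonneg_left h2 hcpos.le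
        linarith)
      (fun z hz => by
        simp only [g]
        rw [hz]
        have h1 : 0 ≤ K * r ^ δ := by positivity
        have := h.upos z
        linarith)
      (fun z hz => by
        simp only [g]
        rw [hz]
        simp only [Real.one_rpow, sub_self, mul_zero, mul_one]
        have := h.upos z
        linarith) x hrx.le hx1'.le
    simp only [g] at hcmp
    linarith
  -- the contradiction
  have hNpos : 0 < 1 + N := by linarith
  set δ : ℝ := min 1 (c / (4 * (1 + N) * M)) with hδ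
  have hδpos : 0 < δ := lt_min one_pos (by positivity)
  have hδ1 : δ ≤ 1 := min_le_left _ _
  have hδ2 : δ ≤ c / (4 * (1 + N) * M) := min_le_right _ _
  set t : ℝ := (1 / 2 : ℝ) ^ (1 / δ) with ht
  have htpos : 0 < t := Real.rpow_pos_of_pos (by norm_num) _
  have ht1 : t < 1 := Real.rpow_lt_one (by norm_num) (by norm_num) (by positivity)
  have htδ : t ^ δ = 1 / 2 := by
    rw [ht, ← Real.rpow_mul (by norm_num), one_div_mul_cancel hδpos.ne', Real.rpow_one]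
  have hn0 : 0 < n := by omega
  set x : Eu n := t • (ee (⟨0, hn0⟩ : Fin n)) with hx
  have hxn : ‖x‖ = t := by
    rw [hx, norm_smul]
    simp [abs_of_pos htpos]
  have hx0 : x ≠ 0 := by
    rw [← norm_pos_iff, hxn]
    exact htpos
  have h1 := hbar δ hδpos hδ1 x hx0 (by rw [hxn]; exact ht1)
  rw [hxn, htδ] at h1
  have h2 : u x ≤ M := hx2 (by simp [hxn, ht1.le, abs_of_pos htpos])
  have h3 : c / (δ * (δ + N)) * (1 - 1 / 2) ≤ M := h1.trans h2
  have h4 : δ * (δ + N) ≤ δ * (1 + N) := mul_le_mul_of_nonneg_left (by linarith) hδpos.le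
  have h5 : 0 < δ * (δ + N) := by positivity
  have h6 : c ≤ 2 * M * (δ * (δ + N)) := by
    have h7 : c / (δ * (δ + N)) ≤ 2 * M := by linarith
    rwa [div_le_iff₀ h5] at h7
  have h8 : δ * (4 * (1 + N) * M) ≤ c := by
    rwa [le_div_iff₀ (by positivity)] at hδ2
  nlinarith [mul_pos hMpos hδpos, mul_le_mul_of_nonneg_left h4 (by positivity : (0 : ℝ) ≤ 2 * M)]

/-- **The classification.** A positive entire solution forces `n ≥ 3`, `A, B > -2`, `p q > 1` and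
`min(α, β) ≤ (n-2)/2`. -/
theorem solution_forces {A B p q : ℝ} {u v : Eu n → ℝ} (hn : 2 ≤ n) (hp : 0 < p) (hq : 0 < q)
    (h : Sol n A B p q u v) :
    3 ≤ n ∧ -2 < A ∧ -2 < B ∧ 1 < p * q ∧
      ¬ (((n : ℝ) - 2) * (p * q - 1) < 2 * (2 + A + p * (2 + B)) ∧
         ((n : ℝ) - 2) * (p * q - 1) < 2 * (2 + B + q * (2 + A))) := by
  have hn3 : 3 ≤ n := by
    by_contra hcon
    have h2 : n = 2 := by omega
    subst h2
    exact no_sol_n2 h
  have hA : -2 < A := by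
    by_contra hcon
    exact no_sol_A_le hn3 (not_lt.mp hcon) hp h
  have hB : -2 < B := by
    by_contra hcon
    exact no_sol_A_le hn3 (not_lt.mp hcon) hq h.swap
  have hpq : 1 < p * q := by
    by_contra hcon
    exact no_sol_sublinear hn3 hA hB hp hq (not_lt.mp hcon) h
  exact ⟨hn3, hA, hB, hpq, fun hh => no_solution_mp hn3 hA hB hp hq hpq hh.1 hh.2 h⟩

end Vale.Agent.Lib.P100.MP
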