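import Vale.Agent.Lib.P100.MP.Calc

/-!
# P100 moving planes, module Iter: lower bounds by barriers and the iteration.

Paper proof. `annulus comparison`: let `1 < ρ`, `K = {1 ≤ ‖x‖ ≤ ρ}`, `U = {1 < ‖x‖ < ρ}`; if `g` is `C²` off the origin,
`Δ g ≤ 0` on `U`, `g ≥ 0` on `‖x‖ = 1` and `‖x‖ = ρ` then `g ≥ 0` on `K`: `min_principle` for
`g + η (ρ² − ‖x‖²)`, `η > 0` (`Δ‖x‖² = 2n`, from `lap_norm_rpow` with `e = 2`), then `η → 0`.
`base_lb`: `c = min_{‖x‖=1} u`; `g = u − c (‖x‖^(2−n) − ρ^(2−n))`; `ρ → ∞`.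
`lb_of_source` (ii): `0 < e < n−2`; `c' = min (c / (e (n−2−e))) (min_{‖x‖=1} u)`;
`g = u − c' (‖x‖^(−e) − ρ^(−e))`, `Δ g ≤ 0` on `‖x‖ ≥ 1` as `−Δ‖x‖^(−e) = e (n−2−e) ‖x‖^(−e−2)`; `ρ → ∞`.
(i) `e ≤ 0`: `−Δu ≥ c ‖x‖^(−2)` on `‖x‖ ≥ 1`. For `0 < δ < n−2` let `A₂ = c / (δ (n−2−δ))`,
`h = A₂ ((1−ρ^(−δ)) (1 − ‖x‖^(2−n)) − 1 + ‖x‖^(−δ))`. Then `−Δh = A₂ δ (n−2−δ) ‖x‖^(−δ−2) ≤ c ‖x‖^(−2)`,
`h = 0` on `‖x‖=1`, `h ≤ 0` on `‖x‖ = ρ`. So `u ≥ h`; `ρ → ∞`: `u x ≥ A₂ (‖x‖^(−δ) − ‖x‖^(2−n))`. At one fixed `x` with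
`‖x‖ = 2` let `δ → 0`: `A₂ → ∞`, the bracket tends to `1 − 2^(2−n) > 0`. Contradiction.
`iter_false`: with `d_a = α − a`, `d_b = β − b`. From `LB u a`, `LB v b` (`0<a,b≤n−2`): `−Δu = ‖x‖^A v^p ≥ c^p ‖x‖^(A − p b)`,
so with `e1 = p b − 2 − A = α − p d_b`: `e1 ≤ 0` is False; else `LB u (min a e1)` (`LB` is monotone in the exponent on
`‖x‖ ≥ 1`); same for `v` with `e2 = q a − 2 − B = β − q d_a`. New pair has `d_a' ≥ p d_b`, `d_b' ≥ q d_a`.
The first step: `LB v (n−2)` by `base_lb`, `d_b` may be ≤ 0 but `e2 < β`, so after one step both are positive;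
then two steps multiply both by `p q > 1`, so eventually `d_a > α`, i.e. `a < 0`, contradicting `a > 0`.
-/

open InnerProductSpace Laplacian Filter Topology

noncomputable section

namespace Vale.Agent.Lib.P100.MP

variable {n : ℕ}

/-- Powers of the norm are `C²` off the origin. -/
theorem radial_cd (e : ℝ) : ContDiffOn ℝ 2 (fun z : Eu n => ‖z‖ ^ e) {0}ᶜ := by
  have h := contDiffOn_pw (n := n) (u := fun _ => (1 : ℝ)) e contDiffOn_const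
  have h2 : pw e (fun _ : Eu n => (1 : ℝ)) = fun z : Eu n => ‖z‖ ^ e := by
    funext z
    simp [pw]
  rwa [h2] at h

/-- The Laplacian of `‖x‖^(-e)`. -/
theorem lap_rad (e : ℝ) {x : Eu n} (hx : x ≠ 0) :
    Δ (fun z : Eu n => ‖z‖ ^ (-e)) x = -(e * ((n : ℝ) - 2 - e)) * ‖x‖ ^ (-e - 2) := by
  have h := lap_norm_rpow (n := n) (-e) hx
  have hpos : 0 < ‖x‖ := norm_pos_iff.mpr hx
  have h2 : ‖x‖ ^ (-e) = ‖x‖ ^ (-e - 2) * ‖x‖ ^ 2 := by
    rw [← Real.rpow_natCast ‖x‖ 2, ← Real.rpow_add hpos]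
    norm_num
  have h3 : ‖x‖ ^ 2 ≠ 0 := by positivity
  apply mul_left_cancel₀ h3
  rw [h, h2]
  ring

/-- Comparison on an annulus. -/
theorem annulus_cmp {g : Eu n → ℝ} {ρ : ℝ} (hn : 3 ≤ n) (hρ : 1 < ρ)
    (hC2 : ContDiffOn ℝ 2 g {0}ᶜ)
    (hlap : ∀ x : Eu n, 1 < ‖x‖ → ‖x‖ < ρ → Δ g x ≤ 0)
    (h1 : ∀ x : Eu n, ‖x‖ = 1 → 0 ≤ g x) (h2 : ∀ x : Eu n, ‖x‖ = ρ → 0 ≤ g x) :
    ∀ x : Eu n, 1 ≤ ‖x‖ → ‖x‖ ≤ ρ → 0 ≤ g x := by
  intro x hx1 hxρ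
  have hnR : (3 : ℝ) ≤ n := by exact_mod_cast hn
  have key : ∀ η : ℝ, 0 < η → 0 ≤ g x - η * ‖x‖ ^ (2 : ℝ) + η * ρ ^ 2 := by
    intro η hη
    set f : Eu n → ℝ := fun z => g z - η * ‖z‖ ^ (2 : ℝ) + η * ρ ^ 2 with hf
    set K : Set (Eu n) := Metric.closedBall 0 ρ ∩ {z | 1 ≤ ‖z‖} with hK
    set U : Set (Eu n) := {z | 1 < ‖z‖ ∧ ‖z‖ < ρ} with hU
    have hKc : IsCompact K :=
      (isCompact_closedBall 0 ρ).inter_right (isClosed_le continuous_const continuous_norm)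
    have hUo : IsOpen U :=
      (isOpen_lt continuous_const continuous_norm).inter (isOpen_lt continuous_norm continuous_const)
    have hUK : U ⊆ K := by
      rintro z ⟨hz1, hz2⟩
      exact ⟨by simpa using hz2.le, hz1.le⟩
    have hK0 : K ⊆ {0}ᶜ := by
      rintro z ⟨-, hz⟩ hz0
      have hz0' : z = 0 := hz0
      rw [hz0'] at hz
      simp at hz
      linarith
    have hfC : ContDiffOn ℝ 2 f {0}ᶜ := by
      exact (hC2.sub (contDiffOn_const.mul (radial_cd 2))).add contDiffOn_const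
    have hmem : f x = g x - η * ‖x‖ ^ (2 : ℝ) + η * ρ ^ 2 := rfl
    have hxK : x ∈ K := ⟨by simpa using hxρ, hx1⟩
    rw [← hmem]
    refine min_principle hKc hUo hUK (hfC.continuousOn.mono hK0) (hfC.mono (hUK.trans hK0))
      ?_ ?_ x hxK
    · rintro z ⟨hz1, hz2⟩ hzU
      have hz1' : ‖z‖ ≤ ρ := by simpa using hz1
      have hz2' : 1 ≤ ‖z‖ := hz2
      have hfz : f z = g z + η * (ρ ^ 2 - ‖z‖ ^ 2) := by
        simp only [hf, Real.rpow_two]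
        ring
      have hsq : ‖z‖ ^ 2 ≤ ρ ^ 2 := by nlinarith [norm_nonneg z]
      have hη2 : 0 ≤ η * (ρ ^ 2 - ‖z‖ ^ 2) := mul_nonneg hη.le (by linarith)
      rw [hfz]
      by_cases hz3 : ‖z‖ = 1
      · linarith [h1 z hz3]
      · by_cases hz4 : ‖z‖ = ρ
        · linarith [h2 z hz4]
        · exact absurd ⟨lt_of_le_of_ne hz2' (Ne.symm hz3), lt_of_le_of_ne hz1' hz4⟩ hzU
    · rintro z ⟨hz1, hz2⟩ - - hΔ
      have hz0 : z ≠ 0 := by
        intro h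
        rw [h] at hz1
        simp at hz1
        linarith
      have hznhds : ({0}ᶜ : Set (Eu n)) ∈ 𝓝 z := isOpen_compl_singleton.mem_nhds hz0
      have hgC : ContDiffAt ℝ 2 g z := hC2.contDiffAt hznhds
      have hwC : ContDiffAt ℝ 2 (fun z : Eu n => ‖z‖ ^ (2 : ℝ)) z :=
        (radial_cd 2).contDiffAt hznhds
      have hf' : f = (g - η • (fun z : Eu n => ‖z‖ ^ (2 : ℝ))) + fun _ => η * ρ ^ 2 := by
        funext y
        simp [hf, smul_eq_mul]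
      have hcC : ContDiffAt ℝ 2 (fun _ : Eu n => η * ρ ^ 2) z := contDiffAt_const
      have hsC : ContDiffAt ℝ 2 (η • (fun z : Eu n => ‖z‖ ^ (2 : ℝ))) z := hwC.const_smul η
      have hlapf : Δ f z = Δ g z - η * Δ (fun z : Eu n => ‖z‖ ^ (2 : ℝ)) z := by
        have hsub : ContDiffAt ℝ 2 (g - η • (fun z : Eu n => ‖z‖ ^ (2 : ℝ))) z := hgC.sub hsC
        rw [hf', hsub.laplacian_add hcC, hgC.laplacian_sub hsC, laplacian_smul η hwC]
        simp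
      have hw := lap_norm_rpow (n := n) 2 hz0
      have hzpos : 0 < ‖z‖ := norm_pos_iff.mpr hz0
      have hwval : Δ (fun z : Eu n => ‖z‖ ^ (2 : ℝ)) z = 2 * (n : ℝ) := by
        have h3 : ‖z‖ ^ 2 ≠ 0 := by positivity
        apply mul_left_cancel₀ h3
        rw [hw, Real.rpow_two]
        ring
      rw [hlapf, hwval] at hΔ
      have := hlap z hz1 hz2
      nlinarith
  -- let `η → 0`
  by_contra hneg
  push Not at hneg
  have hρ2 : 0 < ρ ^ 2 + 1 := by positivity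
  have hη : 0 < - g x / (ρ ^ 2 + 1) := div_pos (by linarith) hρ2
  have h3 := key _ hη
  have h4 : 0 ≤ ‖x‖ ^ (2 : ℝ) := Real.rpow_nonneg (norm_nonneg _) _
  have h5 : (- g x / (ρ ^ 2 + 1)) * (ρ ^ 2 + 1) = - g x := by field_simp
  nlinarith [mul_nonneg hη.le h4]

/-- Comparison for the family of barriers used below. -/
theorem cmp_family {u : Eu n → ℝ} {κ₁ κ₂ e d ρ : ℝ} (hn : 3 ≤ n)
    (hC2 : ContDiffOn ℝ 2 u {0}ᶜ) (hρ : 1 < ρ)
    (hlap : ∀ x : Eu n, 1 < ‖x‖ → ‖x‖ < ρ →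
      Δ u x + κ₂ * (e * ((n : ℝ) - 2 - e)) * ‖x‖ ^ (-e - 2) ≤ 0)
    (h1 : ∀ x : Eu n, ‖x‖ = 1 →
      0 ≤ u x + κ₁ * ‖x‖ ^ (-((n : ℝ) - 2)) - κ₂ * ‖x‖ ^ (-e) + d)
    (h2 : ∀ x : Eu n, ‖x‖ = ρ →
      0 ≤ u x + κ₁ * ‖x‖ ^ (-((n : ℝ) - 2)) - κ₂ * ‖x‖ ^ (-e) + d) :
    ∀ x : Eu n, 1 ≤ ‖x‖ → ‖x‖ ≤ ρ →
      0 ≤ u x + κ₁ * ‖x‖ ^ (-((n : ℝ) - 2)) - κ₂ * ‖x‖ ^ (-e) + d := by
  set w₁ : Eu n → ℝ := fun z => ‖z‖ ^ (-((n : ℝ) - 2)) with hw₁
  set w₂ : Eu n → ℝ := fun z => ‖z‖ ^ (-e) with hw₂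
  set g : Eu n → ℝ := fun z => u z + κ₁ * w₁ z - κ₂ * w₂ z + d with hg
  have hgC : ContDiffOn ℝ 2 g {0}ᶜ :=
    ((hC2.add (contDiffOn_const.mul (radial_cd _))).sub (contDiffOn_const.mul (radial_cd _))).add
      contDiffOn_const
  refine annulus_cmp (g := g) hn hρ hgC ?_ h1 h2
  intro x hx1 hx2
  have hx0 : x ≠ 0 := by
    intro h
    rw [h] at hx1
    simp at hx1
    linarith
  have hxn : ({0}ᶜ : Set (Eu n)) ∈ 𝓝 x := isOpen_compl_singleton.mem_nhds hx0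
  have huC : ContDiffAt ℝ 2 u x := hC2.contDiffAt hxn
  have h1C : ContDiffAt ℝ 2 w₁ x := (radial_cd _).contDiffAt hxn
  have h2C : ContDiffAt ℝ 2 w₂ x := (radial_cd _).contDiffAt hxn
  have hg' : g = ((u + κ₁ • w₁) - κ₂ • w₂) + fun _ => d := by
    funext y
    simp [hg, smul_eq_mul]
  have hcC : ContDiffAt ℝ 2 (fun _ : Eu n => d) x := contDiffAt_const
  have hs1 : ContDiffAt ℝ 2 (κ₁ • w₁) x := h1C.const_smul κ₁
  have hs2 : ContDiffAt ℝ 2 (κ₂ • w₂) x := h2C.const_smul κ₂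
  have hlapg : Δ g x = Δ u x + κ₁ * Δ w₁ x - κ₂ * Δ w₂ x := by
    have hadd : ContDiffAt ℝ 2 (u + κ₁ • w₁) x := huC.add hs1
    have hsub : ContDiffAt ℝ 2 ((u + κ₁ • w₁) - κ₂ • w₂) x := hadd.sub hs2
    rw [hg', hsub.laplacian_add hcC, hadd.laplacian_sub hs2,
      huC.laplacian_add hs1, laplacian_smul κ₁ h1C, laplacian_smul κ₂ h2C]
    simp
  have hw1 : Δ w₁ x = 0 := by
    rw [hw₁, lap_rad ((n : ℝ) - 2) hx0]
    ring
  have hw2 : Δ w₂ x = -(e * ((n : ℝ) - 2 - e)) * ‖x‖ ^ (-e - 2) := lap_rad e hx0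
  rw [hlapg, hw1, hw2]
  have := hlap x hx1 hx2
  linarith

/-- The exterior lower bound from a barrier, with the limit `ρ → ∞`. -/
theorem ext_lb {u : Eu n → ℝ} {e c : ℝ} (hn : 3 ≤ n) (hpos : ∀ x, 0 < u x)
    (hC2 : ContDiffOn ℝ 2 u {0}ᶜ) (he : 0 < e) (hc : 0 < c)
    (h1 : ∀ x : Eu n, ‖x‖ = 1 → c ≤ u x)
    (hlap : ∀ x : Eu n, 1 < ‖x‖ →
      Δ u x + c * (e * ((n : ℝ) - 2 - e)) * ‖x‖ ^ (-e - 2) ≤ 0) :
    ∀ x : Eu n, 1 ≤ ‖x‖ → c * ‖x‖ ^ (-e) ≤ u x := by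
  intro x hx
  have hlim : Tendsto (fun ρ : ℝ => c * (‖x‖ ^ (-e) - ρ ^ (-e))) atTop
      (𝓝 (c * (‖x‖ ^ (-e) - 0))) :=
    (tendsto_const_nhds.sub (tendsto_rpow_neg_atTop he)).const_mul c
  have hle : ∀ᶠ ρ : ℝ in atTop, c * (‖x‖ ^ (-e) - ρ ^ (-e)) ≤ u x := by
    filter_upwards [eventually_gt_atTop (‖x‖ + 1)] with ρ hρ
    have hρ1 : 1 < ρ := by linarith
    have hρ0 : 0 < ρ := by linarith
    have hr : 0 < ρ ^ (-e) := Real.rpow_pos_of_pos hρ0 _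
    have := cmp_family (u := u) (κ₁ := 0) (κ₂ := c) (e := e) (d := c * ρ ^ (-e)) (ρ := ρ) hn hC2 hρ1
      (fun z hz1 _ => hlap z hz1) ?_ ?_ x hx (by linarith)
    · linarith
    · intro z hz
      rw [hz, Real.one_rpow, Real.one_rpow]
      have := h1 z hz
      have h3 : 0 ≤ c * ρ ^ (-e) := by positivity
      linarith
    · intro z hz
      rw [hz]
      have := hpos z
      linarith
  have := le_of_tendsto hlim hle
  linarith

/-- A positive lower bound on the unit sphere. -/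
theorem sphere_lb {u : Eu n → ℝ} (hn : 3 ≤ n) (hcont : Continuous u) (hpos : ∀ x, 0 < u x) :
    ∃ m : ℝ, 0 < m ∧ ∀ x : Eu n, ‖x‖ = 1 → m ≤ u x := by
  have : Nontrivial (Eu n) := by
    have : Nonempty (Fin n) := ⟨⟨0, by omega⟩⟩
    infer_instance
  have hS : IsCompact (Metric.sphere (0 : Eu n) 1) := isCompact_sphere _ _
  have hne : (Metric.sphere (0 : Eu n) 1).Nonempty := NormedSpace.sphere_nonempty.mpr (by norm_num)
  obtain ⟨z0, hz0, hmin⟩ := hS.exists_isMinOn hne hcont.continuousOn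
  exact ⟨u z0, hpos z0, fun x hx => hmin (by simp [hx])⟩

/-- The exterior lower bound of a positive superharmonic function. -/
theorem base_lb {u : Eu n → ℝ} (hn : 3 ≤ n) (hcont : Continuous u) (hpos : ∀ x, 0 < u x)
    (hC2 : ContDiffOn ℝ 2 u {0}ᶜ) (hsup : ∀ x : Eu n, x ≠ 0 → Δ u x ≤ 0) :
    LB u ((n : ℝ) - 2) := by
  have hnR : (3 : ℝ) ≤ n := by exact_mod_cast hn
  obtain ⟨m, hm, hm1⟩ := sphere_lb hn hcont hpos
  refine ⟨m, hm, ext_lb hn hpos hC2 (by linarith) hm hm1 ?_⟩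
  intro x hx
  have hx0 : x ≠ 0 := by
    intro h
    rw [h] at hx
    simp at hx
    linarith
  have := hsup x hx0
  have h0 : m * (((n : ℝ) - 2) * ((n : ℝ) - 2 - ((n : ℝ) - 2))) * ‖x‖ ^ (-((n : ℝ) - 2) - 2) = 0 := by
    ring
  linarith

/-- A lower bound for the source gives a lower bound for the solution, or a contradiction. -/
theorem lb_of_source {u : Eu n → ℝ} {c e : ℝ} (hn : 3 ≤ n) (hcont : Continuous u)
    (hpos : ∀ x, 0 < u x) (hC2 : ContDiffOn ℝ 2 u {0}ᶜ) (hc : 0 < c)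
    (hsup : ∀ x : Eu n, x ≠ 0 → Δ u x ≤ 0)
    (h : ∀ x : Eu n, 1 ≤ ‖x‖ → c * ‖x‖ ^ (-e - 2) ≤ - Δ u x) :
    (e ≤ 0 → False) ∧ (0 < e → e < (n : ℝ) - 2 → LB u e) := by
  have hnR : (3 : ℝ) ≤ n := by exact_mod_cast hn
  obtain ⟨m, hm, hm1⟩ := sphere_lb hn hcont hpos
  constructor
  · intro he
    -- a point of norm two
    have : Nontrivial (Eu n) := by
      have : Nonempty (Fin n) := ⟨⟨0, by omega⟩⟩
      infer_instance
    obtain ⟨x₀, hx₀⟩ : (Metric.sphere (0 : Eu n) 2).Nonempty :=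
      NormedSpace.sphere_nonempty.mpr (by norm_num)
    have hx₀n : ‖x₀‖ = 2 := by simpa using hx₀
    have hu₀ := hpos x₀
    set N : ℝ := (n : ℝ) - 2 with hN
    have hN1 : 1 ≤ N := by rw [hN]; linarith
    -- the choice of `δ`
    set δ : ℝ := min (1 / 2) (c / (10 * N * u x₀)) with hδ
    have hδ0 : 0 < δ := lt_min (by norm_num) (by positivity)
    have hδ1 : δ ≤ 1 / 2 := min_le_left _ _
    have hδ2 : δ ≤ c / (10 * N * u x₀) := min_le_right _ _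
    have hδN : 0 < N - δ := by linarith
    set A₂ : ℝ := c / (δ * (N - δ)) with hA₂
    have hA₂0 : 0 < A₂ := by positivity
    have hA₂e : A₂ * (δ * (N - δ)) = c := by
      rw [hA₂]
      field_simp
    -- the comparison for every large `ρ`
    have hcmp : ∀ ρ : ℝ, 2 < ρ →
        0 ≤ u x₀ + (A₂ * (1 - ρ ^ (-δ))) * ‖x₀‖ ^ (-N) - A₂ * ‖x₀‖ ^ (-δ) + A₂ * ρ ^ (-δ) := by
      intro ρ hρ
      have hρ1 : 1 < ρ := by linarith
      have hρ0 : 0 < ρ := by linarith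
      have hr1 : ρ ^ (-δ) ≤ 1 := Real.rpow_le_one_of_one_le_of_nonpos hρ1.le (by linarith)
      have := cmp_family (u := u) (κ₁ := A₂ * (1 - ρ ^ (-δ))) (κ₂ := A₂) (e := δ)
        (d := A₂ * ρ ^ (-δ)) (ρ := ρ) hn hC2 hρ1 ?_ ?_ ?_ x₀ (by rw [hx₀n]; norm_num)
        (by rw [hx₀n]; exact hρ.le)
      · exact this
      · intro z hz1 _
        have hz2 := h z hz1.le
        have hmono : ‖z‖ ^ (-δ - 2) ≤ ‖z‖ ^ (-e - 2) :=
          Real.rpow_le_rpow_of_exponent_le hz1.le (by linarith)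
        have hA : A₂ * (δ * ((n : ℝ) - 2 - δ)) = c := hA₂e
        rw [hA]
        nlinarith
      · intro z hz
        rw [hz, Real.one_rpow, Real.one_rpow]
        have := hpos z
        nlinarith
      · intro z hz
        rw [hz]
        have h1 := hpos z
        have h2 : 0 ≤ ρ ^ (-((n : ℝ) - 2)) := Real.rpow_nonneg hρ0.le _
        have h3 : 0 ≤ A₂ * (1 - ρ ^ (-δ)) := mul_nonneg hA₂0.le (by linarith)
        have h4 := mul_nonneg h3 h2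
        linarith
    -- the limit `ρ → ∞`
    have hlim : Tendsto (fun ρ : ℝ =>
        u x₀ + (A₂ * (1 - ρ ^ (-δ))) * ‖x₀‖ ^ (-N) - A₂ * ‖x₀‖ ^ (-δ) + A₂ * ρ ^ (-δ)) atTop
        (𝓝 (u x₀ + (A₂ * (1 - 0)) * ‖x₀‖ ^ (-N) - A₂ * ‖x₀‖ ^ (-δ) + A₂ * 0)) := by
      have hr := tendsto_rpow_neg_atTop hδ0
      exact (((tendsto_const_nhds.add
        (((tendsto_const_nhds.sub hr).const_mul A₂).mul_const _)).sub tendsto_const_nhds).add
        (hr.const_mul A₂))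
    have hge := ge_of_tendsto hlim
      ((eventually_gt_atTop (2 : ℝ)).mono fun ρ hρ => hcmp ρ hρ)
    rw [hx₀n] at hge
    -- the numerics
    have hW : (2 : ℝ) ^ (-N) ≤ 1 / 2 := by
      have h1 : (2 : ℝ) ^ (-N) ≤ (2 : ℝ) ^ (-1 : ℝ) :=
        Real.rpow_le_rpow_of_exponent_le (by norm_num) (by linarith)
      have h2 : (2 : ℝ) ^ (-1 : ℝ) = 1 / 2 := by
        rw [Real.rpow_neg_one]
        norm_num
      exact h1.trans_eq h2
    have hV : (7 / 10 : ℝ) ≤ (2 : ℝ) ^ (-δ) := by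
      have h1 : (2 : ℝ) ^ (-(1 / 2) : ℝ) ≤ (2 : ℝ) ^ (-δ) :=
        Real.rpow_le_rpow_of_exponent_le (by norm_num) (by linarith)
      set t : ℝ := (2 : ℝ) ^ (-(1 / 2) : ℝ) with ht
      have ht0 : 0 < t := Real.rpow_pos_of_pos (by norm_num) _
      have ht2 : t * t = 1 / 2 := by
        rw [ht, ← Real.rpow_add (by norm_num)]
        have : (-(1 / 2) + -(1 / 2) : ℝ) = -1 := by norm_num
        rw [this, Real.rpow_neg_one]
        norm_num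
      have ht7 : 7 / 10 ≤ t := by nlinarith
      linarith
    have hgap : A₂ * (1 / 5) ≤ u x₀ := by
      have h1 : A₂ * (2 : ℝ) ^ (-N) ≤ A₂ * (1 / 2) := mul_le_mul_of_nonneg_left hW hA₂0.le
      have h2 : A₂ * (7 / 10) ≤ A₂ * (2 : ℝ) ^ (-δ) := mul_le_mul_of_nonneg_left hV hA₂0.le
      nlinarith
    -- contradiction: `A₂` is large
    have hbig : 10 * u x₀ ≤ A₂ := by
      have h3 : δ * (N - δ) ≤ δ * N := mul_le_mul_of_nonneg_left (by linarith) hδ0.le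
      have h4 : δ * N * (10 * u x₀) ≤ c := by
        have h5 : δ * (10 * N * u x₀) ≤ c := by
          have := mul_le_mul_of_nonneg_right hδ2 (by positivity : 0 ≤ 10 * N * u x₀)
          have h6 : c / (10 * N * u x₀) * (10 * N * u x₀) = c := by
            field_simp
          linarith
        linarith
      rw [hA₂, le_div_iff₀ (by positivity)]
      nlinarith
    nlinarith
  · intro he he2
    have hE : 0 < e * ((n : ℝ) - 2 - e) := mul_pos he (by linarith)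
    set c' : ℝ := min (c / (e * ((n : ℝ) - 2 - e))) m with hc'
    have hc'0 : 0 < c' := lt_min (by positivity) hm
    have hc'1 : c' * (e * ((n : ℝ) - 2 - e)) ≤ c := by
      have := mul_le_mul_of_nonneg_right (min_le_left (c / (e * ((n : ℝ) - 2 - e))) m) hE.le
      have h6 : c / (e * ((n : ℝ) - 2 - e)) * (e * ((n : ℝ) - 2 - e)) = c :=
        div_mul_cancel₀ _ hE.ne'
      rw [← hc'] at this
      linarith
    refine ⟨c', hc'0, ext_lb hn hpos hC2 he hc'0 (fun x hx => (min_le_right _ _).trans (hm1 x hx)) ?_⟩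
    intro x hx
    have h2 := h x hx.le
    have h3 : 0 ≤ ‖x‖ ^ (-e - 2) := Real.rpow_nonneg (norm_nonneg _) _
    nlinarith

/-- One step of the iteration. -/
theorem one_step {A B p q a : ℝ} {u v : Eu n → ℝ} (hn : 3 ≤ n) (h : Sol n A B p q u v)
    (hq : 0 < q) (ha0 : 0 < a) (hLB : LB u a) :
    ∃ b : ℝ, 0 < b ∧ b ≤ (n : ℝ) - 2 ∧ b ≤ q * a - 2 - B ∧ LB v b := by
  have hnR : (3 : ℝ) ≤ n := by exact_mod_cast hn
  obtain ⟨c, hc, hcu⟩ := hLB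
  have hsup : ∀ x : Eu n, x ≠ 0 → Δ v x ≤ 0 := by
    intro x hx
    have h1 := h.veq x hx
    have h2 : 0 ≤ ‖x‖ ^ B * u x ^ q :=
      mul_nonneg (Real.rpow_nonneg (norm_nonneg _) _) (Real.rpow_nonneg (h.upos x).le _)
    linarith
  have hsrc : ∀ x : Eu n, 1 ≤ ‖x‖ → c ^ q * ‖x‖ ^ (-(q * a - 2 - B) - 2) ≤ - Δ v x := by
    intro x hx
    have hxpos : 0 < ‖x‖ := by linarith
    have hx0 : x ≠ 0 := norm_pos_iff.mp hxpos
    rw [h.veq x hx0]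
    have h1 : (c * ‖x‖ ^ (-a)) ^ q ≤ u x ^ q :=
      Real.rpow_le_rpow (by positivity) (hcu x hx) hq.le
    have h2 : (c * ‖x‖ ^ (-a)) ^ q = c ^ q * ‖x‖ ^ (-a * q) := by
      rw [Real.mul_rpow hc.le (Real.rpow_nonneg hxpos.le _), ← Real.rpow_mul hxpos.le]
    have h3 : ‖x‖ ^ (-(q * a - 2 - B) - 2) = ‖x‖ ^ B * ‖x‖ ^ (-a * q) := by
      rw [← Real.rpow_add hxpos]
      congr 1
      ring
    rw [h3]
    rw [h2] at h1
    have h4 : 0 ≤ ‖x‖ ^ B := Real.rpow_nonneg hxpos.le _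
    calc c ^ q * (‖x‖ ^ B * ‖x‖ ^ (-a * q)) = ‖x‖ ^ B * (c ^ q * ‖x‖ ^ (-a * q)) := by ring
      _ ≤ ‖x‖ ^ B * u x ^ q := mul_le_mul_of_nonneg_left h1 h4
  obtain ⟨hF, hL⟩ := lb_of_source hn h.vcont h.vpos h.vC2 (Real.rpow_pos_of_pos hc q) hsup hsrc
  by_cases he : q * a - 2 - B ≤ 0
  · exact (hF he).elim
  push Not at he
  by_cases he2 : q * a - 2 - B < (n : ℝ) - 2
  · exact ⟨_, he, he2.le, le_rfl, hL he he2⟩
  · push Not at he2
    exact ⟨(n : ℝ) - 2, by linarith, le_rfl, he2, base_lb hn h.vcont h.vpos h.vC2 hsup⟩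

/-- **Module Iter.** The iteration: if `u ≥ c ‖x‖^(-a)`, `0 < a ≤ n-2`, `a < α`, contradiction. -/
theorem iter_false {A B p q α β a : ℝ} {u v : Eu n → ℝ} (hn : 3 ≤ n) (h : Sol n A B p q u v)
    (hp : 0 < p) (hq : 0 < q) (hpq : 1 < p * q)
    (hα : α = p * β - 2 - A) (hβ : β = q * α - 2 - B)
    (ha0 : 0 < a) (ha1 : a ≤ (n : ℝ) - 2) (ha2 : a < α) (hLB : LB u a) : False := by
  have hswap : Sol n B A q p v u :=
    ⟨h.vcont, h.ucont, h.vpos, h.upos, h.vC2, h.uC2, h.veq, h.ueq⟩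
  have hind : ∀ k : ℕ, ∃ a' : ℝ, 0 < a' ∧ a' ≤ (n : ℝ) - 2 ∧ (p * q) ^ k * (α - a) ≤ α - a' ∧
      LB u a' := by
    intro k
    induction k with
    | zero => exact ⟨a, ha0, ha1, by simp, hLB⟩
    | succ k ih =>
      obtain ⟨a', h0, h1, h2, h3⟩ := ih
      obtain ⟨b, hb0, hb1, hb2, hb3⟩ := one_step hn h hq h0 h3
      obtain ⟨a'', h0', h1', h2', h3'⟩ := one_step hn hswap hp hb0 hb3
      refine ⟨a'', h0', h1', ?_, h3'⟩
      have h5 : q * (α - a') ≤ β - b := by linarith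
      have h6 : p * (β - b) ≤ α - a'' := by linarith
      have h7 : p * (q * (α - a')) ≤ p * (β - b) := mul_le_mul_of_nonneg_left h5 hp.le
      have h8 : (p * q) * ((p * q) ^ k * (α - a)) ≤ (p * q) * (α - a') :=
        mul_le_mul_of_nonneg_left h2 (by positivity)
      calc (p * q) ^ (k + 1) * (α - a) = (p * q) * ((p * q) ^ k * (α - a)) := by ring
        _ ≤ (p * q) * (α - a') := h8
        _ = p * (q * (α - a')) := by ring
        _ ≤ α - a'' := by linarith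
  have hd : 0 < α - a := by linarith
  obtain ⟨k, hk⟩ := pow_unbounded_of_one_lt (α / (α - a)) hpq
  obtain ⟨a', h0, -, h2, -⟩ := hind k
  have h3 : α < (p * q) ^ k * (α - a) := by
    rwa [div_lt_iff₀ hd] at hk
  linarith

end Vale.Agent.Lib.P100.MP
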