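import Vale.Agent.Lib.P100.MP.Grad

/-!
# P100 moving planes, module Start: the start of the continuation, and the behaviour near the origin.

Paper proof. Let `F = pw a u`, `m = min_{‖x‖≤1} u > 0`, `M = max_{‖x‖≤1} u`, and `c0 > 0` from `hlb` (`u z ≥ c0 ‖z‖^(2−n)`, `‖z‖ ≥ 1`).
**Far lemma.** If `x ≠ 0`, `‖x‖ ≤ 1`, `Y = s ‖x‖ ≥ 1`, `s ‖x‖² ≤ Λ`, `M ‖x‖^(2a−n+2) ≤ c0 Λ^(a−n+2)` then `F x ≤ F (s x)`:
`F (s x) = Y^a u(s x) ≥ c0 Y^(a−n+2) ≥ c0 (Λ/‖x‖)^(a−n+2)` as `a ≤ n−2` and `Y ≤ Λ/‖x‖`; and `F x ≤ M ‖x‖^a`.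
`near_mono`: use the far lemma with `Λ = 4 l²`, `r ≤ min(1, l²)`, `M r^(2a−n+2) ≤ c0 (4 l²)^(a−n+2)` (`2a−n+2 > 0`); `Y = s‖x‖²/‖x‖ ≥ l²/r ≥ 1`.
`exists_mono`: by `Dr_pw` `Dr F x = ‖x‖^a (Dr u x + a u x) ≥ 0` when `|Dr u x| ≤ a m`, `x` small, so by `grad_small` there is `r0 ≤ 1`
with `Dr F ≥ 0` on `0<‖x‖≤r0`, hence `F x ≤ F (s x)` if `s ≥ 1`, `s‖x‖ ≤ r0`. Then for `l` small: let `x ≠ 0`, `s ≥ 1`, `s ‖x‖² ≤ l²`, `Y = s‖x‖`.
If `Y ≤ r0` ray monotonicity. If `r0 < Y ≤ 1`: `‖x‖ ≤ l²/r0`, `F x ≤ M (l²/r0)^a ≤ r0^a m ≤ F (s x)` for `l` small. If `Y ≥ 1`: `‖x‖ ≤ l²`, far lemma with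
`Λ = l²`: `M ‖x‖^(2a−n+2) ≤ M (l²)^(2a−n+2) ≤ c0 (l²)^(a−n+2)` iff `M (l²)^a ≤ c0`, true for `l` small.
-/

open InnerProductSpace Laplacian

noncomputable section

namespace Vale.Agent.Lib.P100.MP

variable {n : ℕ}

/-- Positive bounds of a positive continuous function on the closed unit ball. -/
private lemma exists_ball_bounds {u : Eu n → ℝ} (hcont : Continuous u) (hpos : ∀ x, 0 < u x) :
    ∃ m M : ℝ, 0 < m ∧ 0 < M ∧ ∀ x : Eu n, ‖x‖ ≤ 1 → m ≤ u x ∧ u x ≤ M := by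
  have hK : IsCompact (Metric.closedBall (0 : Eu n) 1) := isCompact_closedBall 0 1
  have hne : (Metric.closedBall (0 : Eu n) 1).Nonempty := ⟨0, by simp⟩
  obtain ⟨x0, _, hmin⟩ := hK.exists_isMinOn hne hcont.continuousOn
  obtain ⟨x1, _, hmax⟩ := hK.exists_isMaxOn hne hcont.continuousOn
  refine ⟨u x0, u x1, hpos _, hpos _, fun x hx => ?_⟩
  have hxm : x ∈ Metric.closedBall (0 : Eu n) 1 := by simpa using hx
  exact ⟨hmin hxm, hmax hxm⟩

/-- **Far lemma.** -/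
private lemma far_lemma {u : Eu n → ℝ} {a c0 M L s : ℝ}
    (ha : 0 < a) (ha2 : a ≤ (n : ℝ) - 2)
    (hlb : ∀ x : Eu n, 1 ≤ ‖x‖ → c0 * ‖x‖ ^ (-((n : ℝ) - 2)) ≤ u x) (hc0 : 0 < c0)
    (hM : ∀ x : Eu n, ‖x‖ ≤ 1 → u x ≤ M)
    {x : Eu n} (hx : x ≠ 0) (hx1 : ‖x‖ ≤ 1) (hY : 1 ≤ s * ‖x‖) (hL : s * ‖x‖ ^ 2 ≤ L)
    (hcond : M * ‖x‖ ^ (2 * a - (n : ℝ) + 2) ≤ c0 * L ^ (a - (n : ℝ) + 2)) :
    pw a u x ≤ pw a u (s • x) := by
  have hr : 0 < ‖x‖ := norm_pos_iff.mpr hx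
  have hs : 0 < s := by
    by_contra h
    have h' : s ≤ 0 := not_lt.mp h
    have : s * ‖x‖ ≤ 0 := mul_nonpos_of_nonpos_of_nonneg h' hr.le
    linarith
  have hYpos : 0 < s * ‖x‖ := by linarith
  have hnorm : ‖s • x‖ = s * ‖x‖ := by
    rw [norm_smul, Real.norm_of_nonneg hs.le]
  have hLpos : 0 < L := lt_of_lt_of_le (by positivity) hL
  set r := ‖x‖ with hrdef
  set Y := s * r with hYdef
  set e : ℝ := a - (n : ℝ) + 2 with hedef
  have he : e ≤ 0 := by simp only [hedef]; linarith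
  have hYle : Y ≤ L / r := by
    rw [le_div_iff₀ hr]
    calc Y * r = s * r ^ 2 := by simp only [hYdef]; ring
      _ ≤ L := hL
  have hpowY : (L / r) ^ e ≤ Y ^ e :=
    Real.rpow_le_rpow_of_nonpos hYpos hYle he
  have hLr : (L / r) ^ e = L ^ e / r ^ e := Real.div_rpow hLpos.le hr.le e
  have hrpos : 0 < r ^ a := Real.rpow_pos_of_pos hr a
  have hrepos : 0 < r ^ e := Real.rpow_pos_of_pos hr e
  have hYapos : 0 < Y ^ a := Real.rpow_pos_of_pos hYpos a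
  -- lower bound at s x
  have h1 : Y ^ a * (c0 * Y ^ (-((n : ℝ) - 2))) = c0 * Y ^ e := by
    have : Y ^ e = Y ^ a * Y ^ (-((n : ℝ) - 2)) := by
      rw [← Real.rpow_add hYpos]
      congr 1
      simp only [hedef]
      ring
    rw [this]
    ring
  have h2 : pw a u (s • x) = Y ^ a * u (s • x) := by
    simp only [pw, hnorm]
  have h3 : c0 * Y ^ (-((n : ℝ) - 2)) ≤ u (s • x) := by
    have := hlb (s • x) (by rw [hnorm]; exact hY)
    rwa [hnorm] at this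
  have h4 : c0 * Y ^ e ≤ pw a u (s • x) := by
    rw [h2, ← h1]
    exact mul_le_mul_of_nonneg_left h3 hYapos.le
  have h5 : pw a u x ≤ r ^ a * M := by
    simp only [pw]
    exact mul_le_mul_of_nonneg_left (hM x hx1) hrpos.le
  -- the main comparison
  have h6 : r ^ a * M ≤ c0 * (L ^ e / r ^ e) := by
    have hexp : r ^ (2 * a - (n : ℝ) + 2) = r ^ a * r ^ e := by
      rw [← Real.rpow_add hr]
      congr 1
      simp only [hedef]
      ring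
    rw [hexp] at hcond
    have : c0 * (L ^ e / r ^ e) = (c0 * L ^ e) / r ^ e := by ring
    rw [this, le_div_iff₀ hrepos]
    calc r ^ a * M * r ^ e = M * (r ^ a * r ^ e) := by ring
      _ ≤ c0 * L ^ e := hcond
  calc pw a u x ≤ r ^ a * M := h5
    _ ≤ c0 * (L ^ e / r ^ e) := h6
    _ = c0 * (L / r) ^ e := by rw [hLr]
    _ ≤ c0 * Y ^ e := mul_le_mul_of_nonneg_left hpowY hc0.le
    _ ≤ pw a u (s • x) := h4

/-- Behaviour near the origin: the far value dominates. -/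
theorem near_mono {u : Eu n → ℝ} {a : ℝ} (hn : 3 ≤ n) (hcont : Continuous u)
    (hpos : ∀ x, 0 < u x) (hlb : LB u ((n : ℝ) - 2))
    (ha1 : (n : ℝ) - 2 < 2 * a) (ha2 : a ≤ (n : ℝ) - 2) {l : ℝ} (hl : 0 < l) :
    ∃ r : ℝ, 0 < r ∧ ∀ x : Eu n, x ≠ 0 → ‖x‖ ≤ r → ∀ s : ℝ,
      l ^ 2 ≤ s * ‖x‖ ^ 2 → s * ‖x‖ ^ 2 ≤ 4 * l ^ 2 → pw a u x ≤ pw a u (s • x) := by
  obtain ⟨c0, hc0, hlb'⟩ := hlb
  obtain ⟨m, M, hm, hM, hbd⟩ := exists_ball_bounds hcont hpos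
  have hn' : (3 : ℝ) ≤ n := by exact_mod_cast hn
  have ha : 0 < a := by linarith
  set L : ℝ := 4 * l ^ 2 with hLdef
  have hLpos : 0 < L := by positivity
  set d : ℝ := 2 * a - (n : ℝ) + 2 with hddef
  have hd : 0 < d := by simp only [hddef]; linarith
  set K : ℝ := c0 * L ^ (a - (n : ℝ) + 2) with hKdef
  have hK : 0 < K := mul_pos hc0 (Real.rpow_pos_of_pos hLpos _)
  set r1 : ℝ := (K / M) ^ (1 / d) with hr1def
  have hr1 : 0 < r1 := Real.rpow_pos_of_pos (div_pos hK hM) _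
  have hr1d : r1 ^ d = K / M := by
    rw [hr1def, ← Real.rpow_mul (div_pos hK hM).le, one_div, inv_mul_cancel₀ hd.ne', Real.rpow_one]
  have hl2 : 0 < l ^ 2 := by positivity
  refine ⟨min 1 (min (l ^ 2) r1), lt_min one_pos (lt_min hl2 hr1), ?_⟩
  intro x hx hxr s hs1 hs2
  have hr : 0 < ‖x‖ := norm_pos_iff.mpr hx
  have hx1 : ‖x‖ ≤ 1 := le_trans hxr (min_le_left _ _)
  have hxl : ‖x‖ ≤ l ^ 2 := le_trans hxr (le_trans (min_le_right _ _) (min_le_left _ _))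
  have hxr1 : ‖x‖ ≤ r1 := le_trans hxr (le_trans (min_le_right _ _) (min_le_right _ _))
  have hY : 1 ≤ s * ‖x‖ := by
    have h1 : ‖x‖ * 1 ≤ ‖x‖ * (s * ‖x‖) := by
      calc ‖x‖ * 1 = ‖x‖ := mul_one _
        _ ≤ l ^ 2 := hxl
        _ ≤ s * ‖x‖ ^ 2 := hs1
        _ = ‖x‖ * (s * ‖x‖) := by ring
    exact le_of_mul_le_mul_left h1 hr
  refine far_lemma ha ha2 hlb' hc0 (fun y hy => (hbd y hy).2) hx hx1 hY hs2 ?_
  have h1 : ‖x‖ ^ d ≤ r1 ^ d := Real.rpow_le_rpow hr.le hxr1 hd.le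
  calc M * ‖x‖ ^ d ≤ M * r1 ^ d := mul_le_mul_of_nonneg_left h1 hM.le
    _ = K := by rw [hr1d]; field_simp

/-- Monotonicity along a ray from the sign of the radial derivative. -/
private lemma ray_mono {F : Eu n → ℝ} {r0 : ℝ} (hF : ContDiffOn ℝ 2 F {0}ᶜ)
    (hD : ∀ x : Eu n, x ≠ 0 → ‖x‖ ≤ r0 → 0 ≤ Dr F x)
    {x : Eu n} (hx : x ≠ 0) {s : ℝ} (hs : 1 ≤ s) (hY : s * ‖x‖ ≤ r0) : F x ≤ F (s • x) := by
  have hr : 0 < ‖x‖ := norm_pos_iff.mpr hx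
  have hne : ∀ t : ℝ, 1 ≤ t → t • x ≠ 0 := fun t ht =>
    smul_ne_zero (by linarith : t ≠ 0) hx
  have hat : ∀ t : ℝ, 1 ≤ t → ContDiffAt ℝ 2 F (t • x) := fun t ht =>
    hF.contDiffAt (isOpen_compl_singleton.mem_nhds (by simpa using hne t ht))
  have hder : ∀ t : ℝ, 1 ≤ t →
      HasDerivAt (fun t : ℝ => F (t • x)) (fderiv ℝ F (t • x) x) t := by
    intro t ht
    have h1 : HasDerivAt (fun t : ℝ => t • x) x t := by
      simpa using (hasDerivAt_id t).smul_const x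
    have h2 : HasFDerivAt F (fderiv ℝ F (t • x)) (t • x) :=
      ((hat t ht).differentiableAt (by norm_num)).hasFDerivAt
    exact h2.comp_hasDerivAt t h1
  have hmono : MonotoneOn (fun t : ℝ => F (t • x)) (Set.Icc 1 s) := by
    apply monotoneOn_of_deriv_nonneg (convex_Icc 1 s)
    · intro t ht
      exact (hder t ht.1).continuousAt.continuousWithinAt
    · intro t ht
      rw [interior_Icc] at ht
      exact (hder t ht.1.le).differentiableAt.differentiableWithinAt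
    · intro t ht
      rw [interior_Icc] at ht
      have ht1 : 1 ≤ t := ht.1.le
      have ht0 : 0 < t := by linarith
      rw [(hder t ht1).deriv]
      have hnorm : ‖t • x‖ = t * ‖x‖ := by
        rw [norm_smul, Real.norm_of_nonneg ht0.le]
      have hle : ‖t • x‖ ≤ r0 := by
        rw [hnorm]
        exact le_trans (mul_le_mul_of_nonneg_right ht.2.le hr.le) hY
      have h0 := hD (t • x) (hne t ht1) hle
      have h1 : Dr F (t • x) = t * fderiv ℝ F (t • x) x := by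
        simp only [Dr, map_smul, smul_eq_mul]
      rw [h1] at h0
      exact nonneg_of_mul_nonneg_right h0 ht0
  have := hmono (Set.left_mem_Icc.mpr hs) (Set.right_mem_Icc.mpr hs) hs
  simpa using this

/-- **Module Start.** The start of the continuation. -/
theorem exists_mono {u : Eu n → ℝ} {a A C : ℝ} (hn : 3 ≤ n) (hcont : Continuous u)
    (hpos : ∀ x, 0 < u x) (hC2 : ContDiffOn ℝ 2 u {0}ᶜ) (hlb : LB u ((n : ℝ) - 2))
    (hA : -2 < A) (hC : 0 ≤ C)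
    (hbd : ∀ x : Eu n, x ≠ 0 → ‖x‖ ≤ 1 → |Δ u x| ≤ C * ‖x‖ ^ A)
    (ha1 : (n : ℝ) - 2 < 2 * a) (ha2 : a ≤ (n : ℝ) - 2) :
    ∃ l : ℝ, 0 < l ∧ Mono (pw a u) l := by
  obtain ⟨c0, hc0, hlb'⟩ := hlb
  obtain ⟨m, M, hm, hM, hbdd⟩ := exists_ball_bounds hcont hpos
  have hn' : (3 : ℝ) ≤ n := by exact_mod_cast hn
  have ha : 0 < a := by linarith
  obtain ⟨r1, hr1, hgrad⟩ := grad_small hn hcont hC2 hA hC hbd (a * m) (mul_pos ha hm)
  set r0 : ℝ := min 1 r1 with hr0def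
  have hr0 : 0 < r0 := lt_min one_pos hr1
  have hr01 : r0 ≤ 1 := min_le_left _ _
  have hF : ContDiffOn ℝ 2 (pw a u) {0}ᶜ := contDiffOn_pw a hC2
  have hD : ∀ x : Eu n, x ≠ 0 → ‖x‖ ≤ r0 → 0 ≤ Dr (pw a u) x := by
    intro x hx hxr
    have hat : ContDiffAt ℝ 2 u x :=
      hC2.contDiffAt (isOpen_compl_singleton.mem_nhds (by simpa using hx))
    rw [Dr_pw a hx hat]
    have h1 := hgrad x hx (le_trans hxr (min_le_right _ _))
    have h2 := (hbdd x (le_trans hxr hr01)).1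
    have h3 : a * m ≤ a * u x := mul_le_mul_of_nonneg_left h2 ha.le
    have h4 := (abs_le.mp h1).1
    exact mul_nonneg (Real.rpow_nonneg (norm_nonneg _) _) (by linarith)
  -- choice of the level
  set κ : ℝ := min c0 (r0 ^ (2 * a) * m) / M with hκdef
  have hκ : 0 < κ := div_pos (lt_min hc0 (mul_pos (Real.rpow_pos_of_pos hr0 _) hm)) hM
  set t : ℝ := min 1 (κ ^ (1 / a)) with htdef
  have ht : 0 < t := lt_min one_pos (Real.rpow_pos_of_pos hκ _)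
  have ht1 : t ≤ 1 := min_le_left _ _
  have hta : t ^ a ≤ κ := by
    have h1 : t ≤ κ ^ (1 / a) := min_le_right _ _
    have h2 : t ^ a ≤ (κ ^ (1 / a)) ^ a := Real.rpow_le_rpow ht.le h1 ha.le
    have h3 : (κ ^ (1 / a)) ^ a = κ := by
      rw [← Real.rpow_mul hκ.le, one_div, inv_mul_cancel₀ ha.ne', Real.rpow_one]
    rwa [h3] at h2
  have hMt : M * t ^ a ≤ min c0 (r0 ^ (2 * a) * m) := by
    calc M * t ^ a ≤ M * κ := mul_le_mul_of_nonneg_left hta hM.le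
      _ = min c0 (r0 ^ (2 * a) * m) := by rw [hκdef]; field_simp
  have hMt1 : M * t ^ a ≤ c0 := le_trans hMt (min_le_left _ _)
  have hMt2 : M * t ^ a ≤ r0 ^ (2 * a) * m := le_trans hMt (min_le_right _ _)
  refine ⟨Real.sqrt t, Real.sqrt_pos.mpr ht, ?_⟩
  intro x hx s hs hsl
  have hl2 : Real.sqrt t ^ 2 = t := Real.sq_sqrt ht.le
  rw [hl2] at hsl
  have hr : 0 < ‖x‖ := norm_pos_iff.mpr hx
  have hs0 : 0 < s := by linarith
  have hYpos : 0 < s * ‖x‖ := mul_pos hs0 hr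
  have hnorm : ‖s • x‖ = s * ‖x‖ := by
    rw [norm_smul, Real.norm_of_nonneg hs0.le]
  have hxY : ‖x‖ ≤ s * ‖x‖ := by nlinarith
  rcases le_total (s * ‖x‖) r0 with hY | hY
  · exact ray_mono hF hD hx hs hY
  rcases le_total (s * ‖x‖) 1 with hY1 | hY1
  · -- the middle range
    have hxt : ‖x‖ ≤ t / r0 := by
      rw [le_div_iff₀ hr0]
      calc ‖x‖ * r0 ≤ ‖x‖ * (s * ‖x‖) := mul_le_mul_of_nonneg_left hY hr.le
        _ = s * ‖x‖ ^ 2 := by ring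
        _ ≤ t := hsl
    have hx1 : ‖x‖ ≤ 1 := le_trans hxY hY1
    have h1 : pw a u x ≤ (t / r0) ^ a * M := by
      simp only [pw]
      exact mul_le_mul (Real.rpow_le_rpow hr.le hxt ha.le) (hbdd x hx1).2 (hpos x).le
        (Real.rpow_nonneg (div_pos ht hr0).le _)
    have h2 : r0 ^ a * m ≤ pw a u (s • x) := by
      simp only [pw]
      rw [hnorm]
      exact mul_le_mul (Real.rpow_le_rpow hr0.le hY ha.le)
        (hbdd (s • x) (by rw [hnorm]; exact hY1)).1 hm.le (Real.rpow_nonneg hYpos.le _)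
    have hr0a : 0 < r0 ^ a := Real.rpow_pos_of_pos hr0 a
    have h3 : (t / r0) ^ a * M ≤ r0 ^ a * m := by
      rw [Real.div_rpow ht.le hr0.le]
      have h2a : r0 ^ (2 * a) = r0 ^ a * r0 ^ a := by
        rw [← Real.rpow_add hr0]
        congr 1
        ring
      rw [h2a] at hMt2
      rw [div_mul_eq_mul_div, div_le_iff₀ hr0a]
      calc t ^ a * M = M * t ^ a := by ring
        _ ≤ r0 ^ a * r0 ^ a * m := hMt2
        _ = r0 ^ a * m * r0 ^ a := by ring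
    exact le_trans h1 (le_trans h3 h2)
  · -- the far range
    have hxt : ‖x‖ ≤ t := by
      calc ‖x‖ = ‖x‖ * 1 := (mul_one _).symm
        _ ≤ ‖x‖ * (s * ‖x‖) := mul_le_mul_of_nonneg_left hY1 hr.le
        _ = s * ‖x‖ ^ 2 := by ring
        _ ≤ t := hsl
    have hx1 : ‖x‖ ≤ 1 := le_trans hxt ht1
    refine far_lemma ha ha2 hlb' hc0 (fun y hy => (hbdd y hy).2) hx hx1 hY1 hsl ?_
    set d : ℝ := 2 * a - (n : ℝ) + 2 with hddef
    have hd : 0 < d := by simp only [hddef]; linarith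
    have h1 : ‖x‖ ^ d ≤ t ^ d := Real.rpow_le_rpow hr.le hxt hd.le
    have h2 : t ^ d = t ^ a * t ^ (a - (n : ℝ) + 2) := by
      rw [← Real.rpow_add ht]
      congr 1
      simp only [hddef]
      ring
    have h3 : 0 < t ^ (a - (n : ℝ) + 2) := Real.rpow_pos_of_pos ht _
    calc M * ‖x‖ ^ d ≤ M * t ^ d := mul_le_mul_of_nonneg_left h1 hM.le
      _ = (M * t ^ a) * t ^ (a - (n : ℝ) + 2) := by rw [h2]; ring
      _ ≤ c0 * t ^ (a - (n : ℝ) + 2) := mul_le_mul_of_nonneg_right hMt1 h3.le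

end Vale.Agent.Lib.P100.MP
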