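import Vale.Agent.Lib.P100.MP.Loop
import Vale.Agent.Lib.P100.MP.Iter
import Vale.Agent.Lib.P100.MP.Start

/-!
# P100 moving planes: assembly.

For `n ≥ 3`, `A, B > -2`, `p, q > 0`, `p q > 1`, with scaling exponents `α = (2+A+p(2+B))/(pq−1)`,
`β = (2+B+q(2+A))/(pq−1)`: if `α > (n−2)/2` and `β > (n−2)/2` there is no positive entire solution.
-/

open InnerProductSpace Laplacian

noncomputable section

namespace Vale.Agent.Lib.P100.MP

variable {n : ℕ}

theorem Sol.swap {A B p q : ℝ} {u v : Eu n → ℝ} (h : Sol n A B p q u v) : Sol n B A q p v u :=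
  ⟨h.vcont, h.ucont, h.vpos, h.upos, h.vC2, h.uC2, h.veq, h.ueq⟩

theorem Mono.anti {F : Eu n → ℝ} {l l' : ℝ} (h : Mono F l) (hl' : 0 < l') (hll : l' ≤ l) :
    Mono F l' := by
  intro x hx s hs hsx
  refine h x hx s hs (hsx.trans ?_)
  nlinarith

theorem Sol.lap_neg {A B p q : ℝ} {u v : Eu n → ℝ} (h : Sol n A B p q u v) :
    ∀ x : Eu n, x ≠ 0 → Δ u x ≤ 0 := by
  intro x hx
  have h1 := h.ueq x hx
  have h2 : 0 ≤ ‖x‖ ^ A * v x ^ p :=
    mul_nonneg (Real.rpow_nonneg (norm_nonneg _) _) (Real.rpow_nonneg (h.vpos x).le _)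
  linarith

/-- The Laplacian bound near the origin. -/
theorem Sol.lap_bd {A B p q : ℝ} {u v : Eu n → ℝ} (h : Sol n A B p q u v) (hp : 0 < p) :
    ∃ C : ℝ, 0 ≤ C ∧ ∀ x : Eu n, x ≠ 0 → ‖x‖ ≤ 1 → |Δ u x| ≤ C * ‖x‖ ^ A := by
  obtain ⟨M, hM⟩ := (isCompact_closedBall (0 : Eu n) 1).exists_bound_of_continuousOn
    (h.vcont.continuousOn)
  have hM0 : 0 ≤ M := (norm_nonneg _).trans (hM 0 (by simp))
  refine ⟨M ^ p, Real.rpow_nonneg hM0 _, fun x hx hx1 => ?_⟩
  have h1 := h.ueq x hx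
  have h2 : Δ u x = - (‖x‖ ^ A * v x ^ p) := by linarith
  have hvpos := h.vpos x
  have h3 : v x ≤ M := by
    have := hM x (by simpa using hx1)
    rwa [Real.norm_of_nonneg hvpos.le] at this
  have h4 : v x ^ p ≤ M ^ p := Real.rpow_le_rpow hvpos.le h3 hp.le
  have h5 : 0 ≤ ‖x‖ ^ A := Real.rpow_nonneg (norm_nonneg _) _
  have h6 : 0 ≤ v x ^ p := Real.rpow_nonneg hvpos.le _
  rw [h2, abs_neg, abs_of_nonneg (mul_nonneg h5 h6), mul_comm]
  exact mul_le_mul_of_nonneg_right h4 h5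

/-- The normalised equation for `pw a u`, `pw b v`. -/
theorem Sol.eqn {A B p q a b τ : ℝ} {u v : Eu n → ℝ} (h : Sol n A B p q u v)
    (hτ : τ = 2 + A + a - p * b) : Eqn n a τ p (pw a u) (pw b v) := by
  intro x hx
  have hC : ContDiffAt ℝ 2 u x := h.uC2.contDiffAt (isOpen_compl_singleton.mem_nhds hx)
  rw [op_pw a hx hC]
  have h1 : Δ u x = - (‖x‖ ^ A * v x ^ p) := by linarith [h.ueq x hx]
  have hxpos : 0 < ‖x‖ := norm_pos_iff.mpr hx
  have h2 : pw b v x ^ p = ‖x‖ ^ (b * p) * v x ^ p := by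
    simp only [pw]
    rw [Real.mul_rpow (Real.rpow_nonneg hxpos.le _) (h.vpos x).le, ← Real.rpow_mul hxpos.le]
  rw [h1, h2, mul_neg, ← mul_assoc, ← mul_assoc, ← Real.rpow_add hxpos, ← Real.rpow_add hxpos, hτ]
  congr 3
  ring

/-- From monotonicity along rays to the lower bound. -/
theorem lb_of_mono {u : Eu n → ℝ} {a : ℝ} (hn : 3 ≤ n) (hcont : Continuous u) (hpos : ∀ x, 0 < u x)
    (hm : ∀ l : ℝ, 0 < l → Mono (pw a u) l) : LB u a := by
  classical
  have : Nontrivial (Eu n) := by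
    have : Nonempty (Fin n) := ⟨⟨0, by omega⟩⟩
    infer_instance
  have hS : IsCompact (Metric.sphere (0 : Eu n) 1) := isCompact_sphere _ _
  have hne : (Metric.sphere (0 : Eu n) 1).Nonempty := NormedSpace.sphere_nonempty.mpr (by norm_num)
  obtain ⟨z0, hz0, hmin⟩ := hS.exists_isMinOn hne hcont.continuousOn
  refine ⟨u z0, hpos z0, fun x hx => ?_⟩
  have hxpos : 0 < ‖x‖ := by linarith
  have hx0 : x ≠ 0 := norm_pos_iff.mp hxpos
  set z : Eu n := ‖x‖⁻¹ • x with hz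
  have hzn : ‖z‖ = 1 := by
    rw [hz, norm_smul, norm_inv, norm_norm, inv_mul_cancel₀ hxpos.ne']
  have hz0' : z ≠ 0 := by
    intro h
    rw [h] at hzn
    simp at hzn
  have hsx : ‖x‖ • z = x := by
    rw [hz, smul_smul, mul_inv_cancel₀ hxpos.ne', one_smul]
  have h1 := hm (‖x‖ + 1) (by linarith) z hz0' ‖x‖ hx (by rw [hzn]; nlinarith)
  rw [hsx] at h1
  simp only [pw, hzn, Real.one_rpow, one_mul] at h1
  have h2 : u z0 ≤ u z := hmin (by simp [hzn])
  have h3 : ‖x‖ ^ (-a) * ‖x‖ ^ a = 1 := by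
    rw [← Real.rpow_add hxpos]
    simp
  have h4 : 0 < ‖x‖ ^ (-a) := Real.rpow_pos_of_pos hxpos _
  calc u z0 * ‖x‖ ^ (-a) ≤ u z * ‖x‖ ^ (-a) := mul_le_mul_of_nonneg_right h2 h4.le
    _ ≤ (‖x‖ ^ a * u x) * ‖x‖ ^ (-a) := mul_le_mul_of_nonneg_right h1 h4.le
    _ = (‖x‖ ^ (-a) * ‖x‖ ^ a) * u x := by ring
    _ = u x := by rw [h3, one_mul]

/-- **Main theorem.** -/
theorem no_solution_mp {A B p q : ℝ} {u v : Eu n → ℝ} (hn : 3 ≤ n) (hA : -2 < A) (hB : -2 < B)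
    (hp : 0 < p) (hq : 0 < q) (hpq : 1 < p * q)
    (h1 : ((n : ℝ) - 2) * (p * q - 1) < 2 * (2 + A + p * (2 + B)))
    (h2 : ((n : ℝ) - 2) * (p * q - 1) < 2 * (2 + B + q * (2 + A)))
    (h : Sol n A B p q u v) : False := by
  have hnR : (3 : ℝ) ≤ n := by exact_mod_cast hn
  have hδ : 0 < p * q - 1 := by linarith
  set δ := p * q - 1 with hδdef
  set N : ℝ := (n : ℝ) - 2 with hN
  have hN1 : 1 ≤ N := by rw [hN]; linarith
  set α : ℝ := (2 + A + p * (2 + B)) / δ with hα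
  set β : ℝ := (2 + B + q * (2 + A)) / δ with hβ
  have hαeq : α = p * β - 2 - A := by
    rw [hα, hβ]
    field_simp
    rw [hδdef]
    ring
  have hβeq : β = q * α - 2 - B := by
    rw [hα, hβ]
    field_simp
    rw [hδdef]
    ring
  have hα2 : N < 2 * α := by
    rw [hα, ← mul_div_assoc, lt_div_iff₀ hδ]
    exact h1
  have hβ2 : N < 2 * β := by
    rw [hβ, ← mul_div_assoc, lt_div_iff₀ hδ]
    exact h2
  have hbu : LB u N := base_lb hn h.ucont h.upos h.uC2 h.lap_neg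
  have hbv : LB v N := base_lb hn h.vcont h.vpos h.vC2 h.swap.lap_neg
  by_cases hαN : N < α
  · exact iter_false hn h hp hq hpq hαeq hβeq (by linarith) le_rfl hαN hbu
  by_cases hβN : N < β
  · exact iter_false hn h.swap hq hp (by linarith) hβeq hαeq (by linarith) le_rfl hβN hbv
  push Not at hαN hβN
  -- the normalisation
  have hq' : 1 / q < p := by
    rw [div_lt_iff₀ hq]
    linarith
  set ζ : ℝ := (p + 1 / q) / 2 with hζ
  have hζp : ζ < p := by rw [hζ]; linarith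
  have hqζ : 1 < q * ζ := by
    have : q * (1 / q) = 1 := by field_simp
    rw [hζ]
    nlinarith
  have hζpos : 0 < ζ := by
    have : 0 < 1 / q := by positivity
    rw [hζ]
    linarith
  obtain ⟨θ, hθ, hθ1, hθ2⟩ : ∃ θ : ℝ, 0 < θ ∧ N < 2 * (α - θ * ζ) ∧ N < 2 * (β - θ) := by
    have h3 : 0 < 2 * α - N := by linarith
    have h4 : 0 < 2 * β - N := by linarith
    refine ⟨min ((2 * α - N) / (4 * ζ)) ((2 * β - N) / 4), lt_min (by positivity) (by positivity),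
      ?_, ?_⟩
    · have h5 : min ((2 * α - N) / (4 * ζ)) ((2 * β - N) / 4) * ζ ≤ (2 * α - N) / 4 := by
        calc _ ≤ (2 * α - N) / (4 * ζ) * ζ := mul_le_mul_of_nonneg_right (min_le_left _ _) hζpos.le
          _ = (2 * α - N) / 4 := by field_simp
      linarith
    · have h5 : min ((2 * α - N) / (4 * ζ)) ((2 * β - N) / 4) ≤ (2 * β - N) / 4 := min_le_right _ _
      linarith
  set a : ℝ := α - θ * ζ with ha
  set b : ℝ := β - θ with hb
  have hθζ : 0 < θ * ζ := mul_pos hθ hζpos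
  have ha2 : a ≤ N := by rw [ha]; linarith
  have hb2 : b ≤ N := by rw [hb]; linarith
  have haα : a < α := by rw [ha]; linarith
  have hapos : 0 < a := by linarith
  set τ : ℝ := 2 + A + a - p * b with hτ
  set σ : ℝ := 2 + B + b - q * a with hσ
  have hτpos : 0 < τ := by
    have : τ = θ * (p - ζ) := by
      rw [hτ, ha, hb]
      have := hαeq
      nlinarith
    rw [this]
    exact mul_pos hθ (by linarith)
  have hσpos : 0 < σ := by
    have : σ = θ * (q * ζ - 1) := by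
      rw [hσ, ha, hb]
      have := hβeq
      nlinarith
    rw [this]
    exact mul_pos hθ (by linarith)
  obtain ⟨C1, hC1, hbd1⟩ := h.lap_bd hp
  obtain ⟨C2, hC2, hbd2⟩ := h.swap.lap_bd hq
  obtain ⟨l1, hl1, hm1⟩ := exists_mono hn h.ucont h.upos h.uC2 hbu hA hC1 hbd1 hθ1 ha2
  obtain ⟨l2, hl2, hm2⟩ := exists_mono hn h.vcont h.vpos h.vC2 hbv hB hC2 hbd2 hθ2 hb2
  have hall := mono_all (F := pw a u) (G := pw b v) (a := a) (b := b) (τ := τ) (σ := σ)
    (p := p) (q := q) hn (contDiffOn_pw a h.uC2) (contDiffOn_pw b h.vC2)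
    (fun x hx => mul_pos (Real.rpow_pos_of_pos (norm_pos_iff.mpr hx) _) (h.upos x))
    (fun x hx => mul_pos (Real.rpow_pos_of_pos (norm_pos_iff.mpr hx) _) (h.vpos x))
    hθ1 ha2 hθ2 hb2 hτpos hσpos hp hq (h.eqn hτ) (h.swap.eqn hσ)
    ⟨min l1 l2, lt_min hl1 hl2, hm1.anti (lt_min hl1 hl2) (min_le_left _ _),
      hm2.anti (lt_min hl1 hl2) (min_le_right _ _)⟩
    (fun l hl => by
      obtain ⟨r1, hr1, h5⟩ := near_mono hn h.ucont h.upos hbu hθ1 ha2 hl
      obtain ⟨r2, hr2, h6⟩ := near_mono hn h.vcont h.vpos hbv hθ2 hb2 hl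
      refine ⟨min r1 r2, lt_min hr1 hr2, fun x hx hxr s hs1 hs2 => ⟨?_, ?_⟩⟩
      · exact h5 x hx (hxr.trans (min_le_left _ _)) s hs1 hs2
      · exact h6 x hx (hxr.trans (min_le_right _ _)) s hs1 hs2)
  have hLB : LB u a := lb_of_mono hn h.ucont h.upos (fun l hl => (hall l hl).1)
  exact iter_false hn h hp hq hpq hαeq hβeq hapos ha2 haα hLB

end Vale.Agent.Lib.P100.MP
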