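import Vale.Agent.Lib.P100.MP.Calc

/-!
# P100 moving planes, module Grad: `x · ∇u → 0` at the origin.

Paper proof (interior gradient estimate by reflection, Gilbarg-Trudinger 3.9, half-ball version). Fix `x0 ≠ 0`,
`d = ‖x0‖/2`, `e = x0/‖x0‖`, `ξ z = ⟪z − x0, e⟫`, `σ z = z − 2 ξ(z) e`. For `z` in the closed ball `B(x0,d)`,
`z` and `σ z` lie in that ball, with norms in `[d, 3d]`. Let `φ z = u z − u (σ z)`: `Δφ z = Δu z − Δu (σ z)`,
`|Δφ| ≤ 2N`, `φ ≤ M` on the ball with `M > 0`. On `H = {z ∈ closedBall x0 d, ξ z ≥ 0}` let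
`ψ z = (M/d²) (‖z−x0‖² + (n+1) ξ (2d − ξ)) + N ξ (d − ξ)`. `Δψ = −2M/d² − 2N`. On `ξ = 0`: `φ = 0 ≤ ψ`.
On `‖z−x0‖ = d`: `ψ ≥ M ≥ φ`. `min_principle` for `ψ − φ` gives `φ ≤ ψ` on `H`. Along `z = x0 + t e`, `t ↓ 0`:
`u(x0+te) − u(x0−te) ≤ ψ(x0+te)`, so the derivative at 0: `2 fderiv u x0 e ≤ 2(n+1)M/d + N d`. Hence
`Dr u x0 = 2d fderiv u x0 e ≤ 2(n+1) M + N d²`. Same for `−u`.
-/

open InnerProductSpace Laplacian
open scoped RealInnerProductSpace Topology

noncomputable section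

namespace Vale.Agent.Lib.P100.MP

variable {n : ℕ}

/-- The Laplacian is invariant under isometries. -/
theorem lap_comp_isometry (R : Eu n ≃ₗᵢ[ℝ] Eu n) (w : Eu n) (g : Eu n → ℝ) (z : Eu n) :
    Δ (fun y => g (R y + w)) z = Δ g (R z + w) := by
  have h1 := congrFun (laplacian_eq_iteratedFDeriv_orthonormalBasis (fun y => g (R y + w))
    (EuclideanSpace.basisFun (Fin n) ℝ)) z
  have h2 := congrFun (laplacian_eq_iteratedFDeriv_orthonormalBasis g
    ((EuclideanSpace.basisFun (Fin n) ℝ).map R)) (R z + w)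
  rw [h1, h2]
  refine Finset.sum_congr rfl fun i _ => ?_
  have h3 : (fun y => g (R y + w)) = (fun y => g (y + w)) ∘ (R.toContinuousLinearEquiv) := by
    funext y; rfl
  have h4 := R.toContinuousLinearEquiv.iteratedFDerivWithin_comp_right (fun y => g (y + w))
    (s := Set.univ) uniqueDiffOn_univ (x := z) (Set.mem_univ _) 2
  simp only [Set.preimage_univ, iteratedFDerivWithin_univ] at h4
  rw [h3, h4, iteratedFDeriv_comp_add_right]
  simp only [ContinuousMultilinearMap.compContinuousLinearMap_apply]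
  congr 1
  ext j k
  fin_cases j <;> simp

/-- The inner product as a continuous bilinear map. -/
def innerCLM (n : ℕ) : Eu n →L[ℝ] Eu n →L[ℝ] ℝ :=
  LinearMap.mkContinuous₂ (innerₗ (Eu n)) 1 (by
    intro x y
    simpa using abs_real_inner_le_norm x y)

@[simp] theorem innerCLM_apply (x y : Eu n) : innerCLM n x y = ⟪x, y⟫ := by
  simp [innerCLM]

/-- The Laplacian of the quadratic polynomial `α‖z−x0‖² + β⟪z−x0,e⟫ + γ⟪z−x0,e⟫²`, for unit `e`. -/
theorem lap_quad (x0 e : Eu n) (he : ‖e‖ = 1) (α β γ : ℝ) (z : Eu n) :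
    Δ (fun z : Eu n => α * ‖z - x0‖ ^ 2 + β * ⟪z - x0, e⟫ + γ * ⟪z - x0, e⟫ ^ 2) z
      = 2 * n * α + 2 * γ := by
  set Q : Eu n → ℝ := fun z : Eu n => α * ‖z - x0‖ ^ 2 + β * ⟪z - x0, e⟫ + γ * ⟪z - x0, e⟫ ^ 2
    with hQdef
  set L : Eu n →L[ℝ] ℝ := innerCLM n e with hL
  set G : Eu n → (Eu n →L[ℝ] ℝ) := fun z =>
    (2 * α) • innerCLM n (z - x0) + β • L + (2 * γ * ⟪z - x0, e⟫) • L with hG
  have hsub : ∀ z : Eu n, HasFDerivAt (fun z : Eu n => z - x0) (ContinuousLinearMap.id ℝ (Eu n)) z :=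
    fun z => (hasFDerivAt_id z).sub_const x0
  have hℓ : ∀ z : Eu n, HasFDerivAt (fun z : Eu n => ⟪z - x0, e⟫) L z := by
    intro z
    have h := L.hasFDerivAt.comp z (hsub z)
    have h2 : (fun z : Eu n => ⟪z - x0, e⟫) = (⇑L ∘ fun z : Eu n => z - x0) := by
      funext y
      simp [hL, real_inner_comm]
    rw [h2]
    simpa using h
  have hQ : ∀ z : Eu n, HasFDerivAt Q (G z) z := by
    intro z
    have h := (((hsub z).norm_sq.const_mul α).add ((hℓ z).const_mul β)).add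
      (((hℓ z).pow 2).const_mul γ)
    refine h.congr_fderiv ?_
    ext h
    simp [hG, hL]
    ring
  have hfd : fderiv ℝ Q = G := funext fun z => (hQ z).fderiv
  have hGd : HasFDerivAt G
      ((2 * α) • innerCLM n + (2 * γ) • (L.smulRight L)) z := by
    have h1 : HasFDerivAt (fun z : Eu n => innerCLM n (z - x0)) (innerCLM n) z := by
      have h : HasFDerivAt (fun z : Eu n => innerCLM n (z - x0))
          ((innerCLM n).comp (ContinuousLinearMap.id ℝ (Eu n))) z :=
        (innerCLM n).hasFDerivAt.comp z (hsub z)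
      rwa [ContinuousLinearMap.comp_id] at h
    have h2 : HasFDerivAt (fun z : Eu n => (2 * γ * ⟪z - x0, e⟫) • L)
        ((2 * γ) • (L.smulRight L)) z := by
      have h3 := ((hℓ z).const_mul (2 * γ)).smul_const L
      refine h3.congr_fderiv ?_
      ext h k
      simp
      ring
    have h4 := ((h1.const_smul (2 * α)).add_const (β • L)).add h2
    exact h4
  have h1 := congrFun (laplacian_eq_iteratedFDeriv_orthonormalBasis Q
    (EuclideanSpace.basisFun (Fin n) ℝ)) z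
  rw [h1]
  have h2 : ∀ i : Fin n, iteratedFDeriv ℝ 2 Q z
      ![(EuclideanSpace.basisFun (Fin n) ℝ) i, (EuclideanSpace.basisFun (Fin n) ℝ) i]
      = 2 * α + 2 * γ * ⟪(EuclideanSpace.basisFun (Fin n) ℝ) i, e⟫ ^ 2 := by
    intro i
    rw [iteratedFDeriv_two_apply, hfd, hGd.fderiv]
    simp only [Matrix.cons_val_zero, Matrix.cons_val_one]
    simp [hL, real_inner_comm, pow_two]
  simp only [h2]
  have h3 : ∑ i : Fin n, (2 * α + 2 * γ * ⟪(EuclideanSpace.basisFun (Fin n) ℝ) i, e⟫ ^ 2)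
      = n * (2 * α) + 2 * γ * ∑ i : Fin n, ⟪(EuclideanSpace.basisFun (Fin n) ℝ) i, e⟫ ^ 2 := by
    rw [Finset.sum_add_distrib, Finset.mul_sum]
    simp
  rw [h3, (EuclideanSpace.basisFun (Fin n) ℝ).sum_sq_inner_right, he]
  ring

/-- The reflection across the hyperplane through `x0` orthogonal to `e`. -/
def sig (x0 e : Eu n) (z : Eu n) : Eu n := z - (2 * ⟪z - x0, e⟫) • e

theorem sig_eq (x0 e : Eu n) (he : ‖e‖ = 1) :
    ∃ (R : Eu n ≃ₗᵢ[ℝ] Eu n) (w : Eu n), ∀ z, sig x0 e z = R z + w := by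
  refine ⟨(ℝ ∙ e)ᗮ.reflection, (2 * ⟪x0, e⟫) • e, fun z => ?_⟩
  rw [Submodule.reflection_orthogonal_apply, Submodule.reflection_singleton_apply]
  simp only [sig, he, inner_sub_left]
  rw [real_inner_comm z e]
  simp only [RCLike.ofReal_real_eq_id, id]
  module

theorem norm_sig_sub (x0 e : Eu n) (he : ‖e‖ = 1) (z : Eu n) : ‖sig x0 e z - x0‖ = ‖z - x0‖ := by
  have h : ‖sig x0 e z - x0‖ ^ 2 = ‖z - x0‖ ^ 2 := by
    have h1 : sig x0 e z - x0 = (z - x0) - (2 * ⟪z - x0, e⟫) • e := by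
      simp only [sig]; abel
    rw [h1, norm_sub_sq_real, inner_smul_right, norm_smul, he]
    simp only [Real.norm_eq_abs, mul_one, mul_pow, sq_abs]
    ring
  exact (pow_left_inj₀ (norm_nonneg _) (norm_nonneg _) (by norm_num)).1 h

/-- The half-ball comparison: one sided bound for the derivative in the direction `e`. -/
theorem half_ball_bound {u : Eu n → ℝ} (hC2 : ContDiffOn ℝ 2 u {0}ᶜ) {x0 e : Eu n} (he : ‖e‖ = 1)
    {d M N : ℝ} (hd : 0 < d) (hM : 0 < M) (hN : 0 ≤ N)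
    (hball : ∀ z ∈ Metric.closedBall x0 d, z ≠ 0)
    (hosc : ∀ z ∈ Metric.closedBall x0 d, u z - u (sig x0 e z) ≤ M)
    (hlap : ∀ z ∈ Metric.closedBall x0 d, |Δ u z| ≤ N) :
    2 * fderiv ℝ u x0 e ≤ 2 * (n + 1) * M / d + N * d := by
  obtain ⟨R, w, hRw⟩ := sig_eq x0 e he
  have hsigfun : sig x0 e = fun y => R y + w := funext hRw
  have hsigC : ContDiff ℝ 2 (sig x0 e) := by
    rw [hsigfun]
    exact R.contDiff.add contDiff_const
  have hsigball : ∀ z ∈ Metric.closedBall x0 d, sig x0 e z ∈ Metric.closedBall x0 d := by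
    intro z hz
    rw [mem_closedBall_iff_norm] at hz ⊢
    rw [norm_sig_sub x0 e he]
    exact hz
  have huAt : ∀ z ∈ Metric.closedBall x0 d, ContDiffAt ℝ 2 u z := fun z hz =>
    hC2.contDiffAt (isOpen_compl_singleton.mem_nhds (hball z hz))
  have huσAt : ∀ z ∈ Metric.closedBall x0 d, ContDiffAt ℝ 2 (fun y => u (sig x0 e y)) z := fun z hz =>
    (huAt _ (hsigball z hz)).comp z hsigC.contDiffAt
  -- the barrier
  set c : ℝ := 2 * (n + 1) * M / d + N * d with hc
  set γ : ℝ := (n + 1) * M / d ^ 2 + N with hγ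
  set α : ℝ := M / d ^ 2 with hα
  set ψ : Eu n → ℝ := fun z => α * ‖z - x0‖ ^ 2 + c * ⟪z - x0, e⟫ + (-γ) * ⟪z - x0, e⟫ ^ 2 with hψ
  have hψC : ContDiff ℝ 2 ψ := by
    have h1 : ContDiff ℝ 2 (fun z : Eu n => z - x0) := contDiff_id.sub contDiff_const
    have h2 : ContDiff ℝ 2 (fun z : Eu n => ⟪z - x0, e⟫) := h1.inner ℝ contDiff_const
    have h3 : ContDiff ℝ 2 (fun z : Eu n => ‖z - x0‖ ^ 2) := h1.norm_sq ℝ
    exact ((contDiff_const.mul h3).add (contDiff_const.mul h2)).add (contDiff_const.mul (h2.pow 2))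
  set f : Eu n → ℝ := ψ - (u - fun y => u (sig x0 e y)) with hf
  have hfAt : ∀ z ∈ Metric.closedBall x0 d, ContDiffAt ℝ 2 f z := fun z hz =>
    hψC.contDiffAt.sub ((huAt z hz).sub (huσAt z hz))
  have hlapf : ∀ z ∈ Metric.closedBall x0 d,
      Δ f z = (2 * n * α + 2 * (-γ)) - (Δ u z - Δ u (sig x0 e z)) := by
    intro z hz
    have h1 : Δ f z = Δ ψ z - Δ (u - fun y => u (sig x0 e y)) z :=
      ContDiffAt.laplacian_sub hψC.contDiffAt ((huAt z hz).sub (huσAt z hz))
    have h2 : Δ (u - fun y => u (sig x0 e y)) z = Δ u z - Δ (fun y => u (sig x0 e y)) z :=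
      ContDiffAt.laplacian_sub (huAt z hz) (huσAt z hz)
    have h3 : Δ (fun y => u (sig x0 e y)) z = Δ u (sig x0 e z) := by
      rw [hsigfun]
      exact lap_comp_isometry R w u z
    have h4 : Δ ψ z = 2 * n * α + 2 * (-γ) := lap_quad x0 e he α c (-γ) z
    rw [h1, h2, h3, h4]
  have hd2 : 0 < d ^ 2 := by positivity
  have hξc : Continuous (fun z : Eu n => ⟪z - x0, e⟫) := by fun_prop
  -- the comparison on the half ball
  have hmain : ∀ z ∈ Metric.closedBall x0 d ∩ {z | 0 ≤ ⟪z - x0, e⟫}, 0 ≤ f z := by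
    refine min_principle (U := Metric.ball x0 d ∩ {z | 0 < ⟪z - x0, e⟫})
      ((isCompact_closedBall x0 d).inter_right (isClosed_le continuous_const hξc))
      (Metric.isOpen_ball.inter (isOpen_lt continuous_const hξc))
      (fun z hz => ⟨Metric.ball_subset_closedBall hz.1, show 0 ≤ ⟪z - x0, e⟫ from le_of_lt hz.2⟩)
      (fun z hz => (hfAt z hz.1).continuousAt.continuousWithinAt)
      (fun z hz => (hfAt z (Metric.ball_subset_closedBall hz.1)).contDiffWithinAt)
      ?_ ?_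
    · rintro z ⟨hz1, hz2⟩ hzU
      have hz2' : 0 ≤ ⟪z - x0, e⟫ := hz2
      have hzn : ‖z - x0‖ ≤ d := mem_closedBall_iff_norm.1 hz1
      have hfz : f z = ψ z - (u z - u (sig x0 e z)) := rfl
      rcases hz2'.eq_or_lt with h0 | hpos
      · have hs : sig x0 e z = z := by simp [sig, ← h0]
        rw [hfz, hs]
        simp only [hψ, ← h0]
        have : 0 ≤ α := by positivity
        have h5 : 0 ≤ α * ‖z - x0‖ ^ 2 := by positivity
        simpa using h5
      · have hnorm : ‖z - x0‖ = d := by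
          by_contra hne
          exact hzU ⟨mem_ball_iff_norm.2 (lt_of_le_of_ne hzn hne), hpos⟩
        set t : ℝ := ⟪z - x0, e⟫ with ht
        have hte : t ≤ d := by
          have := real_inner_le_norm (z - x0) e
          rw [hnorm, he, mul_one] at this
          exact this
        have hψz : ψ z = M + (n + 1) * (M / d ^ 2) * (t * (2 * d - t)) + N * (t * (d - t)) := by
          simp only [hψ, hnorm, ← ht, hc, hγ, hα]
          field_simp
          ring
        have h6 : 0 ≤ (n + 1) * (M / d ^ 2) * (t * (2 * d - t)) := by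
          have : 0 ≤ 2 * d - t := by linarith
          positivity
        have h7 : 0 ≤ N * (t * (d - t)) := by
          have : 0 ≤ d - t := by linarith
          positivity
        have h8 := hosc z hz1
        rw [hfz, hψz]
        linarith
    · rintro z ⟨hz1, _⟩ _ _ hlapz
      have hz1' := Metric.ball_subset_closedBall hz1
      have h1 := hlapf z hz1'
      have h2 := abs_le.1 (hlap z hz1')
      have h3 := abs_le.1 (hlap _ (hsigball z hz1'))
      have h4 : 2 * (n : ℝ) * α + 2 * (-γ) = -(2 * α) - 2 * N := by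
        simp only [hγ, hα]
        field_simp
        ring
      have h5 : 0 < α := by positivity
      rw [h1, h4] at hlapz
      linarith [h2.1, h2.2, h3.1, h3.2]
  -- along the normal segment
  have hline : ∀ t : ℝ, 0 < t → t ≤ d →
      u (x0 + t • e) - u (x0 + (-t) • e) ≤ c * t + (α - γ) * t ^ 2 := by
    intro t ht htd
    have hz : x0 + t • e ∈ Metric.closedBall x0 d ∩ {z | 0 ≤ ⟪z - x0, e⟫} := by
      refine ⟨?_, ?_⟩
      · rw [mem_closedBall_iff_norm]
        simp [norm_smul, he, abs_of_pos ht, htd]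
      · show 0 ≤ ⟪x0 + t • e - x0, e⟫
        simp [inner_smul_left, he, ht.le]
    have h1 := hmain _ hz
    have h2 : ⟪x0 + t • e - x0, e⟫ = t := by
      simp [inner_smul_left, he]
    have h3 : sig x0 e (x0 + t • e) = x0 + (-t) • e := by
      simp only [sig, h2]
      module
    have h4 : ‖x0 + t • e - x0‖ = t := by
      simp [norm_smul, he, abs_of_pos ht]
    have h5 : f (x0 + t • e) = ψ (x0 + t • e) - (u (x0 + t • e) - u (sig x0 e (x0 + t • e))) := rfl
    rw [h5, h3] at h1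
    have h6 : ψ (x0 + t • e) = α * t ^ 2 + c * t + (-γ) * t ^ 2 := by
      simp only [hψ, h2, h4]
    rw [h6] at h1
    nlinarith
  -- the limit
  have hx0 : x0 ∈ Metric.closedBall x0 d := Metric.mem_closedBall_self hd.le
  have hdiff : DifferentiableAt ℝ u x0 := (huAt x0 hx0).differentiableAt (by norm_num)
  have hgd : HasDerivAt (fun t : ℝ => u (x0 + t • e) - u (x0 + (-t) • e))
      (2 * fderiv ℝ u x0 e) 0 := by
    have h1 : HasFDerivAt u (fderiv ℝ u x0) (x0 + (0 : ℝ) • e) := by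
      simpa using hdiff.hasFDerivAt
    have h1' : HasFDerivAt u (fderiv ℝ u x0) (x0 + (-(0 : ℝ)) • e) := by
      simpa using hdiff.hasFDerivAt
    have h2 : HasDerivAt (fun t : ℝ => x0 + t • e) e 0 := by
      simpa using ((hasDerivAt_id (0 : ℝ)).smul_const e).const_add x0
    have h3 : HasDerivAt (fun t : ℝ => x0 + (-t) • e) (-e) 0 := by
      simpa using ((hasDerivAt_id (0 : ℝ)).neg.smul_const e).const_add x0
    have h4 := h1.comp_hasDerivAt (0 : ℝ) h2
    have h5 := h1'.comp_hasDerivAt (0 : ℝ) h3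
    have h6 := h4.sub h5
    have h7 : fderiv ℝ u x0 e - fderiv ℝ u x0 (-e) = 2 * fderiv ℝ u x0 e := by
      simp only [map_neg]
      ring
    rw [h7] at h6
    exact h6
  have hlim := hgd.tendsto_slope_zero_right
  have hrhs : Filter.Tendsto (fun t : ℝ => c + (α - γ) * t) (𝓝[>] 0) (𝓝 c) := by
    have h : Filter.Tendsto (fun t : ℝ => c + (α - γ) * t) (𝓝 0) (𝓝 (c + (α - γ) * 0)) := by
      exact (continuous_const.add (continuous_const.mul continuous_id)).tendsto 0
    simpa using h.mono_left nhdsWithin_le_nhds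
  refine le_of_tendsto_of_tendsto hlim hrhs ?_
  have hmem : Set.Ioc (0 : ℝ) d ∈ 𝓝[>] (0 : ℝ) := Ioc_mem_nhdsGT hd
  filter_upwards [hmem] with t ht
  have h1 := hline t ht.1 ht.2
  simp only [zero_add, neg_zero, zero_smul, add_zero, sub_self, sub_zero, smul_eq_mul]
  rw [inv_mul_le_iff₀ ht.1]
  calc u (x0 + t • e) - u (x0 + (-t) • e) ≤ c * t + (α - γ) * t ^ 2 := h1
    _ = t * (c + (α - γ) * t) := by ring

/-- The bound for the radial derivative at `x0`. -/
theorem dr_le {u : Eu n → ℝ} (hC2 : ContDiffOn ℝ 2 u {0}ᶜ) {x0 : Eu n} (hx0 : x0 ≠ 0) {M N : ℝ}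
    (hM : 0 < M) (hN : 0 ≤ N)
    (hosc : ∀ z ∈ Metric.closedBall x0 (‖x0‖ / 2), ∀ z' ∈ Metric.closedBall x0 (‖x0‖ / 2),
      u z - u z' ≤ M)
    (hlap : ∀ z ∈ Metric.closedBall x0 (‖x0‖ / 2), |Δ u z| ≤ N) :
    Dr u x0 ≤ 2 * (n + 1) * M + N * (‖x0‖ / 2) ^ 2 := by
  have hnpos : 0 < ‖x0‖ := norm_pos_iff.2 hx0
  set d : ℝ := ‖x0‖ / 2 with hd
  have hdpos : 0 < d := by positivity
  set e : Eu n := ‖x0‖⁻¹ • x0 with he
  have heu : ‖e‖ = 1 := by
    rw [he, norm_smul, norm_inv, norm_norm, inv_mul_cancel₀ hnpos.ne']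
  have hball : ∀ z ∈ Metric.closedBall x0 d, z ≠ 0 := by
    intro z hz h0
    rw [mem_closedBall_iff_norm, h0, zero_sub, norm_neg] at hz
    linarith
  have hsigball : ∀ z ∈ Metric.closedBall x0 d, sig x0 e z ∈ Metric.closedBall x0 d := by
    intro z hz
    rw [mem_closedBall_iff_norm] at hz ⊢
    rw [norm_sig_sub x0 e heu]
    exact hz
  have h := half_ball_bound hC2 heu hdpos hM hN hball (fun z hz => hosc z hz _ (hsigball z hz)) hlap
  have h1 : Dr u x0 = ‖x0‖ * fderiv ℝ u x0 e := by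
    rw [he, map_smul, smul_eq_mul, ← mul_assoc, mul_inv_cancel₀ hnpos.ne', one_mul]
    rfl
  have h2 : ‖x0‖ = 2 * d := by rw [hd]; ring
  rw [h1, h2]
  have h3 : 2 * d * fderiv ℝ u x0 e = d * (2 * fderiv ℝ u x0 e) := by ring
  rw [h3]
  calc d * (2 * fderiv ℝ u x0 e) ≤ d * (2 * (n + 1) * M / d + N * d) :=
        mul_le_mul_of_nonneg_left h hdpos.le
    _ = 2 * (n + 1) * M + N * d ^ 2 := by
        field_simp

/-- Comparison of real powers on `[d, 3d]`. -/
theorem rpow_le_three {y d A : ℝ} (hd : 0 < d) (h1 : d ≤ y) (h2 : y ≤ 3 * d) :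
    y ^ A ≤ 3 ^ |A| * d ^ A := by
  have hy : 0 < y := lt_of_lt_of_le hd h1
  have hq1 : 1 ≤ y / d := (one_le_div hd).2 h1
  have hq3 : y / d ≤ 3 := (div_le_iff₀ hd).2 h2
  have h3 : y = (y / d) * d := by field_simp
  have h4 : y ^ A = (y / d) ^ A * d ^ A := by
    conv_lhs => rw [h3]
    exact Real.mul_rpow (by positivity) hd.le
  rw [h4]
  refine mul_le_mul_of_nonneg_right ?_ (by positivity)
  calc (y / d) ^ A ≤ (y / d) ^ |A| := Real.rpow_le_rpow_of_exponent_le hq1 (le_abs_self A)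
    _ ≤ 3 ^ |A| := Real.rpow_le_rpow (by positivity) hq3 (abs_nonneg A)

/-- **Module Grad.** The radial derivative tends to zero at the origin. -/
theorem grad_small {u : Eu n → ℝ} {A C : ℝ} (hn : 3 ≤ n) (hcont : Continuous u)
    (hC2 : ContDiffOn ℝ 2 u {0}ᶜ) (hA : -2 < A) (hC : 0 ≤ C)
    (hbd : ∀ x : Eu n, x ≠ 0 → ‖x‖ ≤ 1 → |Δ u x| ≤ C * ‖x‖ ^ A) :
    ∀ ε : ℝ, 0 < ε → ∃ r : ℝ, 0 < r ∧ ∀ x : Eu n, x ≠ 0 → ‖x‖ ≤ r → |Dr u x| ≤ ε := by
  intro ε hε
  have hn1 : (0 : ℝ) < (n : ℝ) + 1 := by positivity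
  set ω : ℝ := ε / (8 * ((n : ℝ) + 1)) with hω
  have hωpos : 0 < ω := by positivity
  obtain ⟨δ, hδ, hδu⟩ := Metric.continuousAt_iff.1 (hcont.continuousAt (x := (0 : Eu n))) ω hωpos
  have hA2 : 0 < A + 2 := by linarith
  set K : ℝ := C * 3 ^ |A| + 1 with hK
  have hKpos : 0 < K := by positivity
  set r1 : ℝ := (ε / (2 * K)) ^ (1 / (A + 2)) with hr1
  have hr1pos : 0 < r1 := by positivity
  have hr1p : r1 ^ (A + 2) = ε / (2 * K) := by
    rw [hr1, ← Real.rpow_mul (by positivity), one_div, inv_mul_cancel₀ hA2.ne', Real.rpow_one]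
  refine ⟨min (min r1 (δ / 2)) (1 / 2), by positivity, ?_⟩
  intro x hx hxr
  have hx1 : ‖x‖ ≤ r1 := le_trans hxr (le_trans (min_le_left _ _) (min_le_left _ _))
  have hx2 : ‖x‖ ≤ δ / 2 := le_trans hxr (le_trans (min_le_left _ _) (min_le_right _ _))
  have hx3 : ‖x‖ ≤ 1 / 2 := le_trans hxr (min_le_right _ _)
  have hnpos : 0 < ‖x‖ := norm_pos_iff.2 hx
  set d : ℝ := ‖x‖ / 2 with hd
  have hdpos : 0 < d := by positivity
  have hnormz : ∀ z ∈ Metric.closedBall x d, d ≤ ‖z‖ ∧ ‖z‖ ≤ 3 * d := by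
    intro z hz
    rw [mem_closedBall_iff_norm] at hz
    have h1 : ‖z‖ ≤ ‖z - x‖ + ‖x‖ := by
      simpa using norm_add_le (z - x) x
    have h2 : ‖x‖ ≤ ‖z‖ + ‖z - x‖ := by
      have := norm_sub_le z (z - x)
      simpa using this
    constructor <;> linarith
  have hzu : ∀ z ∈ Metric.closedBall x d, |u z - u 0| < ω := by
    intro z hz
    have h1 := (hnormz z hz).2
    have h2 : dist z 0 < δ := by
      rw [dist_zero_right]
      linarith
    have h3 := hδu h2
    rwa [Real.dist_eq] at h3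
  set N : ℝ := C * (3 ^ |A| * d ^ A) with hN
  have hN0 : 0 ≤ N := by positivity
  have hlap : ∀ z ∈ Metric.closedBall x d, |Δ u z| ≤ N := by
    intro z hz
    obtain ⟨h1, h2⟩ := hnormz z hz
    have hz0 : z ≠ 0 := by
      intro h0
      rw [h0, norm_zero] at h1
      linarith
    have h3 : ‖z‖ ≤ 1 := by linarith
    refine le_trans (hbd z hz0 h3) ?_
    exact mul_le_mul_of_nonneg_left (rpow_le_three hdpos h1 h2) hC
  have hM : 0 < 2 * ω := by positivity
  have hNd : N * d ^ 2 ≤ ε / 2 := by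
    have h1 : N * d ^ 2 = C * 3 ^ |A| * d ^ (A + 2) := by
      rw [Real.rpow_add hdpos, hN]
      norm_num
      ring
    have h2 : d ^ (A + 2) ≤ r1 ^ (A + 2) :=
      Real.rpow_le_rpow hdpos.le (by linarith) hA2.le
    have h3 : 0 ≤ d ^ (A + 2) := by positivity
    rw [h1]
    calc C * 3 ^ |A| * d ^ (A + 2) ≤ K * d ^ (A + 2) :=
          mul_le_mul_of_nonneg_right (by linarith) h3
      _ ≤ K * r1 ^ (A + 2) := mul_le_mul_of_nonneg_left h2 hKpos.le
      _ = ε / 2 := by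
          rw [hr1p]
          field_simp
  have hMterm : 2 * ((n : ℝ) + 1) * (2 * ω) = ε / 2 := by
    rw [hω]
    field_simp
    ring
  have hup : Dr u x ≤ ε := by
    have h := dr_le hC2 hx hM hN0
      (fun z hz z' hz' => by
        have h1 := abs_lt.1 (hzu z hz)
        have h2 := abs_lt.1 (hzu z' hz')
        linarith [h1.2, h2.1]) hlap
    rw [← hd] at h
    linarith
  have hdown : - Dr u x ≤ ε := by
    have h := dr_le (u := -u) hC2.neg hx hM hN0
      (fun z hz z' hz' => by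
        have h1 := abs_lt.1 (hzu z hz)
        have h2 := abs_lt.1 (hzu z' hz')
        simp only [Pi.neg_apply]
        linarith [h1.1, h2.2])
      (fun z hz => by
        have h1 := hlap z hz
        rw [laplacian_neg]
        simpa using h1)
    have h2 : Dr (-u) x = - Dr u x := by
      simp only [Dr]
      rw [fderiv_neg]
      simp
    rw [h2, ← hd] at h
    linarith
  exact abs_le.2 ⟨by linarith, hup⟩

end Vale.Agent.Lib.P100.MP
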