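import Vale.Agent.Lib.P100.MP.Calc

/-!
# P100 moving planes, module IterA: exterior lower bounds by barriers.

Annulus comparison (`cmp3`) from `min_principle`, then `base_lb` and `lb_of_source`.
-/

open InnerProductSpace Laplacian Filter Topology

noncomputable section

namespace Vale.Agent.Lib.P100.MP

variable {n : ℕ}

namespace IterAAux

lemma contDiffAt_normpow (e : ℝ) {x : Eu n} (hx : x ≠ 0) :
    ContDiffAt ℝ 2 (fun z : Eu n => ‖z‖ ^ e) x :=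
  (contDiffAt_norm ℝ hx).rpow_const_of_ne (norm_ne_zero_iff.mpr hx)

lemma lap_normpow (e : ℝ) {x : Eu n} (hx : x ≠ 0) :
    Δ (fun z : Eu n => ‖z‖ ^ e) x = e * (e + (n : ℝ) - 2) * ‖x‖ ^ (e - 2) := by
  have h := lap_norm_rpow (n := n) e hx
  have hp : 0 < ‖x‖ := norm_pos_iff.mpr hx
  have h2 : ‖x‖ ^ e = ‖x‖ ^ 2 * ‖x‖ ^ (e - 2) := by
    rw [Real.rpow_sub hp]
    have : ‖x‖ ^ (2 : ℝ) = ‖x‖ ^ 2 := by norm_cast
    rw [this]
    field_simp
  rw [h2] at h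
  have hne : ‖x‖ ^ 2 ≠ 0 := by positivity
  have h3 : ‖x‖ ^ 2 * Δ (fun z : Eu n => ‖z‖ ^ e) x
      = ‖x‖ ^ 2 * (e * (e + (n : ℝ) - 2) * ‖x‖ ^ (e - 2)) := by
    rw [h]; ring
  exact mul_left_cancel₀ hne h3

/-- The combination used in all the comparisons. -/
def comb (u : Eu n → ℝ) (a b k e1 e2 : ℝ) (z : Eu n) : ℝ :=
  u z + a * ‖z‖ ^ e1 + b * ‖z‖ ^ e2 + k

lemma comb_eq (u : Eu n → ℝ) (a b k e1 e2 : ℝ) :
    comb u a b k e1 e2 = u + (a • (fun z : Eu n => ‖z‖ ^ e1)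
      + (b • (fun z : Eu n => ‖z‖ ^ e2) + fun _ => k)) := by
  funext z
  simp only [comb, Pi.add_apply, Pi.smul_apply, smul_eq_mul]
  ring

lemma contDiffAt_comb {u : Eu n → ℝ} (a b k e1 e2 : ℝ) {x : Eu n} (hx : x ≠ 0)
    (hu : ContDiffAt ℝ 2 u x) : ContDiffAt ℝ 2 (comb u a b k e1 e2) x := by
  unfold comb
  exact ((hu.add (contDiffAt_const.mul (contDiffAt_normpow e1 hx))).add
    (contDiffAt_const.mul (contDiffAt_normpow e2 hx))).add contDiffAt_const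

lemma lap_comb {u : Eu n → ℝ} (a b k e1 e2 : ℝ) {x : Eu n} (hx : x ≠ 0)
    (hu : ContDiffAt ℝ 2 u x) :
    Δ (comb u a b k e1 e2) x = Δ u x + a * (e1 * (e1 + (n : ℝ) - 2) * ‖x‖ ^ (e1 - 2))
      + b * (e2 * (e2 + (n : ℝ) - 2) * ‖x‖ ^ (e2 - 2)) := by
  have h1 := contDiffAt_normpow (n := n) e1 hx
  have h2 := contDiffAt_normpow (n := n) e2 hx
  have hs1 : ContDiffAt ℝ 2 (a • (fun z : Eu n => ‖z‖ ^ e1)) x := h1.const_smul a
  have hs2 : ContDiffAt ℝ 2 (b • (fun z : Eu n => ‖z‖ ^ e2)) x := h2.const_smul b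
  have hk : ContDiffAt ℝ 2 (fun _ : Eu n => k) x := contDiffAt_const
  have ha2 : ContDiffAt ℝ 2 ((b • (fun z : Eu n => ‖z‖ ^ e2)) + fun _ : Eu n => k) x := hs2.add hk
  have ha1 : ContDiffAt ℝ 2 ((a • (fun z : Eu n => ‖z‖ ^ e1))
      + ((b • (fun z : Eu n => ‖z‖ ^ e2)) + fun _ : Eu n => k)) x := hs1.add ha2
  rw [comb_eq, hu.laplacian_add ha1, hs1.laplacian_add ha2,
    hs2.laplacian_add hk, laplacian_smul a h1, laplacian_smul b h2, lap_normpow e1 hx,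
    lap_normpow e2 hx]
  have : Δ (fun _ : Eu n => k) x = 0 := by
    have := congrFun (laplacian_const (E := Eu n) (c := k)) x
    simpa using this
  rw [this]
  simp only [smul_eq_mul]
  ring

/-- Annulus comparison. -/
theorem annulus_cmp (hn : 3 ≤ n) {g : Eu n → ℝ} {ρ : ℝ} (hρ : 1 < ρ)
    (hC2 : ∀ x : Eu n, x ≠ 0 → ContDiffAt ℝ 2 g x)
    (hΔ : ∀ x : Eu n, 1 < ‖x‖ → ‖x‖ < ρ → Δ g x ≤ 0)
    (h1 : ∀ x : Eu n, ‖x‖ = 1 → 0 ≤ g x) (h2 : ∀ x : Eu n, ‖x‖ = ρ → 0 ≤ g x) :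
    ∀ x : Eu n, 1 ≤ ‖x‖ → ‖x‖ ≤ ρ → 0 ≤ g x := by
  have hne : ∀ x : Eu n, 1 ≤ ‖x‖ → x ≠ 0 := by
    intro x hx h0
    rw [h0, norm_zero] at hx
    linarith
  have hnpos : (0 : ℝ) < (n : ℝ) := by
    have : (3 : ℝ) ≤ (n : ℝ) := by exact_mod_cast hn
    linarith
  have key : ∀ η : ℝ, 0 < η → ∀ x : Eu n, 1 ≤ ‖x‖ → ‖x‖ ≤ ρ →
      0 ≤ g x + η * (ρ ^ 2 - ‖x‖ ^ (2 : ℝ)) := by
    intro η hη
    set f : Eu n → ℝ := comb g (-η) 0 (η * ρ ^ 2) 2 0 with hf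
    have hfval : ∀ x : Eu n, f x = g x + η * (ρ ^ 2 - ‖x‖ ^ (2 : ℝ)) := by
      intro x
      simp only [hf, comb]
      ring
    set K : Set (Eu n) := Metric.closedBall 0 ρ \ Metric.ball 0 1 with hK
    set U : Set (Eu n) := Metric.ball 0 ρ ∩ (Metric.closedBall 0 1)ᶜ with hU
    have hKc : IsCompact K := (isCompact_closedBall 0 ρ).diff Metric.isOpen_ball
    have hUo : IsOpen U := Metric.isOpen_ball.inter Metric.isClosed_closedBall.isOpen_compl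
    have hmemK : ∀ x : Eu n, x ∈ K ↔ 1 ≤ ‖x‖ ∧ ‖x‖ ≤ ρ := by
      intro x
      simp only [hK, Set.mem_sdiff, Metric.mem_closedBall, Metric.mem_ball, dist_zero_right,
        not_lt]
      tauto
    have hmemU : ∀ x : Eu n, x ∈ U ↔ ‖x‖ < ρ ∧ 1 < ‖x‖ := by
      intro x
      simp only [hU, Set.mem_inter_iff, Metric.mem_ball, Set.mem_compl_iff,
        Metric.mem_closedBall, dist_zero_right, not_le]
    have hUK : U ⊆ K := by
      intro x hx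
      rw [hmemU] at hx
      rw [hmemK]
      exact ⟨hx.2.le, hx.1.le⟩
    have hfC : ∀ x : Eu n, x ≠ 0 → ContDiffAt ℝ 2 f x := fun x hx =>
      contDiffAt_comb _ _ _ _ _ hx (hC2 x hx)
    have hfc : ContinuousOn f K := by
      intro x hx
      rw [hmemK] at hx
      exact (hfC x (hne x hx.1)).continuousAt.continuousWithinAt
    have hfU : ContDiffOn ℝ 2 f U := by
      intro x hx
      rw [hmemU] at hx
      exact (hfC x (hne x hx.2.le)).contDiffWithinAt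
    have hbd : ∀ x ∈ K, x ∉ U → 0 ≤ f x := by
      intro x hx hxU
      rw [hmemK] at hx
      rw [hmemU] at hxU
      rw [hfval]
      have hsq : ‖x‖ ^ (2 : ℝ) ≤ ρ ^ 2 := by
        have : ‖x‖ ^ (2 : ℝ) = ‖x‖ ^ 2 := by norm_cast
        rw [this]
        exact pow_le_pow_left₀ (norm_nonneg x) hx.2 2
      have hη' : 0 ≤ η * (ρ ^ 2 - ‖x‖ ^ (2 : ℝ)) := mul_nonneg hη.le (by linarith)
      by_cases hx1 : ‖x‖ = 1
      · have := h1 x hx1
        linarith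
      · have hx2 : ‖x‖ = ρ := by
          by_contra hx2
          apply hxU
          exact ⟨lt_of_le_of_ne hx.2 hx2, lt_of_le_of_ne hx.1 (Ne.symm hx1)⟩
        have := h2 x hx2
        linarith
    have hno : ∀ x ∈ U, f x < 0 → fderiv ℝ f x = 0 → 0 ≤ Δ f x → False := by
      intro x hx _ _ hlap
      rw [hmemU] at hx
      have hx0 : x ≠ 0 := hne x hx.2.le
      have hl := lap_comb (u := g) (-η) 0 (η * ρ ^ 2) 2 0 hx0 (hC2 x hx0)
      rw [hl] at hlap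
      have hzero : ‖x‖ ^ ((2 : ℝ) - 2) = 1 := by norm_num
      rw [hzero] at hlap
      have hg := hΔ x hx.2 hx.1
      nlinarith
    have := min_principle hKc hUo hUK hfc hfU hbd hno
    intro x hx1 hx2
    have h3 := this x ((hmemK x).2 ⟨hx1, hx2⟩)
    rwa [hfval] at h3
  intro x hx1 hx2
  by_contra hneg
  rw [not_le] at hneg
  have hA : 0 ≤ ρ ^ 2 - ‖x‖ ^ (2 : ℝ) := by
    have : ‖x‖ ^ (2 : ℝ) = ‖x‖ ^ 2 := by norm_cast
    rw [this]
    have := pow_le_pow_left₀ (norm_nonneg x) hx2 2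
    linarith
  set A := ρ ^ 2 - ‖x‖ ^ (2 : ℝ) with hAdef
  have hgx : 0 < - g x := by linarith
  have := key (- g x / (2 * (A + 1))) (by positivity) x hx1 hx2
  have hle : - g x / (2 * (A + 1)) * A ≤ - g x / 2 := by
    have hA1 : 0 < A + 1 := by linarith
    rw [div_mul_eq_mul_div, div_le_div_iff₀ (by positivity) (by norm_num)]
    nlinarith
  linarith

/-- Comparison for the combination. -/
theorem cmp3 (hn : 3 ≤ n) {u : Eu n → ℝ} {ρ : ℝ} (hρ : 1 < ρ)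
    (hC2 : ∀ x : Eu n, x ≠ 0 → ContDiffAt ℝ 2 u x) (a b k e1 e2 : ℝ)
    (hΔ : ∀ x : Eu n, 1 < ‖x‖ → ‖x‖ < ρ →
      Δ u x + a * (e1 * (e1 + (n : ℝ) - 2) * ‖x‖ ^ (e1 - 2))
        + b * (e2 * (e2 + (n : ℝ) - 2) * ‖x‖ ^ (e2 - 2)) ≤ 0)
    (h1 : ∀ x : Eu n, ‖x‖ = 1 → 0 ≤ u x + a + b + k)
    (h2 : ∀ x : Eu n, ‖x‖ = ρ → 0 ≤ u x + a * ρ ^ e1 + b * ρ ^ e2 + k) :
    ∀ x : Eu n, 1 ≤ ‖x‖ → ‖x‖ ≤ ρ → 0 ≤ u x + a * ‖x‖ ^ e1 + b * ‖x‖ ^ e2 + k := by
  have hne : ∀ x : Eu n, 1 < ‖x‖ → x ≠ 0 := by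
    intro x hx h0
    rw [h0, norm_zero] at hx
    linarith
  have := annulus_cmp hn (g := comb u a b k e1 e2) hρ
    (fun x hx => contDiffAt_comb _ _ _ _ _ hx (hC2 x hx))
    (fun x hx1 hx2 => by
      rw [lap_comb a b k e1 e2 (hne x hx1) (hC2 x (hne x hx1))]
      exact hΔ x hx1 hx2)
    (fun x hx => by
      simp only [comb, hx, Real.one_rpow, mul_one]
      exact h1 x hx)
    (fun x hx => by
      simp only [comb, hx]
      exact h2 x hx)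
  intro x hx1 hx2
  exact this x hx1 hx2

/-- Lower bound on the unit sphere. -/
lemma exists_sphere_lb (hn : 3 ≤ n) {u : Eu n → ℝ} (hcont : Continuous u) (hpos : ∀ x, 0 < u x) :
    ∃ c : ℝ, 0 < c ∧ ∀ x : Eu n, ‖x‖ = 1 → c ≤ u x := by
  have hne : (Metric.sphere (0 : Eu n) 1).Nonempty := by
    refine ⟨ee (⟨0, by omega⟩ : Fin n), ?_⟩
    simp [ee]
  obtain ⟨x0, hx0, hmin⟩ := (isCompact_sphere (0 : Eu n) 1).exists_isMinOn hne hcont.continuousOn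
  refine ⟨u x0, hpos x0, fun x hx => ?_⟩
  apply hmin
  simpa using hx

/-- Exterior comparison with `‖x‖^(-e)`. -/
theorem ext_lb (hn : 3 ≤ n) {u : Eu n → ℝ} {c' e : ℝ} (he : 0 < e) (hc' : 0 < c')
    (hC2 : ∀ x : Eu n, x ≠ 0 → ContDiffAt ℝ 2 u x) (hpos : ∀ x, 0 < u x)
    (h1 : ∀ x : Eu n, ‖x‖ = 1 → c' ≤ u x)
    (hΔ : ∀ x : Eu n, 1 < ‖x‖ →
      Δ u x + c' * (e * ((n : ℝ) - 2 - e)) * ‖x‖ ^ (-e - 2) ≤ 0) :
    ∀ x : Eu n, 1 ≤ ‖x‖ → c' * ‖x‖ ^ (-e) ≤ u x := by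
  intro x hx
  have hstep : ∀ ρ : ℝ, max 1 ‖x‖ < ρ → 0 ≤ u x - c' * ‖x‖ ^ (-e) + c' * ρ ^ (-e) := by
    intro ρ hρ
    have hρ1 : 1 < ρ := lt_of_le_of_lt (le_max_left _ _) hρ
    have hρx : ‖x‖ ≤ ρ := (lt_of_le_of_lt (le_max_right _ _) hρ).le
    have hρ0 : 0 < ρ := by linarith
    have := cmp3 hn (u := u) hρ1 hC2 (-c') 0 (c' * ρ ^ (-e)) (-e) 0
      (fun y hy1 _ => by
        have := hΔ y hy1
        have h3 : (-e - 2) = -e - 2 := rfl
        nlinarith [this])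
      (fun y hy => by
        have h4 := h1 y hy
        have h5 : 0 < ρ ^ (-e) := Real.rpow_pos_of_pos hρ0 _
        have h6 : 0 < c' * ρ ^ (-e) := mul_pos hc' h5
        linarith)
      (fun y _ => by
        have h4 := hpos y
        linarith)
      x hx hρx
    linarith
  have hlim : Tendsto (fun ρ : ℝ => u x - c' * ‖x‖ ^ (-e) + c' * ρ ^ (-e)) atTop
      (𝓝 (u x - c' * ‖x‖ ^ (-e) + c' * 0)) :=
    tendsto_const_nhds.add ((tendsto_rpow_neg_atTop he).const_mul c')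
  have := ge_of_tendsto hlim ((eventually_gt_atTop (max 1 ‖x‖)).mono hstep)
  linarith

/-- The logarithmic comparison for (i). -/
theorem log_cmp (hn : 3 ≤ n) {u : Eu n → ℝ} {c δ : ℝ} (hδ : 0 < δ) (hδ2 : δ < (n : ℝ) - 2)
    (hc : 0 < c)
    (hC2 : ∀ x : Eu n, x ≠ 0 → ContDiffAt ℝ 2 u x) (hpos : ∀ x, 0 < u x)
    (hΔ : ∀ x : Eu n, 1 ≤ ‖x‖ → c * ‖x‖ ^ ((-2 : ℝ)) ≤ - Δ u x) :
    ∀ x : Eu n, 1 ≤ ‖x‖ →
      c / (δ * ((n : ℝ) - 2 - δ)) * (‖x‖ ^ (-δ) - ‖x‖ ^ ((2 : ℝ) - n)) ≤ u x := by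
  intro x hx
  set N : ℝ := (n : ℝ) - 2 - δ with hN
  have hNpos : 0 < N := by rw [hN]; linarith
  set A : ℝ := c / (δ * N) with hA
  have hApos : 0 < A := by rw [hA]; positivity
  have hAeq : A * (δ * N) = c := by
    rw [hA]; field_simp
  have hstep : ∀ ρ : ℝ, max 1 ‖x‖ < ρ →
      0 ≤ u x + A * (1 - ρ ^ (-δ)) * ‖x‖ ^ ((2 : ℝ) - n) - A * ‖x‖ ^ (-δ) + A * ρ ^ (-δ) := by
    intro ρ hρ
    have hρ1 : 1 < ρ := lt_of_le_of_lt (le_max_left _ _) hρ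
    have hρx : ‖x‖ ≤ ρ := (lt_of_le_of_lt (le_max_right _ _) hρ).le
    have hρ0 : 0 < ρ := by linarith
    have hρδ : ρ ^ (-δ) ≤ 1 := Real.rpow_le_one_of_one_le_of_nonpos hρ1.le (by linarith)
    have hρδ0 : 0 < ρ ^ (-δ) := Real.rpow_pos_of_pos hρ0 _
    have := cmp3 hn (u := u) hρ1 hC2 (A * (1 - ρ ^ (-δ))) (-A) (A * ρ ^ (-δ)) ((2 : ℝ) - n) (-δ)
      (fun y hy1 _ => by
        have h1 := hΔ y hy1.le
        have hy0 : 0 < ‖y‖ := by linarith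
        have hzero : ((2 : ℝ) - n) * (((2 : ℝ) - n) + (n : ℝ) - 2) = 0 := by ring
        rw [hzero]
        have h2 : ‖y‖ ^ (-δ - 2) ≤ ‖y‖ ^ ((-2 : ℝ)) :=
          Real.rpow_le_rpow_of_exponent_le hy1.le (by linarith)
        have h3 : -A * (-δ * (-δ + (n : ℝ) - 2) * ‖y‖ ^ (-δ - 2)) = c * ‖y‖ ^ (-δ - 2) := by
          rw [← hAeq, hN]
          ring
        rw [h3]
        have h4 := mul_le_mul_of_nonneg_left h2 hc.le
        linarith)
      (fun y hy => by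
        have h4 := hpos y
        nlinarith [h4])
      (fun y _ => by
        have h4 := hpos y
        have h5 : 0 ≤ A * (1 - ρ ^ (-δ)) * ρ ^ ((2 : ℝ) - n) :=
          mul_nonneg (mul_nonneg hApos.le (by linarith)) (Real.rpow_pos_of_pos hρ0 _).le
        nlinarith [h4, h5])
      x hx hρx
    linarith
  have hlim : Tendsto (fun ρ : ℝ =>
      u x + A * (1 - ρ ^ (-δ)) * ‖x‖ ^ ((2 : ℝ) - n) - A * ‖x‖ ^ (-δ) + A * ρ ^ (-δ)) atTop
      (𝓝 (u x + A * (1 - 0) * ‖x‖ ^ ((2 : ℝ) - n) - A * ‖x‖ ^ (-δ) + A * 0)) :=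
    (((tendsto_const_nhds.add (((tendsto_const_nhds.sub (tendsto_rpow_neg_atTop hδ)).const_mul
      A).mul_const _))).sub_const _).add ((tendsto_rpow_neg_atTop hδ).const_mul A)
  have := ge_of_tendsto hlim ((eventually_gt_atTop (max 1 ‖x‖)).mono hstep)
  have h7 : A * (‖x‖ ^ (-δ) - ‖x‖ ^ ((2 : ℝ) - n)) ≤ u x := by
    linarith
  exact h7

end IterAAux

open IterAAux

/-- The exterior lower bound of a positive superharmonic function. -/
theorem base_lb {u : Eu n → ℝ} (hn : 3 ≤ n) (hcont : Continuous u) (hpos : ∀ x, 0 < u x)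
    (hC2 : ContDiffOn ℝ 2 u {0}ᶜ) (hsup : ∀ x : Eu n, x ≠ 0 → Δ u x ≤ 0) :
    LB u ((n : ℝ) - 2) := by
  obtain ⟨c, hc, hc1⟩ := exists_sphere_lb hn hcont hpos
  have hC : ∀ x : Eu n, x ≠ 0 → ContDiffAt ℝ 2 u x := fun x hx =>
    hC2.contDiffAt (isOpen_compl_singleton.mem_nhds hx)
  have hn3 : (3 : ℝ) ≤ (n : ℝ) := by exact_mod_cast hn
  refine ⟨c, hc, ext_lb hn (by linarith) hc hC hpos hc1 fun x hx => ?_⟩
  have hx0 : x ≠ 0 := by
    intro h0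
    rw [h0, norm_zero] at hx
    linarith
  have := hsup x hx0
  have hz : (n : ℝ) - 2 - ((n : ℝ) - 2) = 0 := by ring
  rw [hz]
  simpa using this

/-- A lower bound for the source gives a lower bound for the solution, or a contradiction. -/
theorem lb_of_source {u : Eu n → ℝ} {c e : ℝ} (hn : 3 ≤ n) (hcont : Continuous u)
    (hpos : ∀ x, 0 < u x) (hC2 : ContDiffOn ℝ 2 u {0}ᶜ) (hc : 0 < c)
    (hsup : ∀ x : Eu n, x ≠ 0 → Δ u x ≤ 0)
    (h : ∀ x : Eu n, 1 ≤ ‖x‖ → c * ‖x‖ ^ (-e - 2) ≤ - Δ u x) :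
    (e ≤ 0 → False) ∧ (0 < e → e < (n : ℝ) - 2 → LB u e) := by
  have hC : ∀ x : Eu n, x ≠ 0 → ContDiffAt ℝ 2 u x := fun x hx =>
    hC2.contDiffAt (isOpen_compl_singleton.mem_nhds hx)
  have hn3 : (3 : ℝ) ≤ (n : ℝ) := by exact_mod_cast hn
  constructor
  · intro he
    have hΔ : ∀ x : Eu n, 1 ≤ ‖x‖ → c * ‖x‖ ^ ((-2 : ℝ)) ≤ - Δ u x := by
      intro x hx
      have h1 := h x hx
      have h2 : ‖x‖ ^ ((-2 : ℝ)) ≤ ‖x‖ ^ (-e - 2) :=
        Real.rpow_le_rpow_of_exponent_le hx (by linarith)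
      have h3 := mul_le_mul_of_nonneg_left h2 hc.le
      linarith
    -- the test point
    set x0 : Eu n := (2 : ℝ) • ee (⟨0, by omega⟩ : Fin n) with hx0
    have hx0n : ‖x0‖ = 2 := by
      rw [hx0, norm_smul]
      simp [ee]
    set U : ℝ := u x0 with hU
    have hUpos : 0 < U := hpos x0
    set N : ℝ := (n : ℝ) - 2 with hN
    have hN1 : 1 ≤ N := by rw [hN]; linarith
    set δ : ℝ := min (1 / 4) (c / (8 * N * U)) with hδ
    have hδpos : 0 < δ := lt_min (by norm_num) (by positivity)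
    have hδ1 : δ ≤ 1 / 4 := min_le_left _ _
    have hδ2 : δ ≤ c / (8 * N * U) := min_le_right _ _
    have hδlt : δ < N := by linarith
    have hcmp := log_cmp hn (c := c) (δ := δ) hδpos (by rw [← hN]; exact hδlt) hc hC hpos hΔ x0
      (by rw [hx0n]; norm_num)
    rw [hx0n] at hcmp
    -- bounds on the bracket
    have h2d : 1 - δ ≤ (2 : ℝ) ^ (-δ) := by
      have h1 : (2 : ℝ) ^ (-δ) = Real.exp (Real.log 2 * (-δ)) := by
        rw [Real.rpow_def_of_pos (by norm_num)]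
      rw [h1]
      have h2 := Real.add_one_le_exp (Real.log 2 * (-δ))
      have h3 : Real.log 2 ≤ 1 := by
        have := Real.log_two_lt_d9
        linarith
      have h4 : 0 < Real.log 2 := Real.log_pos (by norm_num)
      nlinarith
    have h2n : (2 : ℝ) ^ ((2 : ℝ) - n) ≤ 1 / 2 := by
      have h1 : (2 : ℝ) ^ ((2 : ℝ) - n) ≤ (2 : ℝ) ^ ((-1 : ℝ)) :=
        Real.rpow_le_rpow_of_exponent_le (by norm_num) (by linarith)
      have h2 : (2 : ℝ) ^ ((-1 : ℝ)) = 1 / 2 := by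
        rw [Real.rpow_neg_one]; norm_num
      exact h1.trans h2.le
    have hbr : 1 / 4 ≤ (2 : ℝ) ^ (-δ) - (2 : ℝ) ^ ((2 : ℝ) - n) := by linarith
    have hNd : 0 < N - δ := by linarith
    have hA : 0 < c / (δ * (N - δ)) := by positivity
    have h5 : c / (δ * (N - δ)) * (1 / 4) ≤ U :=
      le_trans (mul_le_mul_of_nonneg_left hbr hA.le) hcmp
    have h6 : c ≤ 4 * U * (δ * (N - δ)) := by
      have h7 : c / (δ * (N - δ)) ≤ 4 * U := by linarith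
      rw [div_le_iff₀ (by positivity)] at h7
      linarith
    have h8 : 8 * N * U * δ ≤ c := by
      rw [le_div_iff₀ (by positivity)] at hδ2
      linarith
    have h9 : 4 * U * (δ * (N - δ)) ≤ 4 * U * (δ * N) := by
      apply mul_le_mul_of_nonneg_left _ (by positivity)
      apply mul_le_mul_of_nonneg_left _ hδpos.le
      linarith
    nlinarith [mul_pos (mul_pos hUpos hδpos) (by linarith : 0 < N)]
  · intro he he2
    obtain ⟨c0, hc0, hc01⟩ := exists_sphere_lb hn hcont hpos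
    have hm : 0 < e * ((n : ℝ) - 2 - e) := mul_pos he (by linarith)
    refine ⟨min (c / (e * ((n : ℝ) - 2 - e))) c0, lt_min (by positivity) hc0,
      ext_lb hn he (lt_min (by positivity) hc0) hC hpos
        (fun x hx => le_trans (min_le_right _ _) (hc01 x hx)) fun x hx => ?_⟩
    have h1 := h x hx.le
    have h2 : min (c / (e * ((n : ℝ) - 2 - e))) c0 * (e * ((n : ℝ) - 2 - e)) ≤ c := by
      have h3 := min_le_left (c / (e * ((n : ℝ) - 2 - e))) c0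
      calc _ ≤ c / (e * ((n : ℝ) - 2 - e)) * (e * ((n : ℝ) - 2 - e)) :=
            mul_le_mul_of_nonneg_right h3 hm.le
        _ = c := div_mul_cancel₀ c hm.ne'
    have h4 : 0 ≤ ‖x‖ ^ (-e - 2) := by positivity
    have h5 := mul_le_mul_of_nonneg_right h2 h4
    linarith

end Vale.Agent.Lib.P100.MP
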