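import Vale.Agent.Lib.P100.MP.Step

/-!
# P100 moving planes, module Loop: the continuation argument.

Paper proof. `Mono F l` is antitone in `l`. Let `S = {l > 0 | Mono F l ∧ Mono G l}`, nonempty by `hstart`.
Suppose `S` is bounded above, `l0 = sSup S`. Closedness: `Mono F l0`: given `x, s` with
`s ‖x‖² ≤ l0²`: if strict use some `l ∈ S` with `l² > s ‖x‖²`; if equal and `s > 1` approximate `s` from below
and use continuity of `t ↦ F (t x)`; `s = 1` is trivial.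
Openness: by `step_strict` (for `(F,G)` and `(G,F)`) `W > 0` in the punctured ball and `Dr F, Dr G > 0` on
`‖x‖ = l0`. Compactness of the sphere and continuity of `Dr F`, `Dr G` off the origin give `δ > 0`, `δ < l0`, with
`Dr F, Dr G > 0` on `l0 − δ ≤ ‖x‖ ≤ l0 + δ`. Also `Dr F, Dr G ≥ 0` on `0 < ‖x‖ < l0` (slope of `Mono`). So with
`ρ1 = l0 + δ`: `F x ≤ F (s x)` whenever `x ≠ 0`, `s ≥ 1`, `s ‖x‖ ≤ ρ1` (monotonicity of `t ↦ F (t x)`, derivative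
`Dr F (t x) / t ≥ 0`); same for `G`. Take `r` from `hnear l0`, shrink so that `r < l0`. The compact annulus
`K = {r ≤ ‖x‖ ≤ ρ2}`, where `ρ2 < l0`, `ρ2 ρ1 > l0²` (e.g. `ρ2 = l0 (1 − δ/(4 l0))`... any with `l0²/ρ1 < ρ2 < l0`).
On `K`, `F x < F ((l0²/‖x‖²) x)`; by compactness (`IsCompact.eventually_forall_of_forall_eventually`)
there is `θ0 ∈ (1, 4]` with `θ0 l0² < ρ1 ρ2` and `F x ≤ F (θ (l0²/‖x‖²) x)`, `G x ≤ G (θ (l0²/‖x‖²) x)`
for all `x ∈ K`, `θ ∈ [1, θ0]`. Set `l' = √θ0 · l0 > l0`. Check `Mono F l'`: given `x ≠ 0`, `s ≥ 1`, `s ‖x‖² ≤ l'²`: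
if `s ‖x‖² ≤ l0²` use `Mono F l0`; if `s ‖x‖ ≤ ρ1` use the ray monotonicity; else `l0² < s ‖x‖² ≤ θ0 l0²`
and `‖x‖ = s‖x‖²/(s‖x‖) < θ0 l0²/ρ1 < ρ2`: if `‖x‖ ≤ r` use `hnear` (`θ0 ≤ 4`), else `x ∈ K`, `θ = s ‖x‖²/l0²`.
So `l' ∈ S`, contradiction. Hence `S` is unbounded, and antitonicity gives everything.
-/

open InnerProductSpace Laplacian

noncomputable section

namespace Vale.Agent.Lib.P100.MP

variable {n : ℕ}

theorem Loop.mono_anti {F : Eu n → ℝ} {l l' : ℝ} (h : Mono F l) (hl' : 0 < l') (hll : l' ≤ l) :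
    Mono F l' := by
  intro x hx s hs hsx
  refine h x hx s hs (hsx.trans ?_)
  nlinarith

/-- Derivative along a ray. -/
theorem Loop.hasDerivAt_ray {F : Eu n → ℝ} (hFc : ContDiffOn ℝ 2 F {0}ᶜ) {x : Eu n} (hx : x ≠ 0)
    {t : ℝ} (ht : 0 < t) : HasDerivAt (fun r : ℝ => F (r • x)) (Dr F (t • x) / t) t := by
  have hne : t • x ≠ 0 := smul_ne_zero ht.ne' hx
  have hF : DifferentiableAt ℝ F (t • x) :=
    (hFc.contDiffAt (isOpen_compl_singleton.mem_nhds hne)).differentiableAt (by norm_num)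
  have h1 : HasDerivAt (fun r : ℝ => r • x) x t := by
    simpa using (hasDerivAt_id t).smul_const x
  have h2 := hF.hasFDerivAt.comp_hasDerivAt t h1
  have h3 : Dr F (t • x) / t = fderiv ℝ F (t • x) x := by
    simp only [Dr, map_smul, smul_eq_mul]
    field_simp
  rw [h3]
  exact h2

/-- The radial derivative is nonnegative under ray monotonicity. -/
theorem Loop.dr_nonneg {F : Eu n → ℝ} (hFc : ContDiffOn ℝ 2 F {0}ᶜ) {l : ℝ} (hm : Mono F l)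
    {x : Eu n} (hx : x ≠ 0) (hxl : ‖x‖ < l) : 0 ≤ Dr F x := by
  have hxpos : 0 < ‖x‖ := norm_pos_iff.mpr hx
  have hd := Loop.hasDerivAt_ray hFc hx one_pos
  simp only [one_smul, div_one] at hd
  have hsub : Set.Ioi (1 : ℝ) ⊆ {(1 : ℝ)}ᶜ := fun z hz => ne_of_gt hz
  have hsl : Filter.Tendsto (slope (fun r : ℝ => F (r • x)) 1) (nhdsWithin 1 (Set.Ioi (1 : ℝ)))
      (nhds (Dr F x)) := (hasDerivAt_iff_tendsto_slope.mp hd).mono_left (nhdsWithin_mono 1 hsub)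
  refine ge_of_tendsto hsl ?_
  have hlt : (1 : ℝ) < l ^ 2 / ‖x‖ ^ 2 := by
    rw [lt_div_iff₀ (by positivity)]
    nlinarith
  filter_upwards [Ioo_mem_nhdsGT hlt] with z hz
  have hz2 : z * ‖x‖ ^ 2 ≤ l ^ 2 := by
    have := hz.2
    rw [lt_div_iff₀ (by positivity)] at this
    exact this.le
  have h1 := hm x hx z hz.1.le hz2
  have hz0 : 0 < z - 1 := by linarith [hz.1]
  simp only [slope, one_smul, vsub_eq_sub, smul_eq_mul]
  exact mul_nonneg (inv_nonneg.mpr hz0.le) (by linarith)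

/-- Ray monotonicity from the sign of the radial derivative. -/
theorem Loop.ray_mono {F : Eu n → ℝ} (hFc : ContDiffOn ℝ 2 F {0}ᶜ) {ρ : ℝ}
    (hDr : ∀ x : Eu n, x ≠ 0 → ‖x‖ ≤ ρ → 0 ≤ Dr F x) {x : Eu n} (hx : x ≠ 0) {s : ℝ} (hs : 1 ≤ s)
    (hsx : s * ‖x‖ ≤ ρ) : F x ≤ F (s • x) := by
  have hxpos : 0 < ‖x‖ := norm_pos_iff.mpr hx
  have hmono : MonotoneOn (fun r : ℝ => F (r • x)) (Set.Icc 1 s) := by
    apply monotoneOn_of_deriv_nonneg (convex_Icc 1 s)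
    · intro t ht
      have htpos : 0 < t := by linarith [ht.1]
      exact (Loop.hasDerivAt_ray hFc hx htpos).continuousAt.continuousWithinAt
    · intro t ht
      rw [interior_Icc] at ht
      have htpos : 0 < t := by linarith [ht.1]
      exact (Loop.hasDerivAt_ray hFc hx htpos).differentiableAt.differentiableWithinAt
    · intro t ht
      rw [interior_Icc] at ht
      have htpos : 0 < t := by linarith [ht.1]
      rw [(Loop.hasDerivAt_ray hFc hx htpos).deriv]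
      apply div_nonneg _ htpos.le
      apply hDr _ (smul_ne_zero htpos.ne' hx)
      rw [norm_smul, Real.norm_of_nonneg htpos.le]
      nlinarith [ht.2]
  have := hmono (Set.left_mem_Icc.mpr hs) (Set.right_mem_Icc.mpr hs) hs
  simpa using this

/-- Positivity on a sphere spreads to a shell. -/
theorem Loop.exists_pos_shell {f : Eu n → ℝ} (hf : ContinuousOn f {0}ᶜ) {l0 : ℝ} (hl0 : 0 < l0)
    (hpos : ∀ x : Eu n, ‖x‖ = l0 → 0 < f x) :
    ∃ δ : ℝ, 0 < δ ∧ δ < l0 ∧ ∀ x : Eu n, |‖x‖ - l0| ≤ δ → 0 < f x := by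
  have hU : IsOpen (({0}ᶜ : Set (Eu n)) ∩ f ⁻¹' Set.Ioi 0) :=
    hf.isOpen_inter_preimage isOpen_compl_singleton isOpen_Ioi
  have hsub : Metric.sphere (0 : Eu n) l0 ⊆ ({0}ᶜ : Set (Eu n)) ∩ f ⁻¹' Set.Ioi 0 := by
    intro x hx
    have hxn : ‖x‖ = l0 := by simpa using hx
    refine ⟨?_, hpos x hxn⟩
    simp only [Set.mem_compl_iff, Set.mem_singleton_iff]
    intro h
    rw [h, norm_zero] at hxn
    linarith
  obtain ⟨δ, hδ, hth⟩ := (isCompact_sphere (0 : Eu n) l0).exists_thickening_subset_open hU hsub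
  refine ⟨min (δ / 2) (l0 / 2), lt_min (by linarith) (by linarith),
    lt_of_le_of_lt (min_le_right _ _) (by linarith), fun x hx => ?_⟩
  have h1 : |‖x‖ - l0| ≤ δ / 2 := hx.trans (min_le_left _ _)
  have h2 : |‖x‖ - l0| ≤ l0 / 2 := hx.trans (min_le_right _ _)
  have hxpos : 0 < ‖x‖ := by
    have := (abs_le.mp h2).1
    linarith
  have hmem : x ∈ Metric.thickening δ (Metric.sphere (0 : Eu n) l0) := by
    rw [Metric.mem_thickening_iff]
    refine ⟨(l0 / ‖x‖) • x, ?_, ?_⟩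
    · simp [norm_smul, abs_of_pos hl0, hxpos.ne']
    · have h3 : x - (l0 / ‖x‖) • x = (1 - l0 / ‖x‖) • x := by
        rw [sub_smul, one_smul]
      rw [dist_eq_norm, h3, norm_smul, Real.norm_eq_abs]
      have h4 : |1 - l0 / ‖x‖| * ‖x‖ = |‖x‖ - l0| := by
        have h5 : ‖x‖ - l0 = (1 - l0 / ‖x‖) * ‖x‖ := by field_simp
        rw [h5, abs_mul, abs_of_pos hxpos]
      rw [h4]
      linarith
  exact (hth hmem).2

/-- Closedness of the continuation set. -/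
theorem Loop.mono_closed {F : Eu n → ℝ} (hFc : ContDiffOn ℝ 2 F {0}ᶜ) {l0 : ℝ} (hl0 : 0 < l0)
    (hm : ∀ l : ℝ, 0 < l → l < l0 → Mono F l) : Mono F l0 := by
  intro x hx s hs hsx
  have hxpos : 0 < ‖x‖ := norm_pos_iff.mpr hx
  rcases eq_or_lt_of_le hs with rfl | hs1
  · simp
  -- continuity along the ray from the left
  have hlt : ∀ t : ℝ, 1 ≤ t → t < s → F x ≤ F (t • x) := by
    intro t ht1 ht2
    have h1 : t * ‖x‖ ^ 2 < l0 ^ 2 := by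
      have : t * ‖x‖ ^ 2 < s * ‖x‖ ^ 2 := by
        exact mul_lt_mul_of_pos_right ht2 (by positivity)
      linarith
    have h2 : 0 ≤ t * ‖x‖ ^ 2 := by positivity
    have h3 : Real.sqrt (t * ‖x‖ ^ 2) < l0 := (Real.sqrt_lt' hl0).mpr h1
    have h4 : 0 < t * ‖x‖ ^ 2 := by
      have : 0 < t := by linarith
      positivity
    have h5 : 0 < Real.sqrt (t * ‖x‖ ^ 2) := Real.sqrt_pos.mpr h4
    -- use a level strictly between
    obtain ⟨l, hl1, hl2⟩ := exists_between h3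
    refine hm l (h5.trans hl1) hl2 x hx t ht1 ?_
    have h6 : t * ‖x‖ ^ 2 = Real.sqrt (t * ‖x‖ ^ 2) ^ 2 := (Real.sq_sqrt h2).symm
    rw [h6]
    nlinarith
  have hcont : Filter.Tendsto (fun r : ℝ => F (r • x)) (nhdsWithin s (Set.Iio s)) (nhds (F (s • x))) :=
    ((Loop.hasDerivAt_ray hFc hx (by linarith : (0 : ℝ) < s)).continuousAt.tendsto).mono_left
      nhdsWithin_le_nhds
  refine ge_of_tendsto hcont ?_
  filter_upwards [Ioo_mem_nhdsLT hs1] with t ht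
  exact hlt t ht.1.le ht.2


/-- The inequality on a compact annulus persists for a little larger dilation. -/
theorem Loop.exists_theta {F : Eu n → ℝ} (hFc : ContDiffOn ℝ 2 F {0}ᶜ) {c r ρ : ℝ} (hc : 0 < c)
    (hr : 0 < r)
    (hlt : ∀ x : Eu n, r ≤ ‖x‖ → ‖x‖ ≤ ρ → F x < F ((c / ‖x‖ ^ 2) • x)) :
    ∃ ε : ℝ, 0 < ε ∧ ∀ θ : ℝ, 1 ≤ θ → θ < 1 + ε → ∀ x : Eu n, r ≤ ‖x‖ → ‖x‖ ≤ ρ →
      F x ≤ F ((θ * (c / ‖x‖ ^ 2)) • x) := by
  set K : Set (Eu n) := Metric.closedBall 0 ρ \ Metric.ball 0 r with hK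
  have hKc : IsCompact K := (isCompact_closedBall _ _).diff Metric.isOpen_ball
  have hKmem : ∀ x : Eu n, x ∈ K ↔ (r ≤ ‖x‖ ∧ ‖x‖ ≤ ρ) := by
    intro x
    simp [hK, and_comm]
  have hev : ∀ᶠ θ in nhds (1 : ℝ), ∀ x ∈ K, F x < F ((θ * (c / ‖x‖ ^ 2)) • x) := by
    refine hKc.eventually_forall_of_forall_eventually (fun y hy => ?_)
    obtain ⟨hy1, hy2⟩ := (hKmem y).mp hy
    have hypos : 0 < ‖y‖ := by linarith
    have hy0 : y ≠ 0 := norm_pos_iff.mp hypos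
    have hinner : ContinuousAt (fun z : ℝ × Eu n => (z.1 * (c / ‖z.2‖ ^ 2)) • z.2) ((1 : ℝ), y) := by
      apply ContinuousAt.fun_smul
      · apply ContinuousAt.mul continuousAt_fst
        apply ContinuousAt.div continuousAt_const
        · exact (continuous_snd.norm.pow 2).continuousAt
        · simp only [ne_eq, pow_eq_zero_iff, two_ne_zero, not_false_eq_true, norm_eq_zero]
          exact hy0
      · exact continuousAt_snd
    have hval : ((1 : ℝ) * (c / ‖y‖ ^ 2)) • y ≠ 0 :=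
      smul_ne_zero (by positivity) hy0
    have hFat : ∀ w : Eu n, w ≠ 0 → ContinuousAt F w := fun w hw =>
      (hFc.contDiffAt (isOpen_compl_singleton.mem_nhds hw)).continuousAt
    have h1 : ContinuousAt (fun z : ℝ × Eu n => F ((z.1 * (c / ‖z.2‖ ^ 2)) • z.2)) ((1 : ℝ), y) :=
      ContinuousAt.comp (f := fun z : ℝ × Eu n => (z.1 * (c / ‖z.2‖ ^ 2)) • z.2) (g := F)
        (hFat _ hval) hinner
    have h2 : ContinuousAt (fun z : ℝ × Eu n => F z.2) ((1 : ℝ), y) :=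
      ContinuousAt.comp (f := fun z : ℝ × Eu n => z.2) (g := F) (hFat _ hy0) continuousAt_snd
    have h3 : F y < F (((1 : ℝ) * (c / ‖y‖ ^ 2)) • y) := by
      rw [one_mul]
      exact hlt y hy1 hy2
    exact h2.eventually_lt h1 h3
  obtain ⟨ε, hε, hball⟩ := Metric.eventually_nhds_iff.mp hev
  refine ⟨ε, hε, fun θ h1 h2 x hx1 hx2 => ?_⟩
  have hd : dist θ 1 < ε := by
    rw [Real.dist_eq, abs_of_nonneg (by linarith)]
    linarith
  exact (hball hd x ((hKmem x).mpr ⟨hx1, hx2⟩)).le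

/-- Openness for one function. -/
theorem Loop.step_open {F : Eu n → ℝ} (hFc : ContDiffOn ℝ 2 F {0}ᶜ) {l0 : ℝ} (hl0 : 0 < l0)
    (hm : Mono F l0)
    (hstrict : ∀ x : Eu n, x ≠ 0 → ‖x‖ < l0 → F x < F ((l0 ^ 2 / ‖x‖ ^ 2) • x))
    (hDr : ∀ x : Eu n, ‖x‖ = l0 → 0 < Dr F x)
    (hnear : ∃ r : ℝ, 0 < r ∧ ∀ x : Eu n, x ≠ 0 → ‖x‖ ≤ r → ∀ s : ℝ,
      l0 ^ 2 ≤ s * ‖x‖ ^ 2 → s * ‖x‖ ^ 2 ≤ 4 * l0 ^ 2 → F x ≤ F (s • x)) :
    ∃ l' : ℝ, l0 < l' ∧ Mono F l' := by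
  have hDrc : ContinuousOn (Dr F) {0}ᶜ := by
    have h1 := hFc.continuousOn_fderiv_of_isOpen isOpen_compl_singleton (by norm_num)
    exact h1.clm_apply continuousOn_id
  obtain ⟨δ, hδ, hδl, hshell⟩ := Loop.exists_pos_shell hDrc hl0 hDr
  obtain ⟨r0, hr0, hnr⟩ := hnear
  -- the ray monotonicity up to `ρ1`
  set ρ1 : ℝ := l0 + δ with hρ1
  have hDrle : ∀ x : Eu n, x ≠ 0 → ‖x‖ ≤ ρ1 → 0 ≤ Dr F x := by
    intro x hx hxρ
    by_cases hxl : ‖x‖ < l0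
    · exact Loop.dr_nonneg hFc hm hx hxl
    · push Not at hxl
      refine (hshell x ?_).le
      rw [abs_of_nonneg (by linarith)]
      linarith
  have hρ1pos : 0 < ρ1 := by linarith
  -- the radius `ρ2`
  set ρ2 : ℝ := l0 - l0 * δ / (2 * ρ1) with hρ2
  have hfrac : 0 < l0 * δ / (2 * ρ1) := by positivity
  have hfrac2 : l0 * δ / (2 * ρ1) < l0 := by
    rw [div_lt_iff₀ (by positivity)]
    nlinarith
  have hρ2l : ρ2 < l0 := by linarith
  have hρ2pos : 0 < ρ2 := by linarith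
  have hprod : l0 ^ 2 < ρ1 * ρ2 := by
    have h1 : ρ1 * ρ2 = ρ1 * l0 - l0 * δ / 2 := by
      rw [hρ2]
      field_simp
    rw [h1, hρ1]
    nlinarith
  set r : ℝ := min r0 (ρ2 / 2) with hr
  have hrpos : 0 < r := lt_min hr0 (by linarith)
  have hrr0 : r ≤ r0 := min_le_left _ _
  obtain ⟨ε, hε, hθ⟩ := Loop.exists_theta (c := l0 ^ 2) (r := r) (ρ := ρ2) hFc (by positivity) hrpos
    (fun x hx1 hx2 => hstrict x (norm_pos_iff.mp (by linarith)) (by linarith))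
  -- the choice of `θ0`
  obtain ⟨θ0, hθ1, hθ2, hθ3, hθ4⟩ : ∃ θ0 : ℝ, 1 < θ0 ∧ θ0 < 1 + ε ∧ θ0 ≤ 4 ∧ θ0 * l0 ^ 2 < ρ1 * ρ2 := by
    have h1 : 1 < ρ1 * ρ2 / l0 ^ 2 := by
      rw [lt_div_iff₀ (by positivity)]
      linarith
    refine ⟨min (min (1 + ε / 2) 4) ((1 + ρ1 * ρ2 / l0 ^ 2) / 2),
      lt_min (lt_min (by linarith) (by norm_num)) (by linarith), ?_, ?_, ?_⟩
    · exact lt_of_le_of_lt ((min_le_left _ _).trans (min_le_left _ _)) (by linarith)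
    · exact (min_le_left _ _).trans (min_le_right _ _)
    · have h2 : min (min (1 + ε / 2) 4) ((1 + ρ1 * ρ2 / l0 ^ 2) / 2) ≤
          (1 + ρ1 * ρ2 / l0 ^ 2) / 2 := min_le_right _ _
      have h3 : (1 + ρ1 * ρ2 / l0 ^ 2) / 2 < ρ1 * ρ2 / l0 ^ 2 := by linarith
      have h4 := lt_of_le_of_lt h2 h3
      rw [lt_div_iff₀ (by positivity)] at h4
      exact h4
  refine ⟨Real.sqrt θ0 * l0, ?_, ?_⟩
  · have h1 : 1 < Real.sqrt θ0 := by
      rw [Real.lt_sqrt (by norm_num)]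
      linarith
    nlinarith
  intro x hx s hs hsx
  have hxpos : 0 < ‖x‖ := norm_pos_iff.mpr hx
  have hspos : 0 < s := by linarith
  have hsx' : s * ‖x‖ ^ 2 ≤ θ0 * l0 ^ 2 := by
    have h1 : (Real.sqrt θ0 * l0) ^ 2 = θ0 * l0 ^ 2 := by
      rw [mul_pow, Real.sq_sqrt (by linarith)]
    rwa [h1] at hsx
  by_cases hc1 : s * ‖x‖ ^ 2 ≤ l0 ^ 2
  · exact hm x hx s hs hc1
  push Not at hc1
  by_cases hc2 : s * ‖x‖ ≤ ρ1
  · exact Loop.ray_mono hFc hDrle hx hs hc2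
  push Not at hc2
  have hxρ2 : ‖x‖ < ρ2 := by
    by_contra hcon
    push Not at hcon
    have h1 : ρ1 * ρ2 ≤ s * ‖x‖ * ‖x‖ :=
      mul_le_mul hc2.le hcon hρ2pos.le (by positivity)
    nlinarith
  by_cases hc3 : ‖x‖ ≤ r
  · refine hnr x hx (hc3.trans hrr0) s hc1.le (hsx'.trans ?_)
    exact mul_le_mul_of_nonneg_right hθ3 (by positivity)
  push Not at hc3
  -- the annulus
  set θ : ℝ := s * ‖x‖ ^ 2 / l0 ^ 2 with hθdef
  have hθge : 1 ≤ θ := by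
    rw [hθdef, le_div_iff₀ (by positivity)]
    linarith
  have hθlt : θ < 1 + ε := by
    have h1 : θ ≤ θ0 := by
      rw [hθdef, div_le_iff₀ (by positivity)]
      exact hsx'
    linarith
  have h1 := hθ θ hθge hθlt x hc3.le hxρ2.le
  have h2 : θ * (l0 ^ 2 / ‖x‖ ^ 2) = s := by
    rw [hθdef]
    field_simp
  rwa [h2] at h1

/-- **Module Loop.** Monotonicity along rays at every level. -/
theorem mono_all {F G : Eu n → ℝ} {a b τ σ p q : ℝ} (hn : 3 ≤ n)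
    (hFc : ContDiffOn ℝ 2 F {0}ᶜ) (hGc : ContDiffOn ℝ 2 G {0}ᶜ)
    (hFpos : ∀ x : Eu n, x ≠ 0 → 0 < F x) (hGpos : ∀ x : Eu n, x ≠ 0 → 0 < G x)
    (ha1 : (n : ℝ) - 2 < 2 * a) (ha2 : a ≤ (n : ℝ) - 2)
    (hb1 : (n : ℝ) - 2 < 2 * b) (hb2 : b ≤ (n : ℝ) - 2)
    (hτ : 0 < τ) (hσ : 0 < σ) (hp : 0 < p) (hq : 0 < q)
    (hEF : Eqn n a τ p F G) (hEG : Eqn n b σ q G F)
    (hstart : ∃ l : ℝ, 0 < l ∧ Mono F l ∧ Mono G l)
    (hnear : ∀ l : ℝ, 0 < l → ∃ r : ℝ, 0 < r ∧ ∀ x : Eu n, x ≠ 0 → ‖x‖ ≤ r → ∀ s : ℝ,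
      l ^ 2 ≤ s * ‖x‖ ^ 2 → s * ‖x‖ ^ 2 ≤ 4 * l ^ 2 → F x ≤ F (s • x) ∧ G x ≤ G (s • x)) :
    ∀ l : ℝ, 0 < l → Mono F l ∧ Mono G l := by
  by_contra hcon
  push Not at hcon
  obtain ⟨lb, hlb, hnot⟩ := hcon
  set S : Set ℝ := {l | 0 < l ∧ Mono F l ∧ Mono G l} with hS
  have hdown : ∀ l ∈ S, ∀ l' : ℝ, 0 < l' → l' ≤ l → l' ∈ S := fun l hl l' h1 h2 =>
    ⟨h1, Loop.mono_anti hl.2.1 h1 h2, Loop.mono_anti hl.2.2 h1 h2⟩
  have hlbS : lb ∉ S := by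
    intro h
    rcases h.2 with ⟨h1, h2⟩
    exact hnot h1 h2
  have hbdd : BddAbove S := by
    refine ⟨lb, fun l hl => ?_⟩
    by_contra hlt
    push Not at hlt
    exact hlbS (hdown l hl lb hlb hlt.le)
  obtain ⟨l1, hl1⟩ := hstart
  have hne : S.Nonempty := ⟨l1, hl1⟩
  set l0 : ℝ := sSup S with hl0def
  have hl0 : 0 < l0 := lt_of_lt_of_le hl1.1 (le_csSup hbdd hl1)
  have hbelow : ∀ l : ℝ, 0 < l → l < l0 → l ∈ S := by
    intro l hl hll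
    obtain ⟨l2, hl2, hl3⟩ := exists_lt_of_lt_csSup hne hll
    exact hdown l2 hl2 l hl hl3.le
  have hm1 : Mono F l0 := Loop.mono_closed hFc hl0 (fun l h1 h2 => (hbelow l h1 h2).2.1)
  have hm2 : Mono G l0 := Loop.mono_closed hGc hl0 (fun l h1 h2 => (hbelow l h1 h2).2.2)
  obtain ⟨hF1, hF2⟩ := step_strict hn hFc hGpos ha1 ha2 hτ hp hEF hl0 hm1 hm2
  obtain ⟨hG1, hG2⟩ := step_strict hn hGc hFpos hb1 hb2 hσ hq hEG hl0 hm2 hm1
  obtain ⟨r, hr, hnr⟩ := hnear l0 hl0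
  obtain ⟨l2, hl2, hm3⟩ := Loop.step_open hFc hl0 hm1 hF1 hF2
    ⟨r, hr, fun x hx hxr s h1 h2 => (hnr x hx hxr s h1 h2).1⟩
  obtain ⟨l3, hl3, hm4⟩ := Loop.step_open hGc hl0 hm2 hG1 hG2
    ⟨r, hr, fun x hx hxr s h1 h2 => (hnr x hx hxr s h1 h2).2⟩
  have hmem : min l2 l3 ∈ S := by
    have h0 : 0 < min l2 l3 := lt_min (hl0.trans hl2) (hl0.trans hl3)
    exact ⟨h0, Loop.mono_anti hm3 h0 (min_le_left _ _), Loop.mono_anti hm4 h0 (min_le_right _ _)⟩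
  have := le_csSup hbdd hmem
  exact absurd (lt_min hl2 hl3) (not_lt.mpr this)

end Vale.Agent.Lib.P100.MP
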