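import Vale.Agent.Lib.P100.MP.Extra

/-!
# P100: a solution forces `max(α, β) ≤ n - 2`, for all real weights.

For `A = B = 0` this is Mitidieri's region. Proof: `u ≥ c ‖x‖^(2-n)` on `‖x‖ ≥ 1` (`base_lb`), and the
iteration `iter_false`: a lower bound `u ≥ c ‖x‖^(-a)` with `0 < a ≤ n-2`, `a < α` is impossible.
-/

open InnerProductSpace Laplacian

noncomputable section

namespace Vale.Agent.Lib.P100.MP

variable {n : ℕ}

/-- The exponent `α` is at most `n - 2`. -/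
theorem alpha_le {A B p q : ℝ} {u v : Eu n → ℝ} (hn : 3 ≤ n) (hp : 0 < p) (hq : 0 < q)
    (hpq : 1 < p * q) (h : Sol n A B p q u v) :
    2 + A + p * (2 + B) ≤ ((n : ℝ) - 2) * (p * q - 1) := by
  by_contra hcon
  push Not at hcon
  have hnR : (3 : ℝ) ≤ n := by exact_mod_cast hn
  have hδ : 0 < p * q - 1 := by linarith
  have hδ' : p * q - 1 ≠ 0 := hδ.ne'
  obtain ⟨α, hα⟩ : ∃ α : ℝ, α = (2 + A + p * (2 + B)) / (p * q - 1) := ⟨_, rfl⟩
  obtain ⟨β, hβ⟩ : ∃ β : ℝ, β = (2 + B + q * (2 + A)) / (p * q - 1) := ⟨_, rfl⟩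
  have e1 : α * (p * q - 1) = 2 + A + p * (2 + B) := by
    rw [hα]; exact div_mul_cancel₀ _ hδ'
  have e2 : β * (p * q - 1) = 2 + B + q * (2 + A) := by
    rw [hβ]; exact div_mul_cancel₀ _ hδ'
  have hαeq : α = p * β - 2 - A := by
    apply mul_right_cancel₀ hδ'
    linear_combination e1 - p * e2
  have hβeq : β = q * α - 2 - B := by
    apply mul_right_cancel₀ hδ'
    linear_combination e2 - q * e1
  have hlt : (n : ℝ) - 2 < α := by
    rw [hα, lt_div_iff₀ hδ]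
    exact hcon
  have hbu : LB u ((n : ℝ) - 2) := base_lb hn h.ucont h.upos h.uC2 h.lap_neg
  exact iter_false hn h hp hq hpq hαeq hβeq (by linarith) le_rfl hlt hbu

/-- **Classification.** A positive entire solution forces `n ≥ 3`, `A, B > -2`, `p q > 1`,
`min(α, β) ≤ (n-2)/2` and `max(α, β) ≤ n - 2`. -/
theorem solution_forces_max {A B p q : ℝ} {u v : Eu n → ℝ} (hn : 2 ≤ n) (hp : 0 < p) (hq : 0 < q)
    (h : Sol n A B p q u v) :
    3 ≤ n ∧ -2 < A ∧ -2 < B ∧ 1 < p * q ∧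
      ¬ (((n : ℝ) - 2) * (p * q - 1) < 2 * (2 + A + p * (2 + B)) ∧
         ((n : ℝ) - 2) * (p * q - 1) < 2 * (2 + B + q * (2 + A))) ∧
      2 + A + p * (2 + B) ≤ ((n : ℝ) - 2) * (p * q - 1) ∧
      2 + B + q * (2 + A) ≤ ((n : ℝ) - 2) * (p * q - 1) := by
  obtain ⟨hn3, hA, hB, hpq, hmin⟩ := solution_forces hn hp hq h
  refine ⟨hn3, hA, hB, hpq, hmin, alpha_le hn3 hp hq hpq h, ?_⟩
  have hpq' : 1 < q * p := by linarith [mul_comm p q]
  have := alpha_le hn3 hq hp hpq' h.swap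
  rwa [mul_comm q p] at this

end Vale.Agent.Lib.P100.MP
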