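import Vale.Agent.Lib.P100.MP.Calc

/-!
# P100 moving planes, module Step: strict positivity and the boundary derivative.

Paper proof. Let `I = inv (l²)`, `f = F ∘ I`, `W = f - F`, `c = a (n-2-a) ≥ 0`, and the operator
`L g = ‖x‖² Δg − 2(n−2−a) Dr g − c g`. By `kelvin_lap`, `kelvin_Dr`, and `Eqn` at `y = I x`:
`L f (x) = −‖y‖^τ G(y)^p`; by `Eqn` at `x`: `L F (x) = −‖x‖^τ G(x)^p + (4a − 2(n−2)) Dr F x`.
So `L W (x) = −‖y‖^τ G(y)^p + ‖x‖^τ G(x)^p − (4a−2(n−2)) Dr F x`. For `0 < ‖x‖ < l`: `‖y‖ = l²/‖x‖ > ‖x‖`,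
`G y ≥ G x > 0` (`Mono G l` at `s = l²/‖x‖²`), `Dr F x ≥ 0` (`Mono F l`, slope at `s = 1`), `4a > 2(n−2)`,
`τ > 0`: hence `L W (x) < 0`.
(C1) `W ≥ 0` on the punctured ball by `Mono F l`; if `W x0 = 0` then `x0` is a local minimum so by
`localMin_test` `fderiv W x0 = 0`, `Δ W x0 ≥ 0`, so `L W x0 ≥ 0`: contradiction.
(C2) Let `ρ = l/2`, `η > 0` the min of `W` on the sphere `‖x‖ = ρ` (compact, C1). Choose `M > 0` with
`M² + (n−2−2a) M − c > 0`, `C₀ > 0` with `C₀ (ρ^(-M) − l^(-M)) ≤ η`, `h x = C₀ (‖x‖^(-M) − l^(-M))`.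
By `lap_norm_rpow`, `Dr_norm_rpow`: `L h = C₀ ((M²+(n−2−2a)M−c) ‖x‖^(-M) + c l^(-M)) > 0`.
`min_principle` with `K = {ρ ≤ ‖x‖ ≤ l}`, `U = {ρ < ‖x‖ < l}`, `f = W − h`: at a point of `U` with
`W−h < 0`, zero gradient and `Δ ≥ 0`: `L(W−h) = ‖x‖²Δ(W-h) − c (W−h) ≥ 0`, but `L(W−h) < 0`.
So `W ≥ h` on `K`. For `‖x1‖ = l`, `0 < s < 1` near 1: `inv (l²) (s x1) = s⁻¹ x1`, so
`F(s⁻¹ x1) − F(s x1) ≥ C₀ l^(-M) (s^(-M) − 1)`. Differentiating at `s = 1` from the left:
`−2 Dr F x1 ≤ −M C₀ l^(-M)`, i.e. `Dr F x1 ≥ M C₀ l^(-M)/2 > 0`.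
-/

open InnerProductSpace Laplacian Topology

noncomputable section

namespace Vale.Agent.Lib.P100.MP

variable {n : ℕ}

/-- The radial derivative is nonnegative where `Mono` holds. -/
theorem Dr_nonneg_of_mono {F : Eu n → ℝ} {l : ℝ} (hF : Mono F l) {x : Eu n} (hx : x ≠ 0)
    (hxl : ‖x‖ < l) (hd : DifferentiableAt ℝ F x) : 0 ≤ Dr F x := by
  have hd' : HasFDerivAt F (fderiv ℝ F x) ((1 : ℝ) • x) := by simpa using hd.hasFDerivAt
  have hline : HasDerivAt (fun s : ℝ => s • x) x 1 := by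
    simpa using (hasDerivAt_id (1 : ℝ)).smul_const x
  have hψ : HasDerivAt (fun s : ℝ => F (s • x)) (Dr F x) 1 := hd'.comp_hasDerivAt (1 : ℝ) hline
  have hxpos : 0 < ‖x‖ := norm_pos_iff.2 hx
  have hgt : 1 < l ^ 2 / ‖x‖ ^ 2 := by
    rw [one_lt_div (by positivity)]
    exact pow_lt_pow_left₀ hxl hxpos.le (by norm_num)
  have hslope := hψ.hasDerivWithinAt (s := Set.Ioi (1 : ℝ))
  rw [hasDerivWithinAt_iff_tendsto_slope' (by simp)] at hslope
  refine ge_of_tendsto hslope ?_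
  filter_upwards [Ioo_mem_nhdsGT hgt] with s hs
  rw [slope_def_field]
  refine div_nonneg ?_ (by linarith [hs.1])
  have hle : s * ‖x‖ ^ 2 ≤ l ^ 2 := by
    have := hs.2
    rw [lt_div_iff₀ (by positivity)] at this
    exact this.le
  have h := hF x hx s hs.1.le hle
  simp only [one_smul]
  linarith

/-- A function vanishing at `1`, nonnegative just to the left of `1`, has nonpositive derivative. -/
theorem deriv_nonpos_of_left {φ : ℝ → ℝ} {d : ℝ} (hφ : HasDerivAt φ d 1) (h0 : φ 1 = 0)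
    (hpos : ∀ s : ℝ, 1 / 2 ≤ s → s < 1 → 0 ≤ φ s) : d ≤ 0 := by
  have hslope := hφ.hasDerivWithinAt (s := Set.Iio (1 : ℝ))
  rw [hasDerivWithinAt_iff_tendsto_slope' (by simp)] at hslope
  refine le_of_tendsto hslope ?_
  filter_upwards [Ioo_mem_nhdsLT (show (1 / 2 : ℝ) < 1 by norm_num)] with s hs
  rw [slope_def_field, h0, sub_zero]
  exact div_nonpos_of_nonneg_of_nonpos (hpos s hs.1.le hs.2) (by linarith [hs.2])

/-- The difference `W = F ∘ inv (l²) − F`. -/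
def WW (F : Eu n → ℝ) (l : ℝ) : Eu n → ℝ := fun z => F (inv (l ^ 2) z) - F z

theorem WW_contDiffOn {F : Eu n → ℝ} {l : ℝ} (hl : 0 < l) (hFc : ContDiffOn ℝ 2 F {0}ᶜ) :
    ContDiffOn ℝ 2 (WW F l) {0}ᶜ :=
  (contDiffOn_comp_inv (pow_pos hl 2) hFc).sub hFc

theorem at_of_ne {f : Eu n → ℝ} (hf : ContDiffOn ℝ 2 f {0}ᶜ) {x : Eu n} (hx : x ≠ 0) :
    ContDiffAt ℝ 2 f x :=
  hf.contDiffAt (isOpen_compl_singleton.mem_nhds hx)

theorem inv_ne_zero' {c : ℝ} (hc : 0 < c) {x : Eu n} (hx : x ≠ 0) : inv c x ≠ 0 := by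
  have hxpos : 0 < ‖x‖ := norm_pos_iff.2 hx
  unfold inv
  exact smul_ne_zero (by positivity) hx

/-- `L W < 0` in the punctured ball. -/
theorem op_WW_neg {F G : Eu n → ℝ} {a τ p l : ℝ}
    (hFc : ContDiffOn ℝ 2 F {0}ᶜ) (hGpos : ∀ x : Eu n, x ≠ 0 → 0 < G x)
    (ha1 : (n : ℝ) - 2 < 2 * a) (hτ : 0 < τ) (hp : 0 < p)
    (hE : Eqn n a τ p F G) (hl : 0 < l) (hF : Mono F l) (hG : Mono G l)
    {x : Eu n} (hx : x ≠ 0) (hxl : ‖x‖ < l) :
    ‖x‖ ^ 2 * Δ (WW F l) x - 2 * ((n : ℝ) - 2 - a) * Dr (WW F l) x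
      - a * ((n : ℝ) - 2 - a) * WW F l x < 0 := by
  have hc2 : 0 < l ^ 2 := pow_pos hl 2
  have hxpos : 0 < ‖x‖ := norm_pos_iff.2 hx
  have hy : inv (l ^ 2) x ≠ 0 := inv_ne_zero' hc2 hx
  have hcF : ContDiffAt ℝ 2 F x := at_of_ne hFc hx
  have hcFy : ContDiffAt ℝ 2 F (inv (l ^ 2) x) := at_of_ne hFc hy
  have hcf : ContDiffAt ℝ 2 (fun z => F (inv (l ^ 2) z)) x :=
    at_of_ne (contDiffOn_comp_inv hc2 hFc) hx
  have hlap : Δ (WW F l) x = Δ (fun z => F (inv (l ^ 2) z)) x - Δ F x := hcf.laplacian_sub hcF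
  have hDr : Dr (WW F l) x = Dr (fun z => F (inv (l ^ 2) z)) x - Dr F x := by
    unfold Dr WW
    rw [fderiv_fun_sub (hcf.differentiableAt (by norm_num)) (hcF.differentiableAt (by norm_num))]
    rfl
  have hk1 := kelvin_lap hc2 hx hcFy
  have hk2 := kelvin_Dr hc2 hx hcFy
  have hey := hE _ hy
  have hex := hE x hx
  have hnorm : ‖inv (l ^ 2) x‖ = l ^ 2 / ‖x‖ := norm_invc hc2 hx
  have key : ‖x‖ ^ 2 * Δ (WW F l) x - 2 * ((n : ℝ) - 2 - a) * Dr (WW F l) x
      - a * ((n : ℝ) - 2 - a) * WW F l x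
      = - (‖inv (l ^ 2) x‖ ^ τ * G (inv (l ^ 2) x) ^ p) + ‖x‖ ^ τ * G x ^ p
        - (4 * a - 2 * ((n : ℝ) - 2)) * Dr F x := by
    rw [hlap, hDr]
    simp only [WW]
    linear_combination hk1 - 2 * ((n : ℝ) - 2 - a) * hk2 + hey - hex
  rw [key]
  have hxy : ‖x‖ < ‖inv (l ^ 2) x‖ := by
    rw [hnorm, lt_div_iff₀ hxpos]
    nlinarith
  have hrp : ‖x‖ ^ τ < ‖inv (l ^ 2) x‖ ^ τ := Real.rpow_lt_rpow hxpos.le hxy hτ
  have hGle : G x ≤ G (inv (l ^ 2) x) := by
    have hs1 : 1 ≤ l ^ 2 / ‖x‖ ^ 2 := by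
      rw [one_le_div (by positivity)]
      exact (pow_lt_pow_left₀ hxl hxpos.le (by norm_num)).le
    have hs2 : l ^ 2 / ‖x‖ ^ 2 * ‖x‖ ^ 2 ≤ l ^ 2 := by
      rw [div_mul_cancel₀ _ (by positivity)]
    exact hG x hx _ hs1 hs2
  have hGx := hGpos x hx
  have hGp : G x ^ p ≤ G (inv (l ^ 2) x) ^ p := Real.rpow_le_rpow hGx.le hGle hp.le
  have hGxp : 0 < G x ^ p := Real.rpow_pos_of_pos hGx p
  have hyp : 0 < ‖inv (l ^ 2) x‖ ^ τ := lt_trans (Real.rpow_pos_of_pos hxpos τ) hrp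
  have h1 : ‖x‖ ^ τ * G x ^ p < ‖inv (l ^ 2) x‖ ^ τ * G (inv (l ^ 2) x) ^ p :=
    calc ‖x‖ ^ τ * G x ^ p < ‖inv (l ^ 2) x‖ ^ τ * G x ^ p := mul_lt_mul_of_pos_right hrp hGxp
      _ ≤ _ := mul_le_mul_of_nonneg_left hGp hyp.le
  have hDrn : 0 ≤ Dr F x := Dr_nonneg_of_mono hF hx hxl (hcF.differentiableAt (by norm_num))
  have h2 : 0 ≤ (4 * a - 2 * ((n : ℝ) - 2)) * Dr F x :=
    mul_nonneg (by linarith) hDrn
  linarith

/-- (C1) `F` is strictly below its reflection. -/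
theorem WW_pos {F G : Eu n → ℝ} {a τ p l : ℝ}
    (hFc : ContDiffOn ℝ 2 F {0}ᶜ) (hGpos : ∀ x : Eu n, x ≠ 0 → 0 < G x)
    (ha1 : (n : ℝ) - 2 < 2 * a) (hτ : 0 < τ) (hp : 0 < p)
    (hE : Eqn n a τ p F G) (hl : 0 < l) (hF : Mono F l) (hG : Mono G l)
    {x : Eu n} (hx : x ≠ 0) (hxl : ‖x‖ < l) : 0 < WW F l x := by
  have hge : ∀ z : Eu n, z ≠ 0 → ‖z‖ < l → 0 ≤ WW F l z := by
    intro z hz hzl
    have hzpos : 0 < ‖z‖ := norm_pos_iff.2 hz
    have hs1 : 1 ≤ l ^ 2 / ‖z‖ ^ 2 := by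
      rw [one_le_div (by positivity)]
      exact (pow_lt_pow_left₀ hzl hzpos.le (by norm_num)).le
    have hs2 : l ^ 2 / ‖z‖ ^ 2 * ‖z‖ ^ 2 ≤ l ^ 2 := by
      rw [div_mul_cancel₀ _ (by positivity)]
    have := hF z hz _ hs1 hs2
    simp only [WW, inv]
    linarith
  refine lt_of_le_of_ne (hge x hx hxl) ?_
  intro h0
  have hloc : IsLocalMin (WW F l) x := by
    have h1 : {z : Eu n | z ≠ 0} ∈ 𝓝 x := isOpen_compl_singleton.mem_nhds hx
    have h2 : {z : Eu n | ‖z‖ < l} ∈ 𝓝 x :=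
      (isOpen_lt continuous_norm continuous_const).mem_nhds hxl
    filter_upwards [h1, h2] with z hz1 hz2
    rw [← h0]
    exact hge z hz1 hz2
  have hC : ContDiffAt ℝ 2 (WW F l) x := at_of_ne (WW_contDiffOn hl hFc) hx
  obtain ⟨h1, h2⟩ := localMin_test hC hloc
  have hneg := op_WW_neg hFc hGpos ha1 hτ hp hE hl hF hG hx hxl
  have hDr : Dr (WW F l) x = 0 := by
    simp [Dr, h1]
  rw [hDr, ← h0] at hneg
  have : 0 ≤ ‖x‖ ^ 2 * Δ (WW F l) x := by positivity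
  simp only [mul_zero, sub_zero] at hneg
  linarith

/-- The barrier `h z = C₀ (‖z‖^(-M) − d)`. -/
def bar (C₀ M d : ℝ) : Eu n → ℝ := fun z => C₀ * (‖z‖ ^ (-M) - d)

theorem bar_contDiffOn (C₀ M d : ℝ) : ContDiffOn ℝ 2 (bar C₀ M d : Eu n → ℝ) {0}ᶜ := by
  refine contDiffOn_const.mul (ContDiffOn.sub ?_ contDiffOn_const)
  intro z hz
  have hz' : z ≠ 0 := hz
  exact ((contDiffAt_norm ℝ hz').rpow_const_of_ne (norm_ne_zero_iff.2 hz')).contDiffWithinAt

/-- The operator on the barrier. -/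
theorem op_bar (C₀ M d : ℝ) (a : ℝ) {z : Eu n} (hz : z ≠ 0) :
    ‖z‖ ^ 2 * Δ (bar C₀ M d : Eu n → ℝ) z - 2 * ((n : ℝ) - 2 - a) * Dr (bar C₀ M d) z
      - a * ((n : ℝ) - 2 - a) * bar C₀ M d z
    = C₀ * ((M ^ 2 + ((n : ℝ) - 2 - 2 * a) * M - a * ((n : ℝ) - 2 - a)) * ‖z‖ ^ (-M)
        + a * ((n : ℝ) - 2 - a) * d) := by
  have hP : ContDiffAt ℝ 2 (fun w : Eu n => ‖w‖ ^ (-M)) z :=
    (contDiffAt_norm ℝ hz).rpow_const_of_ne (norm_ne_zero_iff.2 hz)
  have hPd : ContDiffAt ℝ 2 ((fun w : Eu n => ‖w‖ ^ (-M)) - fun _ => d) z :=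
    hP.sub contDiffAt_const
  have hlap : Δ (bar C₀ M d : Eu n → ℝ) z = C₀ * Δ (fun w : Eu n => ‖w‖ ^ (-M)) z := by
    have h1 : (bar C₀ M d : Eu n → ℝ) = C₀ • ((fun w : Eu n => ‖w‖ ^ (-M)) - fun _ => d) := by
      funext w
      simp [bar]
    rw [h1, laplacian_smul C₀ hPd, hP.laplacian_sub contDiffAt_const]
    simp
  have hDr : Dr (bar C₀ M d : Eu n → ℝ) z = C₀ * Dr (fun w : Eu n => ‖w‖ ^ (-M)) z := by
    have hd := (hP.differentiableAt (by norm_num)).hasFDerivAt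
    have h2 := (hd.sub_const d).const_mul C₀
    have h3 : fderiv ℝ (bar C₀ M d : Eu n → ℝ) z = C₀ • fderiv ℝ (fun w : Eu n => ‖w‖ ^ (-M)) z :=
      h2.fderiv
    unfold Dr
    rw [h3]
    rfl
  have hl1 := lap_norm_rpow (n := n) (-M) hz
  have hl2 := Dr_norm_rpow (n := n) (-M) hz
  rw [hlap, hDr, hl2]
  simp only [bar]
  linear_combination C₀ * hl1

/-- **Module Step.** Strict positivity inside and strict radial monotonicity on the sphere. -/
theorem step_strict {F G : Eu n → ℝ} {a τ p l : ℝ} (hn : 3 ≤ n)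
    (hFc : ContDiffOn ℝ 2 F {0}ᶜ) (hGpos : ∀ x : Eu n, x ≠ 0 → 0 < G x)
    (ha1 : (n : ℝ) - 2 < 2 * a) (ha2 : a ≤ (n : ℝ) - 2) (hτ : 0 < τ) (hp : 0 < p)
    (hE : Eqn n a τ p F G) (hl : 0 < l) (hF : Mono F l) (hG : Mono G l) :
    (∀ x : Eu n, x ≠ 0 → ‖x‖ < l → F x < F ((l ^ 2 / ‖x‖ ^ 2) • x)) ∧
    (∀ x : Eu n, ‖x‖ = l → 0 < Dr F x) := by
  have hc2 : 0 < l ^ 2 := pow_pos hl 2
  have hn' : (3 : ℝ) ≤ n := by exact_mod_cast hn
  have hW := fun (x : Eu n) (hx : x ≠ 0) (hxl : ‖x‖ < l) =>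
    WW_pos hFc hGpos ha1 hτ hp hE hl hF hG hx hxl
  refine ⟨?_, ?_⟩
  · intro x hx hxl
    have := hW x hx hxl
    simp only [WW, inv] at this
    linarith
  · intro x1 hx1
    have hx10 : x1 ≠ 0 := by
      intro h
      rw [h, norm_zero] at hx1
      linarith
    -- constants
    have ha0 : 0 < a := by linarith
    set c : ℝ := a * ((n : ℝ) - 2 - a) with hc
    have hc0 : 0 ≤ c := mul_nonneg ha0.le (by linarith)
    set ρ : ℝ := l / 2 with hρ
    have hρ0 : 0 < ρ := by positivity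
    have hρl : ρ < l := by rw [hρ]; linarith
    -- minimum on the sphere
    have hWC : ContDiffOn ℝ 2 (WW F l) {0}ᶜ := WW_contDiffOn hl hFc
    have hsph : IsCompact (Metric.sphere (0 : Eu n) ρ) := isCompact_sphere _ _
    have hsne : (Metric.sphere (0 : Eu n) ρ).Nonempty := by
      refine ⟨(1 / 2 : ℝ) • x1, ?_⟩
      simp [norm_smul, hx1, hρ]
      ring
    have hsub0 : Metric.sphere (0 : Eu n) ρ ⊆ {0}ᶜ := by
      intro z hz h0
      have h0' : z = 0 := h0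
      rw [h0'] at hz
      simp at hz
      linarith
    obtain ⟨xm, hxm, hmin⟩ := hsph.exists_isMinOn hsne (hWC.continuousOn.mono hsub0)
    have hxmn : ‖xm‖ = ρ := by simpa using hxm
    have hxm0 : xm ≠ 0 := hsub0 hxm
    set η : ℝ := WW F l xm with hη
    have hη0 : 0 < η := hW xm hxm0 (by rw [hxmn]; exact hρl)
    -- exponent
    set b : ℝ := 2 * a - ((n : ℝ) - 2) with hb
    have hb0 : 0 < b := by rw [hb]; linarith
    set M : ℝ := b + c + 1 with hM
    have hM0 : 0 < M := by positivity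
    have hM1 : 1 ≤ M := by rw [hM]; linarith
    have hκ : 0 < M ^ 2 + ((n : ℝ) - 2 - 2 * a) * M - c := by
      have h1 : M ^ 2 + ((n : ℝ) - 2 - 2 * a) * M - c = M * (c + 1) - c := by
        rw [hM, hb]; ring
      rw [h1]
      nlinarith
    set d : ℝ := l ^ (-M) with hd
    have hd0 : 0 < d := Real.rpow_pos_of_pos hl _
    have hgap : d < ρ ^ (-M) := Real.rpow_lt_rpow_of_neg hρ0 hρl (by linarith)
    set C₀ : ℝ := η / (ρ ^ (-M) - d) with hC₀
    have hgap0 : 0 < ρ ^ (-M) - d := by linarith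
    have hC0 : 0 < C₀ := div_pos hη0 hgap0
    have hCρ : C₀ * (ρ ^ (-M) - d) = η := div_mul_cancel₀ _ hgap0.ne'
    -- the comparison
    set K : Set (Eu n) := Metric.closedBall 0 l ∩ {z | ρ ≤ ‖z‖} with hK
    set U : Set (Eu n) := Metric.ball 0 l ∩ {z | ρ < ‖z‖} with hU
    have hKc : IsCompact K :=
      (isCompact_closedBall _ _).inter_right (isClosed_le continuous_const continuous_norm)
    have hUo : IsOpen U := Metric.isOpen_ball.inter (isOpen_lt continuous_const continuous_norm)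
    have hUK : U ⊆ K := by
      intro z hz
      exact ⟨Metric.ball_subset_closedBall hz.1, show ρ ≤ ‖z‖ from le_of_lt hz.2⟩
    have hK0 : K ⊆ {0}ᶜ := by
      intro z hz h0
      have h0' : z = 0 := h0
      have := hz.2
      rw [h0'] at this
      simp at this
      linarith
    have hbarC := bar_contDiffOn (n := n) C₀ M d
    have hdiffC : ContDiffOn ℝ 2 (fun z => WW F l z - bar C₀ M d z) {0}ᶜ := hWC.sub hbarC
    have hcomp := min_principle (K := K) (U := U) (f := fun z => WW F l z - bar C₀ M d z)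
      hKc hUo hUK (hdiffC.continuousOn.mono hK0) (hdiffC.mono (hUK.trans hK0)) ?_ ?_
    · -- differentiate at the boundary
      have hFd : HasFDerivAt F (fderiv ℝ F x1) x1 :=
        ((at_of_ne hFc hx10).differentiableAt (by norm_num)).hasFDerivAt
      have hFd1 : HasFDerivAt F (fderiv ℝ F x1) ((1 : ℝ) • x1) := by simpa using hFd
      have hFd2 : HasFDerivAt F (fderiv ℝ F x1) ((1 : ℝ)⁻¹ • x1) := by simpa using hFd
      have h1 : HasDerivAt (fun s : ℝ => s • x1) x1 1 := by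
        simpa using (hasDerivAt_id (1 : ℝ)).smul_const x1
      have h2 : HasDerivAt (fun s : ℝ => s⁻¹ • x1) (-x1) 1 := by
        have := (hasDerivAt_inv (one_ne_zero : (1 : ℝ) ≠ 0)).smul_const x1
        simpa using this
      have d1 : HasDerivAt (fun s : ℝ => F (s • x1)) (Dr F x1) 1 :=
        hFd1.comp_hasDerivAt (1 : ℝ) h1
      have d2 : HasDerivAt (fun s : ℝ => F (s⁻¹ • x1)) (-Dr F x1) 1 := by
        have h3 := hFd2.comp_hasDerivAt (1 : ℝ) h2
        have e : fderiv ℝ F x1 (-x1) = -Dr F x1 := by simp [Dr]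
        rw [e] at h3
        exact h3
      have d3 : HasDerivAt (fun s : ℝ => s ^ (-M)) (-M) 1 := by
        have := Real.hasDerivAt_rpow_const (x := 1) (p := -M) (Or.inl one_ne_zero)
        simpa using this
      have hφ : HasDerivAt
          (fun s : ℝ => F (s⁻¹ • x1) - F (s • x1) - C₀ * (s ^ (-M) * d - d))
          (-Dr F x1 - Dr F x1 - C₀ * (-M * d)) 1 :=
        (d2.sub d1).sub (((d3.mul_const d).sub_const d).const_mul C₀)
      have hle := deriv_nonpos_of_left hφ (by simp) ?_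
      · have hpos : 0 < C₀ * (M * d) := by positivity
        nlinarith
      · intro s hs1 hs2
        have hs0 : 0 < s := by linarith
        have hnz : ‖s • x1‖ = s * l := by
          rw [norm_smul, hx1, Real.norm_eq_abs, abs_of_pos hs0]
        have hmem : s • x1 ∈ K := by
          refine ⟨?_, ?_⟩
          · rw [mem_closedBall_zero_iff, hnz]
            nlinarith
          · show ρ ≤ ‖s • x1‖
            rw [hnz, hρ]
            nlinarith
        have h3 := hcomp _ hmem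
        have hinv : inv (l ^ 2) (s • x1) = s⁻¹ • x1 := by
          unfold inv
          rw [hnz, smul_smul]
          congr 1
          field_simp
        have hbar : bar C₀ M d (s • x1) = C₀ * (s ^ (-M) * d - d) := by
          simp only [bar]
          rw [hnz, Real.mul_rpow hs0.le hl.le]
        simp only [WW] at h3
        rw [hinv, hbar] at h3
        linarith
    · -- boundary of the annulus
      intro z hz hzU
      have hz0 : z ≠ 0 := hK0 hz
      have hz1 : ‖z‖ ≤ l := by simpa using hz.1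
      have hz2 : ρ ≤ ‖z‖ := hz.2
      have hcase : ‖z‖ = ρ ∨ ‖z‖ = l := by
        by_contra hne
        rw [not_or] at hne
        apply hzU
        refine ⟨?_, ?_⟩
        · rw [mem_ball_zero_iff]
          exact lt_of_le_of_ne hz1 hne.2
        · exact lt_of_le_of_ne hz2 (Ne.symm hne.1)
      rcases hcase with h | h
      · have hzs : z ∈ Metric.sphere (0 : Eu n) ρ := by simpa using h
        have h1 : η ≤ WW F l z := hmin hzs
        have h2 : bar C₀ M d z = η := by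
          simp only [bar]
          rw [h]
          exact hCρ
        show 0 ≤ WW F l z - bar C₀ M d z
        linarith
      · have h1 : WW F l z = 0 := by
          simp only [WW, inv]
          have hone : l ^ 2 / ‖z‖ ^ 2 = 1 := by
            rw [h]
            exact div_self hc2.ne'
          rw [hone, one_smul, sub_self]
        have h2 : bar C₀ M d z = 0 := by
          simp only [bar]
          rw [h, sub_self, mul_zero]
        show 0 ≤ WW F l z - bar C₀ M d z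
        rw [h1, h2, sub_zero]
    · -- interior: no negative minimum
      intro z hz hneg hgrad hlapn
      have hz0 : z ≠ 0 := hK0 (hUK hz)
      have hzl : ‖z‖ < l := by simpa using hz.1
      have hcW : ContDiffAt ℝ 2 (WW F l) z := at_of_ne hWC hz0
      have hcb : ContDiffAt ℝ 2 (bar C₀ M d : Eu n → ℝ) z := at_of_ne hbarC hz0
      have hLW := op_WW_neg hFc hGpos ha1 hτ hp hE hl hF hG hz0 hzl
      have hLb := op_bar (n := n) C₀ M d a hz0
      have hlap2 : Δ (fun z => WW F l z - bar C₀ M d z) z = Δ (WW F l) z - Δ (bar C₀ M d) z :=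
        hcW.laplacian_sub hcb
      have hDr2 : Dr (WW F l) z = Dr (bar C₀ M d) z := by
        have h3 := fderiv_fun_sub (hcW.differentiableAt (by norm_num))
          (hcb.differentiableAt (by norm_num))
        rw [hgrad] at h3
        have h4 := congrArg (fun L => L z) h3
        have h5 : (0 : Eu n →L[ℝ] ℝ) z = fderiv ℝ (WW F l) z z - fderiv ℝ (bar C₀ M d) z z := h4
        have h6 : (0 : Eu n →L[ℝ] ℝ) z = 0 := rfl
        rw [h6] at h5
        unfold Dr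
        linarith
      rw [hlap2] at hlapn
      have hP0 : 0 < ‖z‖ ^ (-M) := Real.rpow_pos_of_pos (norm_pos_iff.2 hz0) _
      have hbarop : 0 < C₀ * ((M ^ 2 + ((n : ℝ) - 2 - 2 * a) * M - c) * ‖z‖ ^ (-M) + c * d) := by
        have h1 : 0 < (M ^ 2 + ((n : ℝ) - 2 - 2 * a) * M - c) * ‖z‖ ^ (-M) := mul_pos hκ hP0
        have h2 : 0 ≤ c * d := mul_nonneg hc0 hd0.le
        exact mul_pos hC0 (by linarith)
      have hz2 : 0 ≤ ‖z‖ ^ 2 * (Δ (WW F l) z - Δ (bar C₀ M d) z) :=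
        mul_nonneg (by positivity) hlapn
      have hcneg : c * (WW F l z - bar C₀ M d z) ≤ 0 :=
        mul_nonpos_of_nonneg_of_nonpos hc0 hneg.le
      rw [hDr2] at hLW
      rw [← hc] at hLW hLb
      have e : ‖z‖ ^ 2 * (Δ (WW F l) z - Δ (bar C₀ M d) z) - c * (WW F l z - bar C₀ M d z)
          = (‖z‖ ^ 2 * Δ (WW F l) z - 2 * ((n : ℝ) - 2 - a) * Dr (bar C₀ M d) z - c * WW F l z)
            - (‖z‖ ^ 2 * Δ (bar C₀ M d) z - 2 * ((n : ℝ) - 2 - a) * Dr (bar C₀ M d) z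
              - c * bar C₀ M d z) := by ring
      rw [hLb] at e
      linarith

end Vale.Agent.Lib.P100.MP
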